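import Mathlib

/-! Green's identity for test functions supported away from the origin; radial Laplacian. -/

set_option autoImplicit false

open MeasureTheory Laplacian InnerProductSpace Metric Set Filter
open scoped ENNReal Topology RealInnerProductSpace

namespace Crest.Agent.R77

namespace Green

variable {E : Type*} [NormedAddCommGroup E] [InnerProductSpace ℝ E] [FiniteDimensional ℝ E]

omit [InnerProductSpace ℝ E] [FiniteDimensional ℝ E] in
theorem continuous_mul_of_tsupport {f g : E → ℝ} {U : Set E} (hU : IsOpen U)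
    (hf : ContinuousOn f U) (hg : Continuous g) (hs : tsupport g ⊆ U) :
    Continuous fun x => f x * g x := by
  rw [continuous_iff_continuousAt]
  intro x
  by_cases hx : x ∈ U
  · exact (hf.continuousAt (hU.mem_nhds hx)).mul hg.continuousAt
  · have : x ∉ tsupport g := fun h => hx (hs h)
    have h0 := notMem_tsupport_iff_eventuallyEq.1 this
    refine (continuousAt_const (y := (0 : ℝ))).congr ?_
    filter_upwards [h0] with y hy
    simp [hy]

theorem integrable_mul_of_tsupport [MeasurableSpace E] [BorelSpace E] {f g : E → ℝ} {U : Set E}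
    (hU : IsOpen U) (hf : ContinuousOn f U) (hg : Continuous g) (hc : HasCompactSupport g)
    (hs : tsupport g ⊆ U) : Integrable (fun x => f x * g x) volume :=
  (continuous_mul_of_tsupport hU hf hg hs).integrable_of_hasCompactSupport hc.mul_left

omit [FiniteDimensional ℝ E] in
theorem second_eq {f : E → ℝ} {x : E} (hf : ContDiffAt ℝ 2 f x) (v : E) :
    iteratedFDeriv ℝ 2 f x ![v, v] = fderiv ℝ (fun y => fderiv ℝ f y v) x v := by
  have h : DifferentiableAt ℝ (fderiv ℝ f) x :=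
    (hf.fderiv_right (m := 1) le_rfl).differentiableAt one_ne_zero
  rw [iteratedFDeriv_two_apply, fderiv_clm_apply h (differentiableAt_const _)]
  simp

theorem laplacian_eq_sum {ι : Type*} [Fintype ι] (b : OrthonormalBasis ι ℝ E) {f : E → ℝ} {x : E}
    (hf : ContDiffAt ℝ 2 f x) :
    (Δ f) x = ∑ i, fderiv ℝ (fun y => fderiv ℝ f y (b i)) x (b i) := by
  rw [laplacian_eq_iteratedFDeriv_orthonormalBasis f b]
  exact Finset.sum_congr rfl fun i _ => second_eq hf _

theorem continuousOn_laplacian {f : E → ℝ} {U : Set E} (hU : IsOpen U) (hf : ContDiffOn ℝ 2 f U) :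
    ContinuousOn (Δ f) U := by
  rw [laplacian_eq_iteratedFDeriv_stdOrthonormalBasis]
  refine continuousOn_finsetSum _ fun i _ x hx => ?_
  have h := (hf.contDiffAt (hU.mem_nhds hx)).continuousAt_iteratedFDeriv (k := 2) le_rfl
  exact (((ContinuousMultilinearMap.apply ℝ _ ℝ _).continuous.continuousAt).comp h).continuousWithinAt

theorem continuous_laplacian {f : E → ℝ} (hf : ContDiff ℝ 2 f) : Continuous (Δ f) :=
  continuousOn_univ.1 (continuousOn_laplacian isOpen_univ hf.contDiffOn)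

theorem tsupport_laplacian_subset (f : E → ℝ) : tsupport (Δ f) ⊆ tsupport f := by
  refine closure_minimal (fun x hx => ?_) (isClosed_tsupport f)
  by_contra h
  have h0 := notMem_tsupport_iff_eventuallyEq.1 h
  apply hx
  have := (laplacian_congr_nhds h0).self_of_nhds
  rw [this]
  exact congrFun (laplacian_const (c := (0 : ℝ))) x

theorem green [MeasurableSpace E] [BorelSpace E] {U : Set E} (hU : IsOpen U) (w ψ : E → ℝ)
    (hw : ContDiffOn ℝ 2 w U) (hψ : ContDiff ℝ 2 ψ) (hc : HasCompactSupport ψ)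
    (h0 : tsupport ψ ⊆ U) : ∫ x, w x * (Δ ψ) x = ∫ x, ψ x * (Δ w) x := by
  set b := stdOrthonormalBasis ℝ E
  have hψ1 : ∀ v : E, ContDiff ℝ 1 fun y => fderiv ℝ ψ y v := fun v =>
    (hψ.fderiv_right (m := 1) le_rfl).clm_apply contDiff_const
  have hψ2 : ∀ v : E, Continuous fun x => fderiv ℝ (fun y => fderiv ℝ ψ y v) x v := fun v =>
    ((hψ1 v).continuous_fderiv one_ne_zero).clm_apply continuous_const
  have hw1 : ∀ v : E, ContDiffOn ℝ 1 (fun y => fderiv ℝ w y v) U := fun v =>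
    (hw.fderiv_of_isOpen hU (m := 1) le_rfl).clm_apply contDiffOn_const
  have hw2 : ∀ v : E, ContinuousOn (fun x => fderiv ℝ (fun y => fderiv ℝ w y v) x v) U := fun v =>
    ((hw1 v).continuousOn_fderiv_of_isOpen hU le_rfl).clm_apply continuousOn_const
  have s1 : ∀ v : E, tsupport (fun y => fderiv ℝ ψ y v) ⊆ tsupport ψ := fun v =>
    tsupport_fderiv_apply_subset ℝ v
  have s2 : ∀ v : E, tsupport (fun x => fderiv ℝ (fun y => fderiv ℝ ψ y v) x v) ⊆ tsupport ψ :=
    fun v => (tsupport_fderiv_apply_subset ℝ v).trans (s1 v)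
  have c1 : ∀ v : E, HasCompactSupport fun y => fderiv ℝ ψ y v := fun v =>
    hc.of_isClosed_subset (isClosed_tsupport _) (s1 v)
  have c2 : ∀ v : E, HasCompactSupport fun x => fderiv ℝ (fun y => fderiv ℝ ψ y v) x v := fun v =>
    hc.of_isClosed_subset (isClosed_tsupport _) (s2 v)
  have i1 : ∀ v : E, Integrable fun x => w x * fderiv ℝ (fun y => fderiv ℝ ψ y v) x v := fun v =>
    integrable_mul_of_tsupport hU hw.continuousOn (hψ2 v) (c2 v) ((s2 v).trans h0)
  have i2 : ∀ v : E, Integrable fun x => fderiv ℝ (fun y => fderiv ℝ w y v) x v * ψ x := fun v =>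
    integrable_mul_of_tsupport hU (hw2 v) hψ.continuous hc h0
  have i3 : ∀ v : E, Integrable fun x => fderiv ℝ w x v * fderiv ℝ ψ x v := fun v =>
    integrable_mul_of_tsupport hU (hw1 v).continuousOn (hψ1 v).continuous (c1 v) ((s1 v).trans h0)
  have key : ∀ v : E, ∫ x, w x * fderiv ℝ (fun y => fderiv ℝ ψ y v) x v =
      ∫ x, fderiv ℝ (fun y => fderiv ℝ w y v) x v * ψ x := fun v => by
    have e1 := integral_mul_fderiv_eq_neg_fderiv_mul_of_integrable (μ := volume) (f := w)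
      (g := fun y => fderiv ℝ ψ y v) (v := v) (i3 v) (i1 v)
      (integrable_mul_of_tsupport hU hw.continuousOn (hψ1 v).continuous (c1 v) ((s1 v).trans h0))
      (fun x hx => (hw.contDiffAt (hU.mem_nhds (h0 (s1 v hx)))).differentiableAt two_ne_zero)
      (fun x _ => (hψ1 v).differentiable one_ne_zero x)
    have e2 := integral_mul_fderiv_eq_neg_fderiv_mul_of_integrable (μ := volume)
      (f := fun y => fderiv ℝ w y v) (g := ψ) (v := v) (i2 v) (i3 v)
      (integrable_mul_of_tsupport hU (hw1 v).continuousOn hψ.continuous hc h0)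
      (fun x hx => ((hw1 v).contDiffAt (hU.mem_nhds (h0 hx))).differentiableAt one_ne_zero)
      (fun x _ => hψ.differentiable two_ne_zero x)
    rw [e1, e2, neg_neg]
  have l1 : ∀ x, w x * (Δ ψ) x = ∑ i, w x * fderiv ℝ (fun y => fderiv ℝ ψ y (b i)) x (b i) :=
    fun x => by rw [laplacian_eq_sum b hψ.contDiffAt, Finset.mul_sum]
  have l2 : ∀ x, ψ x * (Δ w) x = ∑ i, fderiv ℝ (fun y => fderiv ℝ w y (b i)) x (b i) * ψ x :=
    fun x => by
      by_cases hx : x ∈ U
      · rw [laplacian_eq_sum b (hw.contDiffAt (hU.mem_nhds hx)), mul_comm, Finset.sum_mul]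
      · have : ψ x = 0 := image_eq_zero_of_notMem_tsupport fun h => hx (h0 h)
        simp [this]
  simp_rw [l1, l2]
  rw [integral_finsetSum _ fun i _ => i1 _, integral_finsetSum _ fun i _ => i2 _]
  exact Finset.sum_congr rfl fun i _ => key _

theorem radial (Φ : ℝ → ℝ) (x₀ x : E) (hΦ : ContDiffAt ℝ 2 Φ (‖x - x₀‖ ^ 2)) :
    (Δ (fun y : E => Φ (‖y - x₀‖ ^ 2))) x =
      4 * ‖x - x₀‖ ^ 2 * deriv (deriv Φ) (‖x - x₀‖ ^ 2) +
        2 * (Module.finrank ℝ E) * deriv Φ (‖x - x₀‖ ^ 2) := by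
  set b := stdOrthonormalBasis ℝ E
  have hq : ∀ y : E, HasFDerivAt (fun y : E => ‖y - x₀‖ ^ 2) (2 • innerSL ℝ (y - x₀)) y := by
    intro y
    simpa using ((hasFDerivAt_id y).sub_const x₀).norm_sq
  have hqc : ContDiff ℝ 2 fun y : E => ‖y - x₀‖ ^ 2 := (contDiff_id.sub contDiff_const).norm_sq ℝ
  have hev : ∀ᶠ y in 𝓝 x, ContDiffAt ℝ 2 Φ (‖y - x₀‖ ^ 2) :=
    hqc.continuous.continuousAt.eventually (hΦ.eventually (by simp))
  have hd1 : ∀ v : E, (fun y => fderiv ℝ (fun y : E => Φ (‖y - x₀‖ ^ 2)) y v) =ᶠ[𝓝 x]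
      fun y => deriv Φ (‖y - x₀‖ ^ 2) * (2 * ⟪y - x₀, v⟫) := fun v => by
    filter_upwards [hev] with y hy
    have := (hy.differentiableAt two_ne_zero).hasDerivAt.comp_hasFDerivAt y (hq y)
    rw [show (fun y : E => Φ (‖y - x₀‖ ^ 2)) = Φ ∘ fun y : E => ‖y - x₀‖ ^ 2 from rfl, this.fderiv]
    simp [inner_sub_left]
  have hΦ' : DifferentiableAt ℝ (deriv Φ) (‖x - x₀‖ ^ 2) :=
    (hΦ.derivWithin (m := 1) le_rfl).differentiableAt one_ne_zero
  have hd2 : ∀ v : E, fderiv ℝ (fun y => deriv Φ (‖y - x₀‖ ^ 2) * (2 * ⟪y - x₀, v⟫)) x v =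
      4 * ⟪x - x₀, v⟫ ^ 2 * deriv (deriv Φ) (‖x - x₀‖ ^ 2) +
        2 * ‖v‖ ^ 2 * deriv Φ (‖x - x₀‖ ^ 2) := fun v => by
    have h1 := hΦ'.hasDerivAt.comp_hasFDerivAt x (hq x)
    have h2 : HasFDerivAt (fun y : E => 2 * ⟪y - x₀, v⟫) ((2 : ℝ) • innerSL ℝ v) x := by
      have := ((innerSL ℝ v).hasFDerivAt (x := x)).sub_const ⟪v, x₀⟫ |>.const_mul 2
      refine this.congr_of_eventuallyEq (Eventually.of_forall fun y => ?_)
      simp only [innerSL_apply_apply]
      rw [inner_sub_left, real_inner_comm y, real_inner_comm x₀]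
    have h3 := (h1.mul h2).fderiv
    have e : (fun y => deriv Φ (‖y - x₀‖ ^ 2) * (2 * ⟪y - x₀, v⟫)) =
      (deriv Φ ∘ fun y : E => ‖y - x₀‖ ^ 2) * fun y : E => 2 * ⟪y - x₀, v⟫ := rfl
    rw [e, h3]
    simp [inner_sub_left]
    ring
  have hcomp : ContDiffAt ℝ 2 (fun y : E => Φ (‖y - x₀‖ ^ 2)) x :=
    ContDiffAt.comp (g := Φ) (f := fun y : E => ‖y - x₀‖ ^ 2) x hΦ hqc.contDiffAt
  rw [laplacian_eq_sum b hcomp]
  rw [Finset.sum_congr rfl fun i _ => by rw [(hd1 (b i)).fderiv_eq, hd2]]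
  rw [Finset.sum_add_distrib, ← Finset.sum_mul, ← Finset.sum_mul, ← Finset.mul_sum,
    ← Finset.mul_sum, b.sum_sq_inner_left]
  simp

end Green

/-- Green's identity for a test function supported away from the origin. -/
theorem green_compact {n : ℕ} (w ψ : EuclideanSpace ℝ (Fin n) → ℝ) (hw : ContDiffOn ℝ 2 w {0}ᶜ)
    (hψ : ContDiff ℝ 2 ψ) (hc : HasCompactSupport ψ) (h0 : (0 : EuclideanSpace ℝ (Fin n)) ∉ tsupport ψ) :
    ∫ x, w x * (Δ ψ) x = ∫ x, ψ x * (Δ w) x :=
  Green.green isOpen_compl_singleton w ψ hw hψ hc (subset_compl_singleton_iff.2 h0)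

/-- Laplacian of a radial function. -/
theorem laplacian_radial {n : ℕ} (Φ : ℝ → ℝ) (x₀ x : EuclideanSpace ℝ (Fin n))
    (hΦ : ContDiffAt ℝ 2 Φ (‖x - x₀‖ ^ 2)) :
    (Δ (fun y : EuclideanSpace ℝ (Fin n) => Φ (‖y - x₀‖ ^ 2))) x =
      4 * ‖x - x₀‖ ^ 2 * deriv (deriv Φ) (‖x - x₀‖ ^ 2) + 2 * n * deriv Φ (‖x - x₀‖ ^ 2) := by
  simpa using Green.radial Φ x₀ x hΦ

end Crest.Agent.R77
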