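import Mathlib

/-!
# A finite-time blow-up lemma
-/

set_option autoImplicit false

open Filter Topology

namespace Crest.Agent.R77

theorem blowup {E Q : ℝ → ℝ} (hE : Monotone E) {T₁ : ℝ} (hE0 : 0 < E T₁)
    (hQ : Tendsto Q atTop (𝓝 0)) {δ C : ℝ} (hδ : 0 < δ) (hC : 0 < C) (N J₀ : ℕ) (hJ₀ : 0 < J₀)
    (h : ∀ T : ℝ, ∀ J : ℕ, J₀ ≤ J →
      δ * E T ≤ C * (E (T + 2 / J) - E (T - 2 / J)) + C * (J : ℝ) ^ N * Q T) : False := by
  set c := δ / (2 * C) with hc
  have hc0 : 0 < c := by positivity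
  -- polynomial against exponential
  obtain ⟨A, hA0, hA⟩ : ∃ A : ℝ, 0 < A ∧ ∀ k : ℕ, ((J₀ * (k + 1) ^ 2 : ℕ) : ℝ) ^ N ≤ A * (1 + c) ^ k := by
    have h1 : Tendsto (fun k : ℕ => (k : ℝ) ^ (2 * N) / (1 + c) ^ k) atTop (𝓝 0) :=
      tendsto_pow_const_div_const_pow_of_one_lt _ (by linarith)
    obtain ⟨B, hB⟩ := h1.bddAbove_range
    refine ⟨(J₀ : ℝ) ^ N * (max B 1 * (1 + c)), by positivity, fun k => ?_⟩
    have h2 : ((k + 1 : ℕ) : ℝ) ^ (2 * N) / (1 + c) ^ (k + 1) ≤ max B 1 :=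
      (hB ⟨k + 1, rfl⟩).trans (le_max_left _ _)
    rw [div_le_iff₀ (by positivity)] at h2
    push_cast at h2 ⊢
    rw [mul_pow, ← pow_mul]
    calc (J₀ : ℝ) ^ N * ((k : ℝ) + 1) ^ (2 * N) ≤ (J₀ : ℝ) ^ N * (max B 1 * (1 + c) ^ (k + 1)) := by
          gcongr
      _ = _ := by ring
  obtain ⟨t₀, ht₀⟩ : ∃ t₀ : ℝ, ∀ T, t₀ ≤ T → Q T ≤ δ * E T₁ / (2 * C * A) :=
    eventually_atTop.1 (hQ.eventually (ge_mem_nhds (by positivity)))
  let t : ℕ → ℝ := fun k => max t₀ T₁ + ∑ i ∈ Finset.range k, 4 / ((J₀ * (i + 1) ^ 2 : ℕ) : ℝ)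
  have ht : ∀ k, max t₀ T₁ ≤ t k := fun k =>
    le_add_of_nonneg_right (Finset.sum_nonneg fun i _ => by positivity)
  have hb : ∀ k, t k ≤ max t₀ T₁ + 8 := fun k => by
    have : ∀ k : ℕ, ∑ i ∈ Finset.range k, 4 / ((J₀ * (i + 1) ^ 2 : ℕ) : ℝ) ≤ 8 - 8 / ((k : ℝ) + 1) := by
      intro k
      induction k with
      | zero => simp
      | succ k ih =>
        rw [Finset.sum_range_succ]
        have h1 : (1 : ℝ) ≤ J₀ := by exact_mod_cast hJ₀
        have h2 : 4 / ((J₀ * (k + 1) ^ 2 : ℕ) : ℝ) ≤ 4 / ((k : ℝ) + 1) ^ 2 := by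
          push_cast
          gcongr
          nlinarith [sq_nonneg ((k : ℝ) + 1)]
        have h3 : 4 / ((k : ℝ) + 1) ^ 2 ≤ 8 / ((k : ℝ) + 1) - 8 / (((k + 1 : ℕ) : ℝ) + 1) := by
          push_cast
          rw [div_sub_div _ _ (by positivity) (by positivity), div_le_div_iff₀ (by positivity)
            (by positivity)]
          have : (0 : ℝ) ≤ k := Nat.cast_nonneg k
          nlinarith [mul_nonneg this this, mul_nonneg (mul_nonneg this this) this]
        linarith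
    have h2 := this k
    have h3 : 0 ≤ 8 / ((k : ℝ) + 1) := by positivity
    simp only [t]; linarith
  have grow : ∀ k, (1 + c) ^ k * E T₁ ≤ E (t k) := by
    intro k
    induction k with
    | zero => simpa [t] using hE (le_max_right _ _)
    | succ k ih =>
      set J : ℕ := J₀ * (k + 1) ^ 2 with hJ
      have hJ1 : J₀ ≤ J := Nat.le_mul_of_pos_right _ (by positivity)
      have hJp : (0 : ℝ) < J := by exact_mod_cast hJ₀.trans_le hJ1
      have h1 := h (t k + 2 / J) J hJ1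
      have e1 : t k + 2 / J + 2 / J = t (k + 1) := by
        simp only [t, Finset.sum_range_succ]; rw [← hJ]; ring
      have e2 : t k + 2 / J - 2 / J = t k := by ring
      rw [e1, e2] at h1
      have h2 : E (t k) ≤ E (t k + 2 / J) := hE (le_add_of_nonneg_right (by positivity))
      have h3 : Q (t k + 2 / J) ≤ δ * E T₁ / (2 * C * A) :=
        ht₀ _ (((le_max_left _ _).trans (ht k)).trans (le_add_of_nonneg_right (by positivity)))
      have h4 : C * (J : ℝ) ^ N * Q (t k + 2 / J) ≤ δ / 2 * E (t k) := by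
        calc C * (J : ℝ) ^ N * Q (t k + 2 / J) ≤ C * (J : ℝ) ^ N * (δ * E T₁ / (2 * C * A)) := by
              gcongr
          _ ≤ C * (A * (1 + c) ^ k) * (δ * E T₁ / (2 * C * A)) := by gcongr; exact hA k
          _ = δ / 2 * ((1 + c) ^ k * E T₁) := by field_simp
          _ ≤ _ := by gcongr
      have h5 : δ / 2 * E (t k) ≤ C * (E (t (k + 1)) - E (t k)) := by nlinarith
      have h6 : c * E (t k) ≤ E (t (k + 1)) - E (t k) := by
        rw [hc, div_mul_eq_mul_div, div_le_iff₀ (by positivity)]; linarith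
      calc (1 + c) ^ (k + 1) * E T₁ = (1 + c) * ((1 + c) ^ k * E T₁) := by ring
        _ ≤ (1 + c) * E (t k) := by gcongr
        _ ≤ _ := by linarith
  have hlim : Tendsto (fun k : ℕ => (1 + c) ^ k * E T₁) atTop atTop :=
    (tendsto_pow_atTop_atTop_of_one_lt (by linarith)).atTop_mul_const hE0
  obtain ⟨k, hk⟩ := (hlim.eventually (eventually_gt_atTop (E (max t₀ T₁ + 8)))).exists
  exact absurd ((grow k).trans (hE (hb k))) (not_le.2 hk)

end Crest.Agent.R77
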