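import Crest.Agent.R77.Flux
import Crest.Agent.R77.Blowup

/-!
# The cylinder theorem
-/

set_option autoImplicit false
set_option linter.unusedSectionVars false

open MeasureTheory Set Filter Topology
open scoped ENNReal

namespace Crest.Agent.R77

variable {S : Type} [MetricSpace S] [CompactSpace S] [MeasurableSpace S] [BorelSpace S]
  {μ : Measure S} [IsFiniteMeasure μ] {ν : ℝ} {K : Kern S ν}

theorem En_Ioc_toReal (hν : 0 < ν) {p q γ₁ γ₂ : ℝ} {U V : S × ℝ → ℝ}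
    (hV : Half μ K q γ₂ U V) (hU : Half μ K p γ₁ V U) {T₀ T : ℝ} (hT : T₀ ≤ T) :
    (En μ (fun x => dens p γ₁ V x * V x) (Ioc T₀ T)).toReal =
      (En μ (fun x => dens p γ₁ V x * V x) (Iic T)).toReal -
        (En μ (fun x => dens p γ₁ V x * V x) (Iic T₀)).toReal := by
  have hc : Continuous fun x => dens p γ₁ V x * V x := (continuous_dens hV.cont hV.pos).mul hV.cont
  rw [En_Iic_add hc hT, ENNReal.toReal_add (En_Iic_ne_top hν hV hU T₀)
    (En_ne_top μ hc Ioc_subset_Icc_self)]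
  ring

theorem window_ineq (hμ : μ ≠ 0) (hν : 0 < ν) {p q γ₁ γ₂ : ℝ} {U V : S × ℝ → ℝ}
    (hV : Half μ K q γ₂ U V) (hU : Half μ K p γ₁ V U)
    {T ρ₀ ρ ρ₂ σ : ℝ} (hσ : 0 < σ) (hρ₀ : σ ≤ ρ₀) (hρ : ρ₀ + σ < ρ) (hρ1 : ρ < 1)
    (hρ₂ : ρ + σ ≤ ρ₂) :
    γ₁ / (p + 1) * (En μ (fun x => dens p γ₁ V x * V x) (Iic T)).toReal
      + γ₂ / (q + 1) * (En μ (fun x => dens q γ₂ U x * U x) (Iic T)).toReal
      + (p / (p + 1) * Real.exp (-(|γ₁| / p * ρ)) + q / (q + 1) * Real.exp (-(|γ₂| / q * ρ))) *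
        (ZZ μ K σ (mE (dens p γ₁ V) T ρ₂) (mE (dens q γ₂ U) T ρ₂)).toReal
      + (ZZ μ K σ (mE (dens p γ₁ V) T ρ) (mE (dens q γ₂ U) T ρ)).toReal ≤
    2 * (ZZ μ K σ (mE (dens p γ₁ V) T ρ₀) (mE (dens q γ₂ U) T ρ₀)).toReal
      + K.C₀ / σ ^ K.N * Real.exp ν *
        (3 * ((∫⁻ a, mE (dens p γ₁ V) T ρ a ∂μ).toReal *
            (Psi μ ν T (fun y => ENNReal.ofReal (dens q γ₂ U y))).toReal)
          + 4 * ((∫⁻ a, mE (dens q γ₂ U) T ρ a ∂μ).toReal *
            (Psi μ ν T (fun y => ENNReal.ofReal (dens p γ₁ V y))).toReal))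
      + |γ₁| / (p + 1) * (En μ (fun x => dens p γ₁ V x * V x) (Icc (T - ρ) (T + ρ))).toReal
      + |γ₂| / (q + 1) * (En μ (fun x => dens q γ₂ U x * U x) (Icc (T - ρ) (T + ρ))).toReal := by
  obtain ⟨M, hM0, hM⟩ := hV.bounds
  obtain ⟨M', hM0', hM'⟩ := hU.bounds
  have g1 := hU.gam
  have g2 := hV.gam
  have hp := hU.q_pos
  have hq := hV.q_pos
  have t1 := tendsto_En_Iic hν hV hU
  have t2 := tendsto_En_Iic hν hU hV
  have t3 := tendsto_exp_mul_atBot (show 0 < γ₁ + p * ν by linarith)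
  have t4 := tendsto_exp_mul_atBot (show 0 < γ₂ + q * ν by linarith)
  have lim := ((t1.const_mul (γ₁ / (p + 1))).add (t2.const_mul (γ₂ / (q + 1)))).add
    ((((t4.const_mul (M' ^ q)).mul_const (M' * Real.exp ν)).add
      ((t3.const_mul (M ^ p)).mul_const (M * Real.exp ν))).mul_const (μ univ).toReal)
  simp only [mul_zero, add_zero, zero_mul] at lim
  rw [← sub_nonpos]
  refine ge_of_tendsto lim ?_
  filter_upwards [eventually_le_atBot 0, eventually_lt_atBot (T - ρ)] with T₀ h0 hT₀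
  have hexp : ∀ {κ s t : ℝ}, 0 ≤ κ → s ≤ t → Real.exp (κ * s) ≤ Real.exp (κ * t) :=
    fun hκ h => Real.exp_le_exp.2 (mul_le_mul_of_nonneg_left h hκ)
  have h := main_ineq hμ hν hV hU hσ hρ₀ hρ hρ1 hρ₂ hT₀
    (MF := M ^ p * Real.exp ((γ₁ + p * ν) * T₀)) (MG := M' ^ q * Real.exp ((γ₂ + q * ν) * T₀))
    (MU := M' * Real.exp ν) (MV := M * Real.exp ν) (by positivity) (by positivity) (by positivity)
    (by positivity)
    (fun a s hs => (dens_le hp hM0 hV.pos (hM a s (by linarith))).trans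
      (mul_le_mul_of_nonneg_left (hexp (by linarith) hs) (by positivity)))
    (fun a s hs => (dens_le hq hM0' hU.pos (hM' a s (by linarith))).trans
      (mul_le_mul_of_nonneg_left (hexp (by linarith) hs) (by positivity)))
    (fun a s hs => (hM' a s (by linarith)).trans (mul_le_mul_of_nonneg_left
      (by simpa using hexp hν.le (show s ≤ 1 by linarith)) hM0'.le))
    (fun a s hs => (hM a s (by linarith)).trans (mul_le_mul_of_nonneg_left
      (by simpa using hexp hν.le (show s ≤ 1 by linarith)) hM0.le))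
  rw [En_Ioc_toReal hν hV hU (by linarith), En_Ioc_toReal hν hU hV (by linarith)] at h
  linarith

theorem exists_small_drop (z : ℕ → ℝ) {J : ℕ} (hJ : 0 < J) (h0 : 0 ≤ z J) :
    ∃ i < J, z i - z (i + 1) ≤ z 0 / J := by
  by_contra h
  push Not at h
  have h1 : ∑ _i ∈ Finset.range J, z 0 / J < ∑ i ∈ Finset.range J, (z i - z (i + 1)) :=
    Finset.sum_lt_sum_of_nonempty ⟨0, by simpa using hJ⟩ fun i hi => h i (by simpa using hi)
  rw [Finset.sum_range_sub', Finset.sum_const, Finset.card_range, nsmul_eq_mul,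
    mul_div_cancel₀ _ (by exact_mod_cast hJ.ne')] at h1
  linarith

theorem En_Icc_le (hν : 0 < ν) {p q γ₁ γ₂ : ℝ} {U V : S × ℝ → ℝ}
    (hV : Half μ K q γ₂ U V) (hU : Half μ K p γ₁ V U) {T r : ℝ} (hr : 0 ≤ r) {I : Set ℝ}
    (hI : I ⊆ Ioc (T - r) (T + r)) :
    (En μ (fun x => dens p γ₁ V x * V x) I).toReal ≤
      (En μ (fun x => dens p γ₁ V x * V x) (Iic (T + r))).toReal -
        (En μ (fun x => dens p γ₁ V x * V x) (Iic (T - r))).toReal := by
  have hc : Continuous fun x => dens p γ₁ V x * V x := (continuous_dens hV.cont hV.pos).mul hV.cont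
  rw [← En_Ioc_toReal hν hV hU (by linarith)]
  exact ENNReal.toReal_mono (En_ne_top μ hc Ioc_subset_Icc_self) (En_mono μ _ hI)

theorem flux_real (hμ : μ ≠ 0) (hν : 0 < ν) {p q γ₁ γ₂ : ℝ} {U V : S × ℝ → ℝ}
    (hV : Half μ K q γ₂ U V) (hU : Half μ K p γ₁ V U) (T : ℝ) {J : ℕ} (hJ : 0 < J) :
    (En μ (fun x => dens p γ₁ V x * V x) (Iic T)).toReal ≤
      (En μ (fun x => dens q γ₂ U x * U x) (Iic T)).toReal
      + ((En μ (fun x => dens p γ₁ V x * V x) (Iic (T + 2 / J))).toReal -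
        (En μ (fun x => dens p γ₁ V x * V x) (Iic (T - 2 / J))).toReal)
      + K.C₀ * (J : ℝ) ^ K.N * ((Psi μ ν T (fun y => ENNReal.ofReal (dens p γ₁ V y))).toReal *
          (Psi μ ν T (fun y => ENNReal.ofReal (dens q γ₂ U y))).toReal) := by
  have hF : Continuous (dens p γ₁ V) := continuous_dens hV.cont hV.pos
  have hG : Continuous (dens q γ₂ U) := continuous_dens hU.cont hU.pos
  have hJ' : (1 : ℝ) ≤ J := by exact_mod_cast hJ
  have hσ : (0 : ℝ) < 1 / J := by positivity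
  have h := flux hF hG (dens_pos hV.pos) (dens_pos hU.pos) hV.rep' hU.rep' T hσ
    (by rw [div_le_one (by linarith)]; exact hJ')
  have f1 := En_Iic_ne_top hν hU hV T
  have f2 : En μ (fun x => dens p γ₁ V x * V x) (Ioc (T - 1 / J) T) ≠ ⊤ :=
    En_ne_top μ (hF.mul hV.cont) Ioc_subset_Icc_self
  have f5 := Psi_ne_top hG hV.rep' hμ T
  have f6 := Psi_ne_top hF hU.rep' hμ T
  have h2 := ENNReal.toReal_mono (by finiteness) h
  simp (disch := finiteness) only [ENNReal.toReal_add, ENNReal.toReal_mul] at h2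
  rw [ENNReal.toReal_ofReal (div_nonneg K.C₀_pos.le (by positivity)), one_div, inv_pow,
    div_inv_eq_mul, ← one_div] at h2
  have h3 := En_Icc_le hν hV hU (T := T) (r := 2 / J) (by positivity) (I := Ioc (T - 1 / J) T)
    (Ioc_subset_Ioc (by rw [show (2 : ℝ) / J = 1 / J + 1 / J by ring]; linarith)
      (le_add_of_nonneg_right (by positivity)))
  linarith

theorem pohozaev_window (hμ : μ ≠ 0) (hν : 0 < ν) {p q γ₁ γ₂ : ℝ} {U V : S × ℝ → ℝ}
    (hV : Half μ K q γ₂ U V) (hU : Half μ K p γ₁ V U) (hpq : 1 < p * q) :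
    ∃ J₀ : ℕ, 0 < J₀ ∧ ∀ T : ℝ, ∀ J : ℕ, J₀ ≤ J →
      γ₁ / (p + 1) * (En μ (fun x => dens p γ₁ V x * V x) (Iic T)).toReal
        + γ₂ / (q + 1) * (En μ (fun x => dens q γ₂ U x * U x) (Iic T)).toReal ≤
      (2 + |γ₁| / (p + 1)) * ((En μ (fun x => dens p γ₁ V x * V x) (Iic (T + 2 / J))).toReal -
          (En μ (fun x => dens p γ₁ V x * V x) (Iic (T - 2 / J))).toReal)
        + |γ₂| / (q + 1) * ((En μ (fun x => dens q γ₂ U x * U x) (Iic (T + 2 / J))).toReal -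
          (En μ (fun x => dens q γ₂ U x * U x) (Iic (T - 2 / J))).toReal)
        + K.C₀ * 4 ^ K.N * Real.exp ν * Real.exp ν * 4 * (J : ℝ) ^ (2 * K.N + 1) *
          ((Psi μ ν T (fun y => ENNReal.ofReal (dens p γ₁ V y))).toReal *
            (Psi μ ν T (fun y => ENNReal.ofReal (dens q γ₂ U y))).toReal) := by
  have hp := hU.q_pos
  have hq := hV.q_pos
  set F := dens p γ₁ V with hFdef
  set G := dens q γ₂ U with hGdef
  have hF : Continuous F := continuous_dens hV.cont hV.pos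
  have hG : Continuous G := continuous_dens hU.cont hU.pos
  have hF0 : ∀ x, 0 < F x := dens_pos hV.pos
  have hG0 : ∀ x, 0 < G x := dens_pos hU.pos
  -- the coefficient is at least one for small windows
  obtain ⟨ε, hε, hcoef⟩ : ∃ ε : ℝ, 0 < ε ∧ ∀ ρ : ℝ, |ρ| < ε →
      1 ≤ p / (p + 1) * Real.exp (-(|γ₁| / p * ρ)) + q / (q + 1) * Real.exp (-(|γ₂| / q * ρ)) := by
    have hc : Continuous fun ρ : ℝ =>
        p / (p + 1) * Real.exp (-(|γ₁| / p * ρ)) + q / (q + 1) * Real.exp (-(|γ₂| / q * ρ)) := by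
      fun_prop
    have h0 : 1 < p / (p + 1) * Real.exp (-(|γ₁| / p * 0)) +
        q / (q + 1) * Real.exp (-(|γ₂| / q * 0)) := by
      simp only [mul_zero, neg_zero, Real.exp_zero, mul_one]
      rw [div_add_div _ _ (by positivity) (by positivity), lt_div_iff₀ (by positivity)]
      nlinarith
    obtain ⟨ε, hε, h⟩ := Metric.eventually_nhds_iff.1
      (hc.continuousAt.eventually (lt_mem_nhds h0))
    exact ⟨ε, hε, fun ρ hρ => (h (by simpa using hρ)).le⟩
  obtain ⟨J₁, hJ₁⟩ := exists_nat_gt (2 / ε)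
  refine ⟨max J₁ 2, by positivity, fun T J hJ => ?_⟩
  have hJ2 : (2 : ℝ) ≤ J := by exact_mod_cast (le_max_right _ _).trans hJ
  have hJ3 : (J₁ : ℝ) ≤ J := by exact_mod_cast (le_max_left _ _).trans hJ
  have hJ0 : (0 : ℝ) < J := by linarith
  set h : ℝ := 1 / J with hh
  have hh0 : 0 < h := by positivity
  have hhJ : h * J = 1 := by rw [hh]; field_simp
  have hh2 : h ≤ 1 / 2 := by rw [hh]; gcongr
  have hhε : 2 * h < ε := by
    rw [div_lt_iff₀ hε] at hJ₁
    nlinarith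
  set σ : ℝ := h ^ 2 / 4 with hσ
  have hσ0 : 0 < σ := by positivity
  have hσh : σ ≤ h / 2 := by rw [hσ]; nlinarith
  let z : ℝ → ℝ := fun r => (ZZ μ K σ (mE F T r) (mE G T r)).toReal
  have zfin : ∀ r, σ ≤ r → ZZ μ K σ (mE F T r) (mE G T r) ≠ ⊤ := fun r hr =>
    ZZ_ne_top hG hV.rep' hV.cont hF hF0 hr (by linarith)
  have zanti : ∀ r r', σ ≤ r → r ≤ r' → z r' ≤ z r := fun r r' hr hrr =>
    ENNReal.toReal_mono (zfin r hr) (lintegral_mono fun x => mul_le_mul_left (mul_le_mul'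
      (ENNReal.ofReal_le_ofReal (mn_anti hF T (by linarith) hrr _))
      (ENNReal.ofReal_le_ofReal (mn_anti hG T (by linarith) hrr _))) _)
  obtain ⟨i, hi, hdrop⟩ := exists_small_drop (fun i : ℕ => z (h + i * h ^ 2)) (J := J)
    (by exact_mod_cast hJ0) ENNReal.toReal_nonneg
  have hi' : (i : ℝ) + 1 ≤ J := by exact_mod_cast hi
  have hi0 : (0 : ℝ) ≤ i := Nat.cast_nonneg i
  simp only [Nat.cast_zero, zero_mul, add_zero, Nat.cast_add, Nat.cast_one] at hdrop
  set ρ₀ := h + i * h ^ 2 with hρ₀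
  have hρ₀h : h ≤ ρ₀ := le_add_of_nonneg_right (by positivity)
  have hρ₂ : h + (i + 1) * h ^ 2 ≤ 2 * h := by nlinarith
  have e2 : h + (i + 1) * h ^ 2 = ρ₀ + 4 * σ := by rw [hρ₀, hσ]; ring
  rw [e2] at hdrop hρ₂
  have w := window_ineq hμ hν hV hU (T := T) (ρ₀ := ρ₀) (ρ := ρ₀ + 2 * σ) (ρ₂ := ρ₀ + 4 * σ) hσ0
    (by linarith) (by linarith) (by linarith) (by linarith)
  rw [← hFdef, ← hGdef] at w
  have c1 := hcoef (ρ₀ + 2 * σ) (by rw [abs_of_pos (by linarith)]; linarith)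
  have c2 := zanti (ρ₀ + 2 * σ) (ρ₀ + 4 * σ) (by linarith) (by linarith)
  have c3 : z (ρ₀ + 4 * σ) ≤ (p / (p + 1) * Real.exp (-(|γ₁| / p * (ρ₀ + 2 * σ))) +
      q / (q + 1) * Real.exp (-(|γ₂| / q * (ρ₀ + 2 * σ)))) * z (ρ₀ + 4 * σ) :=
    le_mul_of_one_le_left ENNReal.toReal_nonneg c1
  have e3 : (2 : ℝ) / J = 2 * h := by rw [hh]; ring
  have hsub : ∀ r, r < 2 * h → Icc (T - r) (T + r) ⊆ Ioc (T - 2 / J) (T + 2 / J) := fun r hr s hs =>
    ⟨by rw [e3]; linarith [hs.1], by rw [e3]; linarith [hs.2]⟩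
  have n1 := En_Icc_le hν hV hU (T := T) (r := 2 / J) (by positivity) (hsub h (by linarith))
  have n2 := En_Icc_le hν hV hU (T := T) (r := 2 / J) (by positivity)
    (hsub (ρ₀ + 2 * σ) (by linarith))
  have n3 := En_Icc_le hν hU hV (T := T) (r := 2 / J) (by positivity)
    (hsub (ρ₀ + 2 * σ) (by linarith))
  rw [← hFdef] at n1 n2
  rw [← hGdef] at n3
  have c4 : z h / J ≤ (En μ (fun x => F x * V x) (Icc (T - h) (T + h))).toReal := by
    have := ENNReal.toReal_mono (En_ne_top μ (hF.mul hV.cont) subset_rfl)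
      (ZZ_le_En hG hV.rep' hF hF0 (T := T) hσ0.le hσh)
    rw [ENNReal.toReal_mul, ENNReal.toReal_ofReal hh0.le] at this
    rw [div_eq_mul_one_div, mul_comm]
    exact this
  have f5 := Psi_ne_top hG hV.rep' hμ T
  have f6 := Psi_ne_top hF hU.rep' hμ T
  set X := (Psi μ ν T (fun y => ENNReal.ofReal (F y))).toReal
  set Y := (Psi μ ν T (fun y => ENNReal.ofReal (G y))).toReal
  have hX : 0 ≤ X := ENNReal.toReal_nonneg
  have hY : 0 ≤ Y := ENNReal.toReal_nonneg
  have mass : ∀ {f : S × ℝ → ℝ}, Continuous f →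
      Psi μ ν T (fun y => ENNReal.ofReal (f y)) ≠ ⊤ →
      (∫⁻ a, mE f T (ρ₀ + 2 * σ) a ∂μ).toReal ≤
        J * Real.exp ν / 2 * (Psi μ ν T (fun y => ENNReal.ofReal (f y))).toReal := by
    intro f hf hfin
    have := ENNReal.toReal_mono hfin (int_mE_le (μ := μ) hν.le hf (T := T) (r := h)
      (ρ := ρ₀ + 2 * σ) (by linarith) (by linarith))
    rw [ENNReal.toReal_mul, ENNReal.toReal_ofReal (by positivity)] at this
    have e : J * Real.exp ν / 2 * (2 * h * Real.exp (-ν)) = 1 := by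
      rw [Real.exp_neg, hh]; field_simp
    calc _ = J * Real.exp ν / 2 * (2 * h * Real.exp (-ν) *
          (∫⁻ a, mE f T (ρ₀ + 2 * σ) a ∂μ).toReal) := by rw [← mul_assoc, e, one_mul]
      _ ≤ _ := by gcongr
  have m1 := mass hF f6
  have m2 := mass hG f5
  have far : K.C₀ / σ ^ K.N * Real.exp ν *
      (3 * ((∫⁻ a, mE F T (ρ₀ + 2 * σ) a ∂μ).toReal * Y) +
        4 * ((∫⁻ a, mE G T (ρ₀ + 2 * σ) a ∂μ).toReal * X)) ≤
      K.C₀ * 4 ^ K.N * Real.exp ν * Real.exp ν * 4 * (J : ℝ) ^ (2 * K.N + 1) * (X * Y) := by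
    have hC := K.C₀_pos
    have e : K.C₀ / σ ^ K.N = K.C₀ * 4 ^ K.N * (J : ℝ) ^ (2 * K.N) := by
      rw [hσ, hh, pow_mul, div_pow, div_pow, div_pow, one_pow, one_pow]; field_simp
    rw [e]
    calc _ ≤ K.C₀ * 4 ^ K.N * (J : ℝ) ^ (2 * K.N) * Real.exp ν *
          (4 * ((J * Real.exp ν / 2 * X) * Y) + 4 * ((J * Real.exp ν / 2 * Y) * X)) := by
          gcongr; norm_num
      _ = _ := by ring
  have a1 := mul_le_mul_of_nonneg_left n2 (show 0 ≤ |γ₁| / (p + 1) by positivity)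
  have a2 := mul_le_mul_of_nonneg_left n3 (show 0 ≤ |γ₂| / (q + 1) by positivity)
  simp only [z] at hdrop c2 c3 c4
  linarith

/-- The cylinder theorem. -/
theorem core {S : Type} [MetricSpace S] [CompactSpace S] [MeasurableSpace S] [BorelSpace S]
    (μ : Measure S) [IsFiniteMeasure μ] (hμ : μ ≠ 0) {ν : ℝ} (hν : 0 < ν) (K : Kern S ν)
    (p q γ₁ γ₂ : ℝ) (U V : S × ℝ → ℝ) (hV : Half μ K q γ₂ U V) (hU : Half μ K p γ₁ V U)
    (hδ : 0 < γ₁ / (p + 1) + γ₂ / (q + 1)) : False := by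
  have hp := hU.q_pos
  have hq := hV.q_pos
  have hF : Continuous (dens p γ₁ V) := continuous_dens hV.cont hV.pos
  have hG : Continuous (dens q γ₂ U) := continuous_dens hU.cont hU.pos
  have hF0 : ∀ x, 0 < dens p γ₁ V x := dens_pos hV.pos
  have hG0 : ∀ x, 0 < dens q γ₂ U x := dens_pos hU.pos
  obtain ⟨C₁, h₁⟩ := log_Psi_le hμ hν hV hU
  obtain ⟨C₂, h₂⟩ := log_Psi_le hμ hν hU hV
  set X := fun T => (Psi μ ν T (fun y => ENNReal.ofReal (dens p γ₁ V y))).toReal with hX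
  set Y := fun T => (Psi μ ν T (fun y => ENNReal.ofReal (dens q γ₂ U y))).toReal with hY
  have hX0 : ∀ T, 0 < X T := fun T =>
    ENNReal.toReal_pos (Psi_pos hμ hν.le hF hF0 T) (Psi_ne_top hF hU.rep' hμ T)
  have hY0 : ∀ T, 0 < Y T := fun T =>
    ENNReal.toReal_pos (Psi_pos hμ hν.le hG hG0 T) (Psi_ne_top hG hV.rep' hμ T)
  set Γ := (q + 1) * γ₁ + (p + 1) * γ₂ with hΓ
  set C := (q + 1) * C₁ + (p + 1) * C₂ with hC
  have comb : ∀ T, C + Γ * T ≤ (1 - p * q) * (Real.log (X T) + Real.log (Y T)) := fun T => by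
    have a := mul_le_mul_of_nonneg_left (h₁ T) (show 0 ≤ q + 1 by positivity)
    have b := mul_le_mul_of_nonneg_left (h₂ T) (show 0 ≤ p + 1 by positivity)
    simp only [hΓ, hC, hX, hY]
    linarith
  rcases le_or_gt (p * q) 1 with hpq | hpq
  · have up : ∀ {f : S × ℝ → ℝ} (T : ℝ), 0 ≤ T → Psi μ ν 0 (fun y => ENNReal.ofReal (f y)) ≠ ⊤ →
        0 < (Psi μ ν T (fun y => ENNReal.ofReal (f y))).toReal →
        0 < (Psi μ ν 0 (fun y => ENNReal.ofReal (f y))).toReal →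
        Real.log (Psi μ ν T (fun y => ENNReal.ofReal (f y))).toReal ≤
          ν * T + Real.log (Psi μ ν 0 (fun y => ENNReal.ofReal (f y))).toReal := by
      intro f T hT hfin hpos hpos'
      have := ENNReal.toReal_mono (by finiteness)
        (Psi_shift (μ := μ) hν.le (B := fun y => ENNReal.ofReal (f y)) T 0)
      rw [ENNReal.toReal_mul, ENNReal.toReal_ofReal (by positivity), zero_sub, abs_neg,
        abs_of_nonneg hT] at this
      have := Real.log_le_log hpos this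
      rwa [Real.log_mul (by positivity) hpos'.ne', Real.log_exp] at this
    have g1 := hU.gam
    have g2 := hV.gam
    have hκ : 0 < Γ - 2 * ν * (1 - p * q) := by
      have a := mul_pos (show 0 < q + 1 by positivity) (sub_pos.2 g1)
      have b := mul_pos (show 0 < p + 1 by positivity) (sub_pos.2 g2)
      rw [hΓ]; linarith
    obtain ⟨T, hT⟩ := ((tendsto_id.const_mul_atTop hκ).eventually (eventually_gt_atTop
      ((1 - p * q) * (Real.log (X 0) + Real.log (Y 0)) - C))).and (eventually_ge_atTop 0) |>.exists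
    have u1 := up T hT.2 (Psi_ne_top hF hU.rep' hμ 0) (hX0 T) (hX0 0)
    have u2 := up T hT.2 (Psi_ne_top hG hV.rep' hμ 0) (hY0 T) (hY0 0)
    have u3 := mul_le_mul_of_nonneg_left (add_le_add u1 u2) (sub_nonneg.2 hpq)
    have := comb T
    have h3 := hT.1
    simp only [id, hX, hY] at h3 this
    linarith
  · set δ := γ₁ / (p + 1) + γ₂ / (q + 1) with hδdef
    have hΓ0 : 0 < Γ := by
      have : Γ = (p + 1) * (q + 1) * δ := by rw [hΓ, hδdef]; field_simp
      rw [this]; positivity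
    have hQ : Tendsto (fun T => X T * Y T) atTop (𝓝 0) := by
      have h1 : Tendsto (fun T => Real.exp (-(C + Γ * T) / (p * q - 1))) atTop (𝓝 0) := by
        refine Real.tendsto_exp_atBot.comp (Tendsto.atBot_div_const (by linarith) ?_)
        exact tendsto_neg_atTop_atBot.comp
          (tendsto_atTop_add_const_left _ _ (tendsto_id.const_mul_atTop hΓ0))
      refine squeeze_zero (fun T => (mul_pos (hX0 T) (hY0 T)).le) (fun T => ?_) h1
      rw [← Real.exp_log (mul_pos (hX0 T) (hY0 T)), Real.log_mul (hX0 T).ne' (hY0 T).ne']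
      refine Real.exp_le_exp.2 ?_
      rw [le_div_iff₀ (by linarith)]
      linarith [comb T]
    obtain ⟨J₀, hJ₀, hw⟩ := pohozaev_window hμ hν hV hU hpq
    set e₁ := fun T => (En μ (fun x => dens p γ₁ V x * V x) (Iic T)).toReal with he₁
    set e₂ := fun T => (En μ (fun x => dens q γ₂ U x * U x) (Iic T)).toReal with he₂
    have m₁ : Monotone e₁ := fun s t h =>
      ENNReal.toReal_mono (En_Iic_ne_top hν hV hU t) (En_mono μ _ (Iic_subset_Iic.2 h))
    have m₂ : Monotone e₂ := fun s t h =>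
      ENNReal.toReal_mono (En_Iic_ne_top hν hU hV t) (En_mono μ _ (Iic_subset_Iic.2 h))
    have hE0 : 0 < e₁ 1 + e₂ 1 := by
      refine add_pos_of_pos_of_nonneg (ENNReal.toReal_pos ?_ (En_Iic_ne_top hν hV hU 1))
        ENNReal.toReal_nonneg
      have hc : Continuous fun x => dens p γ₁ V x * V x := hF.mul hV.cont
      intro h0
      unfold En at h0
      rw [lintegral_eq_zero_iff (meas_inner hc _)] at h0
      have : ∀ᵐ a ∂μ, False := by
        filter_upwards [h0] with a ha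
        have h1 : ENNReal.ofReal (mn (fun x => dens p γ₁ V x * V x) 0 1 a) * volume (Icc (-1 : ℝ) 1) ≤
            ∫⁻ s in Iic 1, ENNReal.ofReal (dens p γ₁ V (a, s) * V (a, s)) := by
          rw [← setLIntegral_const]
          refine le_trans (setLIntegral_mono' measurableSet_Icc fun s hs =>
            ENNReal.ofReal_le_ofReal (mn_le hc a ?_)) (lintegral_mono_set Icc_subset_Iic_self)
          simpa using abs_le.2 hs
        simp only [Pi.zero_apply] at ha
        rw [ha, nonpos_iff_eq_zero, mul_eq_zero] at h1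
        rcases h1 with h1 | h1
        · rw [ENNReal.ofReal_eq_zero] at h1
          exact absurd h1 (not_le.2 (mn_pos hc (fun x => mul_pos (hF0 x) (hV.pos x)) 0 zero_le_one a))
        · norm_num at h1
      simp only [eventually_false_iff_eq_bot, ae_eq_bot] at this
      exact hμ this
    set a₁ := γ₁ / (p + 1)
    set a₂ := γ₂ / (q + 1)
    set k := (a₁ - a₂) / 2 with hk
    set A₁ := |γ₁| / (p + 1)
    set A₂ := |γ₂| / (q + 1)
    have hA₁ : 0 ≤ A₁ := by positivity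
    have hA₂ : 0 ≤ A₂ := by positivity
    set B := K.C₀ * 4 ^ K.N * Real.exp ν * Real.exp ν * 4
    have hC₀ := K.C₀_pos
    have hB : 0 < B := by positivity
    refine blowup (E := fun T => e₁ T + e₂ T) (Q := fun T => X T * Y T) (m₁.add m₂) hE0 hQ
      (δ := δ / 2) (C := 2 + A₁ + A₂ + |k| + B + |k| * K.C₀) (by positivity) (by positivity)
      (2 * K.N + 1) J₀ hJ₀ fun T J hJ => ?_
    have hJ0 : 0 < J := hJ₀.trans_le hJ
    have hJ1 : (1 : ℝ) ≤ J := by exact_mod_cast hJ0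
    have w := hw T J hJ
    have f1 := flux_real hμ hν hV hU T hJ0
    have f2 := flux_real hμ hν hU hV T hJ0
    have hr : (0 : ℝ) ≤ 2 / J := by positivity
    have d1 : 0 ≤ e₁ (T + 2 / J) - e₁ (T - 2 / J) := sub_nonneg.2 (m₁ (by linarith))
    have d2 : 0 ≤ e₂ (T + 2 / J) - e₂ (T - 2 / J) := sub_nonneg.2 (m₂ (by linarith))
    have hQ0 : 0 ≤ X T * Y T := (mul_pos (hX0 T) (hY0 T)).le
    have hpow : (J : ℝ) ^ K.N ≤ (J : ℝ) ^ (2 * K.N + 1) := pow_le_pow_right₀ hJ1 (by omega)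
    have hP : K.C₀ * (J : ℝ) ^ K.N * (X T * Y T) ≤ K.C₀ * (J : ℝ) ^ (2 * K.N + 1) * (X T * Y T) := by
      gcongr
    change a₁ * e₁ T + a₂ * e₂ T ≤ (2 + A₁) * (e₁ (T + 2 / J) - e₁ (T - 2 / J)) +
      A₂ * (e₂ (T + 2 / J) - e₂ (T - 2 / J)) + B * (J : ℝ) ^ (2 * K.N + 1) * (X T * Y T) at w
    change e₁ T ≤ e₂ T + (e₁ (T + 2 / J) - e₁ (T - 2 / J)) + K.C₀ * (J : ℝ) ^ K.N * (X T * Y T) at f1
    change e₂ T ≤ e₁ T + (e₂ (T + 2 / J) - e₂ (T - 2 / J)) + K.C₀ * (J : ℝ) ^ K.N * (Y T * X T) at f2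
    rw [mul_comm (Y T)] at f2
    set D₁ := e₁ (T + 2 / J) - e₁ (T - 2 / J)
    set D₂ := e₂ (T + 2 / J) - e₂ (T - 2 / J)
    set P := (J : ℝ) ^ (2 * K.N + 1) * (X T * Y T) with hPdef
    have hP0 : 0 ≤ P := by positivity
    have habs : |e₁ T - e₂ T| ≤ D₁ + D₂ + K.C₀ * P := by
      rw [mul_assoc K.C₀ _ (X T * Y T), mul_assoc K.C₀ _ (X T * Y T)] at hP
      rw [mul_assoc K.C₀] at f1 f2
      exact abs_le.2 ⟨by linarith, by linarith⟩
    have hk2 : -(k * (e₁ T - e₂ T)) ≤ |k| * (D₁ + D₂ + K.C₀ * P) := by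
      refine (neg_le_abs _).trans ?_
      rw [abs_mul]; gcongr
    have hk0 := abs_nonneg k
    have e : δ / 2 * (e₁ T + e₂ T) = a₁ * e₁ T + a₂ * e₂ T - k * (e₁ T - e₂ T) := by
      rw [hδdef, hk]; ring
    have e' : (2 + A₁ + A₂ + |k| + B + |k| * K.C₀) *
          (e₁ (T + 2 / J) + e₂ (T + 2 / J) - (e₁ (T - 2 / J) + e₂ (T - 2 / J))) +
        (2 + A₁ + A₂ + |k| + B + |k| * K.C₀) * (J : ℝ) ^ (2 * K.N + 1) * (X T * Y T) =
        (2 + A₁ + A₂ + |k| + B + |k| * K.C₀) * (D₁ + D₂ + P) := by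
      simp only [D₁, D₂, P]; ring
    rw [e, e']
    rw [mul_assoc B] at w
    have q1 := mul_nonneg hA₂ d1
    have q2 := mul_nonneg hA₁ d2
    have q3 := mul_nonneg hB.le d1
    have q4 := mul_nonneg hB.le d2
    have q5 := mul_nonneg (mul_nonneg hk0 hC₀.le) d1
    have q6 := mul_nonneg (mul_nonneg hk0 hC₀.le) d2
    have q7 := mul_nonneg hA₁ hP0
    have q8 := mul_nonneg hA₂ hP0
    have q9 := mul_nonneg hk0 hP0
    nlinarith

end Crest.Agent.R77
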