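import Crest.Agent.R77.OneD

/-!
# The measurable level-by-level cut of a positive continuous function on the cylinder
-/

set_option autoImplicit false
set_option linter.unusedSectionVars false

open MeasureTheory Set
open scoped ENNReal

namespace Crest.Agent.R77

variable {S : Type} [MetricSpace S] [CompactSpace S] [MeasurableSpace S] [BorelSpace S]

/-- minimum of `f` on the window of radius `ρ` about `T` on the ray `a` -/
noncomputable def mn (f : S × ℝ → ℝ) (T ρ : ℝ) (a : S) : ℝ :=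
  sInf ((fun s => f (a, s)) '' Icc (T - ρ) (T + ρ))

section
omit [CompactSpace S] [MeasurableSpace S] [BorelSpace S]

theorem continuous_mn {f : S × ℝ → ℝ} (hf : Continuous f) (T ρ : ℝ) : Continuous (mn f T ρ) :=
  isCompact_Icc.continuous_sInf (f := fun a s => f (a, s)) hf

theorem mn_le {f : S × ℝ → ℝ} (hf : Continuous f) {T ρ : ℝ} (a : S) {s : ℝ} (hs : |s - T| ≤ ρ) :
    mn f T ρ a ≤ f (a, s) := by
  refine csInf_le (isCompact_Icc.image (by fun_prop)).bddBelow ⟨s, ?_, rfl⟩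
  have := abs_le.1 hs
  exact ⟨by linarith, by linarith⟩

theorem exists_mn {f : S × ℝ → ℝ} (hf : Continuous f) (T : ℝ) {ρ : ℝ} (hρ : 0 ≤ ρ) (a : S) :
    ∃ s, |s - T| ≤ ρ ∧ f (a, s) = mn f T ρ a := by
  have hc : IsCompact ((fun s => f (a, s)) '' Icc (T - ρ) (T + ρ)) :=
    isCompact_Icc.image (by fun_prop)
  obtain ⟨s, hs, h⟩ := hc.sInf_mem ⟨_, T, ⟨by linarith, by linarith⟩, rfl⟩
  exact ⟨s, abs_le.2 ⟨by linarith [hs.1], by linarith [hs.2]⟩, h⟩

theorem mn_pos {f : S × ℝ → ℝ} (hf : Continuous f) (hpos : ∀ x, 0 < f x) (T : ℝ) {ρ : ℝ}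
    (hρ : 0 ≤ ρ) (a : S) : 0 < mn f T ρ a := by
  obtain ⟨s, -, h⟩ := exists_mn hf T hρ a
  rw [← h]; exact hpos _

theorem mn_anti {f : S × ℝ → ℝ} (hf : Continuous f) (T : ℝ) {ρ ρ' : ℝ} (hρ : 0 ≤ ρ) (h : ρ ≤ ρ')
    (a : S) : mn f T ρ' a ≤ mn f T ρ a := by
  obtain ⟨s, hs, h'⟩ := exists_mn hf T hρ a
  rw [← h']; exact mn_le hf a (hs.trans h)

theorem lt_mn {f : S × ℝ → ℝ} (hf : Continuous f) (T : ℝ) {ρ : ℝ} (hρ : 0 ≤ ρ) (a : S) {l : ℝ}
    (h : ∀ s, |s - T| ≤ ρ → l < f (a, s)) : l < mn f T ρ a := by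
  obtain ⟨s, hs, h'⟩ := exists_mn hf T hρ a
  rw [← h']; exact h s hs

end

/-- A measurable choice of cut point for every ray and level. -/
structure Cut (f : S × ℝ → ℝ) (T ρ : ℝ) where
  /-- the cut point, as a function of (ray, level) -/
  τ : S × ℝ → ℝ
  meas : Measurable τ
  long : ∀ a l, l < mn f T ρ a → τ (a, l) = T
  short : ∀ a l, mn f T ρ a ≤ l → |τ (a, l) - T| ≤ ρ ∧ f (a, τ (a, l)) ≤ l ∧
    ∀ s, |s - T| < |τ (a, l) - T| → l < f (a, s)

theorem exists_cut {f : S × ℝ → ℝ} (hf : Continuous f) (T : ℝ) {ρ : ℝ} (hρ : 0 ≤ ρ) :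
    Nonempty (Cut f T ρ) := by
  classical
  -- the hitting radius
  let A : S × ℝ → Set ℝ := fun x => {y | y ∈ Icc 0 ρ ∧ mn f T y x.1 ≤ x.2} ∪ {ρ}
  have hbdd : ∀ x, BddBelow (A x) := fun x => ⟨0, by
    rintro y (hy | hy)
    · exact hy.1.1
    · rw [mem_singleton_iff.1 hy]; exact hρ⟩
  have hne : ∀ x, (A x).Nonempty := fun x => ⟨ρ, Or.inr rfl⟩
  let r : S × ℝ → ℝ := fun x => sInf (A x)
  have hr0 : ∀ x, 0 ≤ r x := fun x => le_csInf (hne x) (by
    rintro y (hy | hy)
    · exact hy.1.1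
    · rw [mem_singleton_iff.1 hy]; exact hρ)
  have hrρ : ∀ x, r x ≤ ρ := fun x => csInf_le (hbdd x) (Or.inr rfl)
  have hlt : ∀ x s, |s - T| < r x → x.2 < f (x.1, s) := by
    intro x s hs
    by_contra h
    push Not at h
    have : |s - T| ∈ A x := Or.inl ⟨⟨abs_nonneg _, hs.le.trans (hrρ x)⟩,
      (mn_le hf x.1 le_rfl).trans h⟩
    exact absurd (csInf_le (hbdd x) this) (not_le.2 hs)
  have hmeas : Measurable r := by
    refine measurable_of_Iio fun t => ?_
    have : r ⁻¹' Iio t = {x : S × ℝ | ρ < t} ∪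
        ⋃ y : ℚ, {x : S × ℝ | (y : ℝ) ∈ Icc 0 ρ ∧ (y : ℝ) < t ∧ mn f T y x.1 ≤ x.2} := by
      ext x
      simp only [mem_preimage, mem_Iio, mem_union, mem_ofPred_eq, mem_iUnion]
      constructor
      · intro h
        by_cases hρt : ρ < t
        · exact Or.inl hρt
        right
        obtain ⟨y, hy, hyt⟩ := exists_lt_of_csInf_lt (hne x) h
        rcases hy with hy | hy
        · obtain ⟨z, hz1, hz2⟩ := exists_rat_btwn hyt
          exact ⟨z, ⟨hy.1.1.trans hz1.le, by linarith⟩, hz2,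
            (mn_anti hf T hy.1.1 hz1.le _).trans hy.2⟩
        · rw [mem_singleton_iff.1 hy] at hyt; exact absurd hyt hρt
      · rintro (h | ⟨y, hy, hyt, h⟩)
        · exact (hrρ x).trans_lt h
        · exact (csInf_le (hbdd x) (Or.inl ⟨hy, h⟩)).trans_lt hyt
    rw [this]
    refine MeasurableSet.union (MeasurableSet.const _) (MeasurableSet.iUnion fun y => ?_)
    have := continuous_mn hf T y
    have h3 : MeasurableSet {x : S × ℝ | mn f T y x.1 ≤ x.2} :=
      measurableSet_le (by fun_prop) (by fun_prop)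
    exact (MeasurableSet.const _).inter ((MeasurableSet.const _).inter h3)
  have hhit : ∀ x : S × ℝ, mn f T ρ x.1 ≤ x.2 →
      f (x.1, T + r x) ≤ x.2 ∨ f (x.1, T - r x) ≤ x.2 := by
    intro x hx
    -- the closed set of points of the window where `f ≤ l`
    have hK : IsCompact {s | s ∈ Icc (T - ρ) (T + ρ) ∧ f (x.1, s) ≤ x.2} :=
      isCompact_Icc.inter_right (t := {s | f (x.1, s) ≤ x.2})
        (isClosed_le (by fun_prop) continuous_const)
    obtain ⟨s₀, hs₀, h₀⟩ := exists_mn hf T hρ x.1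
    have hs₀' := abs_le.1 hs₀
    obtain ⟨s, hs, hmin⟩ := hK.exists_isMinOn
      ⟨s₀, ⟨by linarith, by linarith⟩, by rw [h₀]; exact hx⟩ (f := fun s => |s - T|) (by fun_prop)
    have hsρ : |s - T| ≤ ρ := abs_le.2 ⟨by linarith [hs.1.1], by linarith [hs.1.2]⟩
    have h1 : r x ≤ |s - T| := by
      by_contra h
      push Not at h
      exact absurd (hlt x s h) (not_lt.2 hs.2)
    have h2 : |s - T| ≤ r x := by
      refine le_csInf (hne x) ?_
      rintro y (hy | hy)
      · obtain ⟨s', hs', h'⟩ := exists_mn hf T hy.1.1 x.1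
        have hs'' := abs_le.1 (hs'.trans hy.1.2)
        have := hmin (a := s') ⟨⟨by linarith, by linarith⟩, by rw [h']; exact hy.2⟩
        exact le_trans this hs'
      · rw [mem_singleton_iff.1 hy]; exact hsρ
    have h3 : r x = |s - T| := le_antisymm h1 h2
    rcases abs_choice (s - T) with h | h
    · left; rw [h3, h, show T + (s - T) = s by ring]; exact hs.2
    · right; rw [h3, h, show T - -(s - T) = s by ring]; exact hs.2
  have hmn := continuous_mn hf T ρ
  refine ⟨⟨fun x => if x.2 < mn f T ρ x.1 then T else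
    if f (x.1, T + r x) ≤ x.2 then T + r x else T - r x, ?_, ?_, ?_⟩⟩
  · refine Measurable.ite (measurableSet_lt (by fun_prop) (by fun_prop)) measurable_const
      (Measurable.ite (measurableSet_le ?_ (by fun_prop)) (by fun_prop) (by fun_prop))
    exact hf.measurable.comp (by fun_prop)
  · intro a l h
    simp [h]
  · intro a l h
    have h' : ¬ l < mn f T ρ a := not_lt.2 h
    simp only [h', if_false]
    split_ifs with h2
    · rw [show T + r (a, l) - T = r (a, l) by ring, abs_of_nonneg (hr0 _)]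
      exact ⟨hrρ _, h2, fun s hs => hlt (a, l) s hs⟩
    · rw [show T - r (a, l) - T = -r (a, l) by ring, abs_neg, abs_of_nonneg (hr0 _)]
      exact ⟨hrρ _, (hhit (a, l) h).resolve_left h2, fun s hs => hlt (a, l) s hs⟩

namespace Cut

variable {f : S × ℝ → ℝ} {T ρ : ℝ} (c : Cut f T ρ)

/-- the levels counted in the left part -/
def setM (T₀ : ℝ) : Set ((S × ℝ) × ℝ) :=
  {y | 0 < y.2 ∧ y.2 < f y.1 ∧ T₀ < y.1.2 ∧ y.1.2 < c.τ (y.1.1, y.2)}

/-- the levels counted in the right part -/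
def setP : Set ((S × ℝ) × ℝ) :=
  {y | 0 < y.2 ∧ y.2 < f y.1 ∧ c.τ (y.1.1, y.2) ≤ y.1.2}

/-- left part -/
noncomputable def Fm (T₀ : ℝ) (x : S × ℝ) : ℝ≥0∞ := volume (Prod.mk x ⁻¹' c.setM T₀)

/-- right part -/
noncomputable def Fp (x : S × ℝ) : ℝ≥0∞ := volume (Prod.mk x ⁻¹' c.setP)

theorem measurable_τ' : Measurable fun y : (S × ℝ) × ℝ => c.τ (y.1.1, y.2) :=
  c.meas.comp (by fun_prop)

theorem measurableSet_setM (hf : Continuous f) (T₀ : ℝ) : MeasurableSet (c.setM T₀) := by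
  have := hf.measurable
  have h1 : MeasurableSet {y : (S × ℝ) × ℝ | 0 < y.2} :=
    measurableSet_lt measurable_const measurable_snd
  have h2 : MeasurableSet {y : (S × ℝ) × ℝ | y.2 < f y.1} :=
    measurableSet_lt measurable_snd (by fun_prop)
  have h3 : MeasurableSet {y : (S × ℝ) × ℝ | T₀ < y.1.2} :=
    measurableSet_lt measurable_const (by fun_prop)
  have h4 : MeasurableSet {y : (S × ℝ) × ℝ | y.1.2 < c.τ (y.1.1, y.2)} :=
    measurableSet_lt (by fun_prop) c.measurable_τ'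
  exact h1.inter (h2.inter (h3.inter h4))

theorem measurableSet_setP (hf : Continuous f) : MeasurableSet c.setP := by
  have := hf.measurable
  have h1 : MeasurableSet {y : (S × ℝ) × ℝ | 0 < y.2} :=
    measurableSet_lt measurable_const measurable_snd
  have h2 : MeasurableSet {y : (S × ℝ) × ℝ | y.2 < f y.1} :=
    measurableSet_lt measurable_snd (by fun_prop)
  have h4 : MeasurableSet {y : (S × ℝ) × ℝ | c.τ (y.1.1, y.2) ≤ y.1.2} :=
    measurableSet_le c.measurable_τ' (by fun_prop)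
  exact h1.inter (h2.inter h4)

theorem measurable_Fm (hf : Continuous f) (T₀ : ℝ) : Measurable (c.Fm T₀) :=
  measurable_measure_prodMk_left (c.measurableSet_setM hf T₀)

theorem measurable_Fp (hf : Continuous f) : Measurable c.Fp :=
  measurable_measure_prodMk_left (c.measurableSet_setP hf)

omit [CompactSpace S] [BorelSpace S] in
theorem abs_τ_le (hρ : 0 ≤ ρ) (a : S) (l : ℝ) : |c.τ (a, l) - T| ≤ ρ := by
  rcases lt_or_ge l (mn f T ρ a) with h | h
  · rw [c.long a l h]; simpa using hρ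
  · exact (c.short a l h).1

end Cut

/-- far left part -/
noncomputable def F0 (f : S × ℝ → ℝ) (T₀ : ℝ) (x : S × ℝ) : ℝ≥0∞ :=
  if x.2 ≤ T₀ then ENNReal.ofReal (f x) else 0

theorem measurable_F0 {f : S × ℝ → ℝ} (hf : Continuous f) (T₀ : ℝ) : Measurable (F0 f T₀) :=
  Measurable.ite (measurableSet_le measurable_snd measurable_const)
    hf.measurable.ennreal_ofReal measurable_const

namespace Cut

variable {f : S × ℝ → ℝ} {T ρ : ℝ} (c : Cut f T ρ)

theorem sum_eq (hf : Continuous f) (hρ : 0 ≤ ρ) {T₀ : ℝ} (hT₀ : T₀ < T - ρ) (x : S × ℝ) :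
    c.Fm T₀ x + c.Fp x + F0 f T₀ x = ENNReal.ofReal (f x) := by
  obtain ⟨a, s⟩ := x
  by_cases h : s ≤ T₀
  · have h1 : Prod.mk (a, s) ⁻¹' c.setM T₀ = ∅ := by
      ext l; simp only [setM, mem_preimage, mem_ofPred_eq, mem_empty_iff_false, iff_false]
      exact fun hl => absurd hl.2.2.1 (not_lt.2 h)
    have h2 : Prod.mk (a, s) ⁻¹' c.setP = ∅ := by
      ext l; simp only [setP, mem_preimage, mem_ofPred_eq, mem_empty_iff_false, iff_false]
      intro hl
      have := abs_le.1 (c.abs_τ_le hρ a l)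
      linarith [hl.2.2]
    simp [Fm, Fp, F0, h1, h2, h]
  · simp only [F0, h, if_false, add_zero, Fm, Fp]
    rw [← measure_union _ (measurable_prodMk_left (c.measurableSet_setP hf))]
    · have : Prod.mk (a, s) ⁻¹' c.setM T₀ ∪ Prod.mk (a, s) ⁻¹' c.setP = Ioo 0 (f (a, s)) := by
        ext l
        simp only [setM, setP, mem_union, mem_preimage, mem_ofPred_eq, mem_Ioo]
        constructor
        · rintro (hl | hl) <;> exact ⟨hl.1, hl.2.1⟩
        · intro hl
          rcases lt_or_ge s (c.τ (a, l)) with h' | h'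
          · exact Or.inl ⟨hl.1, hl.2, not_le.1 h, h'⟩
          · exact Or.inr ⟨hl.1, hl.2, h'⟩
      rw [this, Real.volume_Ioo, sub_zero]
    · rw [Set.disjoint_left]
      intro l h1 h2
      exact absurd h1.2.2.2 (not_lt.2 h2.2.2)

theorem Fm_le (hf : Continuous f) (hρ : 0 ≤ ρ) {T₀ : ℝ} (hT₀ : T₀ < T - ρ) (x : S × ℝ) :
    c.Fm T₀ x ≤ ENNReal.ofReal (f x) := by
  rw [← c.sum_eq hf hρ hT₀ x, add_assoc]; exact le_self_add

theorem Fp_le (hf : Continuous f) (hρ : 0 ≤ ρ) (x : S × ℝ) :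
    c.Fp x ≤ ENNReal.ofReal (f x) := by
  rw [← c.sum_eq hf hρ (T₀ := T - ρ - 1) (by linarith) x]
  exact le_add_right le_add_self

omit [CompactSpace S] [BorelSpace S] in
theorem Fm_eq_zero_left {T₀ : ℝ} (a : S) {s : ℝ} (hs : s ≤ T₀) : c.Fm T₀ (a, s) = 0 := by
  have h1 : Prod.mk (a, s) ⁻¹' c.setM T₀ = ∅ := by
    ext l; simp only [setM, mem_preimage, mem_ofPred_eq, mem_empty_iff_false, iff_false]
    exact fun hl => absurd hl.2.2.1 (not_lt.2 hs)
  simp [Fm, h1]

omit [CompactSpace S] [BorelSpace S] in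
theorem Fm_eq_zero_right (hρ : 0 ≤ ρ) {T₀ : ℝ} (a : S) {s : ℝ} (hs : T + ρ ≤ s) :
    c.Fm T₀ (a, s) = 0 := by
  have h1 : Prod.mk (a, s) ⁻¹' c.setM T₀ = ∅ := by
    ext l; simp only [setM, mem_preimage, mem_ofPred_eq, mem_empty_iff_false, iff_false]
    intro hl
    have := abs_le.1 (c.abs_τ_le hρ a l)
    linarith [hl.2.2.2]
  simp [Fm, h1]

omit [CompactSpace S] [BorelSpace S] in
theorem Fm_le_sub (hf : Continuous f) {ρ₀ : ℝ} (hρ₀ : 0 ≤ ρ₀) (T₀ : ℝ) (a : S) {s : ℝ}
    (hs : T + ρ₀ ≤ s) : c.Fm T₀ (a, s) ≤ ENNReal.ofReal (mn f T ρ₀ a - mn f T ρ a) := by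
  rw [← Real.volume_Ico]
  refine measure_mono fun l hl => ?_
  have h4 : s < c.τ (a, l) := hl.2.2.2
  rcases lt_or_ge l (mn f T ρ a) with h | h
  · rw [c.long a l h] at h4; linarith
  · refine ⟨h, lt_mn hf T hρ₀ a fun s' hs' => (c.short a l h).2.2 s' (hs'.trans_lt ?_)⟩
    exact lt_of_lt_of_le (by linarith) (le_abs_self _)

omit [CompactSpace S] [BorelSpace S] in
theorem Fp_le_sub (hf : Continuous f) {ρ₀ : ℝ} (hρ₀ : 0 ≤ ρ₀) (a : S) {s : ℝ}
    (hs : s < T - ρ₀) : c.Fp (a, s) ≤ ENNReal.ofReal (mn f T ρ₀ a - mn f T ρ a) := by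
  rw [← Real.volume_Ico]
  refine measure_mono fun l hl => ?_
  have h4 : c.τ (a, l) ≤ s := hl.2.2
  rcases lt_or_ge l (mn f T ρ a) with h | h
  · rw [c.long a l h] at h4; linarith
  · refine ⟨h, lt_mn hf T hρ₀ a fun s' hs' => (c.short a l h).2.2 s' (hs'.trans_lt ?_)⟩
    exact lt_of_lt_of_le (by linarith) (neg_le_abs _)

omit [CompactSpace S] in
theorem split (hf : Continuous f) (hpos : ∀ x, 0 < f x) (hρ : 0 ≤ ρ) {T₀ : ℝ} (hT₀ : T₀ < T - ρ)
    (a : S) : Split T ρ (ENNReal.ofReal (mn f T ρ a)) (fun s => c.Fm T₀ (a, s))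
      (fun s => c.Fp (a, s)) := by
  have hτ : Measurable fun y : ℝ × ℝ => c.τ (a, y.2) := c.meas.comp (by fun_prop)
  have hm := mn_pos hf hpos T hρ a
  let A : Set (ℝ × ℝ) := {y | mn f T ρ a ≤ y.2 ∧ T < c.τ (a, y.2) ∧ |y.1 - T| < |c.τ (a, y.2) - T|}
  let B : Set (ℝ × ℝ) := {y | mn f T ρ a ≤ y.2 ∧ c.τ (a, y.2) < T ∧ |y.1 - T| < |c.τ (a, y.2) - T|}
  have h1 : MeasurableSet {y : ℝ × ℝ | mn f T ρ a ≤ y.2} :=
    measurableSet_le measurable_const measurable_snd
  have h2 : MeasurableSet {y : ℝ × ℝ | T < c.τ (a, y.2)} :=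
    measurableSet_lt measurable_const hτ
  have h2' : MeasurableSet {y : ℝ × ℝ | c.τ (a, y.2) < T} :=
    measurableSet_lt hτ measurable_const
  have h3 : MeasurableSet {y : ℝ × ℝ | |y.1 - T| < |c.τ (a, y.2) - T|} :=
    measurableSet_lt (by fun_prop) (hτ.sub_const T).abs
  have hA : MeasurableSet A := h1.inter (h2.inter h3)
  have hB : MeasurableSet B := h1.inter (h2'.inter h3)
  refine ⟨fun s => volume (Prod.mk s ⁻¹' A), fun s => volume (Prod.mk s ⁻¹' B),
    measurable_measure_prodMk_left hA, measurable_measure_prodMk_left hB,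
    fun s s' h => measure_mono fun l hl => ⟨hl.1, hl.2.1, h.trans_lt hl.2.2⟩,
    fun s s' h => measure_mono fun l hl => ⟨hl.1, hl.2.1, h.trans_lt hl.2.2⟩, ?_, ?_, ?_, ?_⟩
  · intro s
    have hsub : Prod.mk s ⁻¹' A ⊆ Prod.mk (a, s) ⁻¹' c.setM T₀ := by
      intro l hl
      obtain ⟨h1, h2, h3⟩ := hl
      dsimp only at h1 h2 h3
      have h4 := c.short a l h1
      rw [abs_of_pos (by linarith : 0 < c.τ (a, l) - T)] at h3 h4
      have h5 := abs_lt.1 h3
      refine ⟨hm.trans_le h1, h4.2.2 s h3, ?_, ?_⟩ <;> dsimp only <;> linarith [h4.1]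
    by_cases hs : s ∈ Ioo (T - ρ) T
    · simp only [indicator_of_mem hs, Pi.one_apply, mul_one]
      have : ENNReal.ofReal (mn f T ρ a) = volume (Ioo 0 (mn f T ρ a)) := by simp
      rw [this, ← measure_union _ measurableSet_Ioo]
      · refine measure_mono (union_subset hsub fun l hl => ⟨hl.1, hl.2.trans_le (mn_le hf a ?_),
          ?_, ?_⟩)
        · exact abs_le.2 ⟨by linarith [hs.1], by linarith [hs.2]⟩
        · dsimp only; linarith [hs.1]
        · dsimp only; rw [c.long a l hl.2]; exact hs.2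
      · rw [Set.disjoint_left]
        intro l h1 h2
        exact absurd h2.2 (not_lt.2 h1.1)
    · simp only [indicator_of_notMem hs, mul_zero, add_zero]
      exact measure_mono hsub
  · intro s hs
    refine measure_mono fun l hl => ?_
    have h4 : s < c.τ (a, l) := hl.2.2.2
    rcases lt_or_ge l (mn f T ρ a) with h | h
    · rw [c.long a l h] at h4; linarith
    · refine ⟨h, hs.trans h4, ?_⟩
      dsimp only
      rw [abs_of_pos (by linarith), abs_of_pos (by linarith)]; linarith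
  · intro s
    have hsub : Prod.mk s ⁻¹' B ⊆ Prod.mk (a, s) ⁻¹' c.setP := by
      intro l hl
      obtain ⟨h1, h2, h3⟩ := hl
      dsimp only at h1 h2 h3
      have h4 := c.short a l h1
      rw [abs_of_neg (by linarith : c.τ (a, l) - T < 0)] at h3 h4
      have h5 := abs_lt.1 h3
      refine ⟨hm.trans_le h1, h4.2.2 s h3, ?_⟩
      dsimp only; linarith
    by_cases hs : s ∈ Ioo T (T + ρ)
    · simp only [indicator_of_mem hs, Pi.one_apply, mul_one]
      have : ENNReal.ofReal (mn f T ρ a) = volume (Ioo 0 (mn f T ρ a)) := by simp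
      rw [this, ← measure_union _ measurableSet_Ioo]
      · refine measure_mono (union_subset hsub fun l hl => ⟨hl.1, hl.2.trans_le (mn_le hf a ?_),
          ?_⟩)
        · exact abs_le.2 ⟨by linarith [hs.1], by linarith [hs.2]⟩
        · dsimp only; rw [c.long a l hl.2]; exact hs.1.le
      · rw [Set.disjoint_left]
        intro l h1 h2
        exact absurd h2.2 (not_lt.2 h1.1)
    · simp only [indicator_of_notMem hs, mul_zero, add_zero]
      exact measure_mono hsub
  · intro s hs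
    refine measure_mono fun l hl => ?_
    have h3 : l < f (a, s) := hl.2.1
    have h4 : c.τ (a, l) ≤ s := hl.2.2
    rcases lt_or_ge l (mn f T ρ a) with h | h
    · rw [c.long a l h] at h4; linarith
    · have h5 : c.τ (a, l) < s := by
        refine lt_of_le_of_ne h4 fun h6 => ?_
        have := (c.short a l h).2.1
        rw [h6] at this; linarith
      refine ⟨h, h5.trans hs, ?_⟩
      dsimp only
      rw [abs_of_neg (by linarith), abs_of_neg (by linarith)]; linarith

end Cut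

end Crest.Agent.R77
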