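import Mathlib

/-!
# Hénon–Lane–Emden (result 77): shared definitions

The system is transported to the cylinder `S × ℝ` (`S` the unit sphere, `s = log ‖x‖`).
`Kern S ν` collects the properties of the Green kernel on the cylinder that the core argument uses,
`CylSys` the properties of the transported solution pair.
-/

set_option autoImplicit false

open MeasureTheory
open scoped ENNReal

namespace Crest.Agent.R77

/-- An even, unimodal (in the axial variable) kernel on the cylinder `S × ℝ`, with exponential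
two-sided bounds. -/
structure Kern (S : Type) [MeasurableSpace S] (ν : ℝ) where
  /-- the kernel -/
  k : S → S → ℝ → ℝ≥0∞
  meas : Measurable (fun x : S × S × ℝ => k x.1 x.2.1 x.2.2)
  symm : ∀ a b z, k a b z = k b a z
  anti : ∀ a b z z', |z| ≤ |z'| → k a b z' ≤ k a b z
  /-- lower constant -/
  c₀ : ℝ
  c₀_pos : 0 < c₀
  lower : ∀ a b z, ENNReal.ofReal (c₀ * Real.exp (-(ν * |z|))) ≤ k a b z
  /-- upper constant -/
  C₀ : ℝ
  C₀_pos : 0 < C₀
  /-- order of the singularity -/
  N : ℕ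
  upper : ∀ σ : ℝ, 0 < σ → σ ≤ 1 → ∀ a b z, σ ≤ |z| →
    k a b z ≤ ENNReal.ofReal (C₀ / σ ^ N * Real.exp (-(ν * |z|)))

/-- One half of the system on the cylinder: `V` is the potential of `e^{γ s} U^q`. -/
structure Half {S : Type} [TopologicalSpace S] [MeasurableSpace S] (μ : Measure S) {ν : ℝ}
    (K : Kern S ν) (q γ : ℝ) (U V : S × ℝ → ℝ) : Prop where
  q_pos : 0 < q
  gam : ν < γ + q * ν
  cont : Continuous V
  pos : ∀ x, 0 < V x
  diff : ∃ V' : S × ℝ → ℝ, Continuous V' ∧ ∀ a s, HasDerivAt (fun t => V (a, t)) (V' (a, s)) s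
  bound : ∃ M : ℝ, ∀ a s, s ≤ 1 → V (a, s) ≤ M * Real.exp (ν * s)
  rep : ∀ a s, ENNReal.ofReal (V (a, s)) =
    ∫⁻ b, (∫⁻ t : ℝ, K.k a b (s - t) * ENNReal.ofReal (Real.exp (γ * t) * U (b, t) ^ q)) ∂μ

end Crest.Agent.R77
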