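import Crest.Agent.R77.Cut

/-!
# The Pohozaev computation on one ray, level by level
-/

set_option autoImplicit false
set_option linter.unusedSectionVars false

open MeasureTheory Set Filter Topology
open scoped ENNReal

namespace Crest.Agent.R77

theorem integral_pos_deriv_le {φ φ' : ℝ → ℝ} (hφ : ∀ s, HasDerivAt φ (φ' s) s)
    (hφ' : Continuous φ') {c d : ℝ} (hcd : c ≤ d) :
    ∫ s in c..d, {s | 0 < φ s}.indicator φ' s ≤ max (φ d) 0 := by
  classical
  have hc : Continuous φ := continuous_iff_continuousAt.2 fun s => (hφ s).continuousAt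
  let g : ℝ → ℝ := fun s => max (φ s) 0
  let g' : ℝ → ℝ := fun s => if 0 < φ s then φ' s else if φ s < 0 then 0 else max (φ' s) 0
  have hg : ∀ x, HasDerivWithinAt g (g' x) (Ioi x) x := by
    intro x
    by_cases h1 : 0 < φ x
    · have : g =ᶠ[𝓝 x] φ := by
        filter_upwards [hc.continuousAt.eventually (lt_mem_nhds h1)] with y hy
        exact max_eq_left hy.le
      simp only [g', h1, if_true]
      exact ((hφ x).congr_of_eventuallyEq this).hasDerivWithinAt
    by_cases h2 : φ x < 0
    · have : g =ᶠ[𝓝 x] fun _ => 0 := by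
        filter_upwards [hc.continuousAt.eventually (gt_mem_nhds h2)] with y hy
        exact max_eq_right hy.le
      simp only [g', h1, h2, if_true, if_false]
      exact ((hasDerivAt_const x (0 : ℝ)).congr_of_eventuallyEq this).hasDerivWithinAt
    have h0 : φ x = 0 := le_antisymm (not_lt.1 h1) (not_lt.1 h2)
    simp only [g', h1, h2, if_false]
    rw [hasDerivWithinAt_iff_tendsto_slope' (by simp)]
    have h3 : Tendsto (slope φ x) (𝓝[Ioi x] x) (𝓝 (φ' x)) := by
      rw [← hasDerivWithinAt_iff_tendsto_slope' (by simp)]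
      exact (hφ x).hasDerivWithinAt
    refine (h3.max tendsto_const_nhds).congr' ?_
    filter_upwards [self_mem_nhdsWithin] with y hy
    have hy' : 0 < y - x := sub_pos.2 hy
    simp only [slope_def_field, g, h0, max_self, sub_zero]
    rw [← max_div_div_right hy'.le, zero_div]
  have hmeas : MeasurableSet {s | 0 < φ s} := measurableSet_lt measurable_const hc.measurable
  have h := intervalIntegral.integral_le_sub_of_hasDeriv_right_of_le (g := g) (g' := g')
    (φ := {s | 0 < φ s}.indicator φ') hcd (by fun_prop) (fun x _ => hg x)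
    ((hφ'.integrableOn_Icc).indicator hmeas) (by
      intro x _
      by_cases h1 : 0 < φ x
      · simp [g', h1]
      · have : x ∉ {s | 0 < φ s} := h1
        simp only [indicator_of_notMem this, g', h1, if_false]
        split_ifs
        · exact le_rfl
        · exact le_max_right _ _)
  refine h.trans ?_
  have : 0 ≤ g c := le_max_right _ _
  simp only [g] at this ⊢
  linarith

variable {S : Type} [MetricSpace S] [CompactSpace S] [MeasurableSpace S] [BorelSpace S]

theorem lt_iff_rpow {p γ v l s : ℝ} (hp : 0 < p) (hv : 0 < v) (hl : 0 < l) :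
    l < Real.exp (γ * s) * v ^ p ↔ l ^ (1 / p) * Real.exp (-(γ / p) * s) < v := by
  have h1 : Real.exp (γ * s) * v ^ p = (Real.exp (γ / p * s) * v) ^ p := by
    rw [Real.mul_rpow (Real.exp_pos _).le hv.le, ← Real.exp_mul]
    congr 2; field_simp
  rw [h1, one_div, ← Real.rpow_inv_lt_iff_of_pos hl.le (by positivity) hp, neg_mul, Real.exp_neg,
    ← div_eq_mul_inv, div_lt_iff₀ (Real.exp_pos _), mul_comm]

theorem integral_rpow_Ioo {p F : ℝ} (hp : 0 < p) (hF : 0 ≤ F) :
    ∫ l in Ioo 0 F, l ^ (1 / p) = p / (p + 1) * F * F ^ (1 / p) := by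
  rw [← integral_Ioc_eq_integral_Ioo, ← intervalIntegral.integral_of_le hF,
    integral_rpow (Or.inl (by have : 0 < 1 / p := by positivity
                              linarith)), Real.zero_rpow (by positivity), sub_zero,
    Real.rpow_add_one' hF (by positivity)]
  field_simp
  ring

theorem level_ineq {V V' : S × ℝ → ℝ} (hV : Continuous V) (hV' : Continuous V')
    (hpos : ∀ x, 0 < V x) (hd : ∀ a s, HasDerivAt (fun t => V (a, t)) (V' (a, s)) s)
    {p γ T ρ T₀ : ℝ} (hp : 0 < p) (hρ : 0 ≤ ρ) (hT₀ : T₀ < T - ρ)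
    {f : S × ℝ → ℝ} (hf : ∀ x, f x = Real.exp (γ * x.2) * V x ^ p) (c : Cut f T ρ) (a : S) :
    ∫ s, (c.Fm T₀ (a, s)).toReal * V' (a, s) ≤
      mn f T ρ a * V (a, T)
        - p / (p + 1) * mn f T ρ a * (mn f T ρ a ^ (1 / p) * Real.exp (-(γ / p) * T))
        - γ / (p + 1) * (∫ s in Ioc T₀ T, f (a, s) * V (a, s))
        + |γ| / (p + 1) * ∫ s in Icc (T - ρ) (T + ρ), f (a, s) * V (a, s) := by
  have hfc : Continuous f := by
    have : f = fun x => Real.exp (γ * x.2) * V x ^ p := funext hf
    rw [this]
    exact Continuous.mul (by fun_prop) (hV.rpow_const fun x => Or.inl (hpos x).ne')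
  have hfpos : ∀ x, 0 < f x := fun x => by
    rw [hf]; exact mul_pos (Real.exp_pos _) (Real.rpow_pos_of_pos (hpos x) _)
  set m := mn f T ρ a with hm
  have hm0 : 0 < m := mn_pos hfc hfpos T hρ a
  -- the set of (s, l)
  let D : Set (ℝ × ℝ) := (fun y : ℝ × ℝ => ((a, y.1), y.2)) ⁻¹' c.setM T₀
  have hD : MeasurableSet D := (c.measurableSet_setM hfc T₀).preimage (by fun_prop)
  obtain ⟨M, hM⟩ : ∃ M, ∀ s ∈ Icc T₀ (T + ρ), f (a, s) ≤ M := by
    obtain ⟨M, hM⟩ := (isCompact_Icc (a := T₀) (b := T + ρ)).bddAbove_image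
      (f := fun s => f (a, s)) (by fun_prop)
    exact ⟨M, fun s hs => hM ⟨s, hs, rfl⟩⟩
  have hDsub : D ⊆ Icc T₀ (T + ρ) ×ˢ Icc 0 M := by
    rintro ⟨s, l⟩ ⟨h1, h2, h3, h4⟩
    dsimp only at h1 h2 h3 h4
    have := abs_le.1 (c.abs_τ_le hρ a l)
    have hs : s ∈ Icc T₀ (T + ρ) := ⟨h3.le, by linarith⟩
    exact ⟨hs, h1.le, h2.le.trans (hM s hs)⟩
  have hint : ∀ g : ℝ × ℝ → ℝ, ContinuousOn g (Icc T₀ (T + ρ) ×ˢ Icc 0 M) →
      Integrable (D.indicator g) (volume.prod volume) := fun g hg => by
    rw [integrable_indicator_iff hD]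
    exact (hg.integrableOn_compact (isCompact_Icc.prod isCompact_Icc)).mono_set hDsub
  let W : ℝ × ℝ → ℝ := fun y => y.2 ^ (1 / p) * Real.exp (-(γ / p) * y.1)
  have hp' : 0 ≤ 1 / p := by positivity
  have hWc : Continuous W :=
    (continuous_snd.rpow_const fun _ => Or.inr hp').mul (by fun_prop)
  have hW : ContinuousOn W (Icc T₀ (T + ρ) ×ˢ Icc 0 M) := hWc.continuousOn
  have hWi : ∀ s x, IntegrableOn (fun l => W (s, l)) (Ioo 0 x) := fun s x =>
    (Continuous.integrableOn_Icc (by fun_prop)).mono_set Ioo_subset_Icc_self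
  have iV' := hint (fun y => V' (a, y.1)) (by fun_prop)
  have iW := hint W hW
  -- step 1: Fubini
  have e1 : ∫ s, (c.Fm T₀ (a, s)).toReal * V' (a, s) =
      ∫ l, ∫ s, D.indicator (fun y => V' (a, y.1)) (s, l) := by
    rw [← integral_integral_swap (f := fun s l => D.indicator (fun y => V' (a, y.1)) (s, l)) iV']
    congr 1; ext s
    have : ∀ l, D.indicator (fun y => V' (a, y.1)) (s, l) =
        (Prod.mk (a, s) ⁻¹' c.setM T₀).indicator (fun _ => V' (a, s)) l := fun l => rfl
    simp_rw [this]
    rw [integral_indicator (measurable_prodMk_left (c.measurableSet_setM hfc T₀)),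
      setIntegral_const, smul_eq_mul]
    rfl
  -- step 2: the level inequality
  have e2 : ∀ l, ∫ s, D.indicator (fun y => V' (a, y.1)) (s, l) ≤
      (Ioo 0 m).indicator (fun l => V (a, T) - W (T, l)) l
        - γ / p * ∫ s, D.indicator W (s, l) := by
    intro l
    rcases le_or_gt l 0 with hl | hl
    · have h0 : ∀ s, (s, l) ∉ D := fun s h => absurd h.1 (not_lt.2 hl)
      have h1 : l ∉ Ioo 0 m := fun h => absurd h.1 (not_lt.2 hl)
      simp [h0, h1]
    have hτ := abs_le.1 (c.abs_τ_le hρ a l)
    let φ : ℝ → ℝ := fun s => V (a, s) - W (s, l)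
    let φ' : ℝ → ℝ := fun s => V' (a, s) + γ / p * W (s, l)
    have hφ : ∀ s, HasDerivAt φ (φ' s) s := fun s => by
      have h0 : HasDerivAt (fun s => Real.exp (-(γ / p) * s))
          (Real.exp (-(γ / p) * s) * -(γ / p)) s := by
        have := ((hasDerivAt_id s).const_mul (-(γ / p))).exp
        simpa using this
      have h1 := (hd a s).sub (h0.const_mul (l ^ (1 / p)))
      have h2 : φ' s = V' (a, s) - l ^ (1 / p) * (Real.exp (-(γ / p) * s) * -(γ / p)) := by
        simp only [φ', W]; ring
      rw [h2]; exact h1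
    have hφ' : Continuous φ' := by simp only [φ']; fun_prop
    have h1 := integral_pos_deriv_le hφ hφ' (c := T₀) (d := c.τ (a, l)) (by linarith)
    have hmem : ∀ s, (s, l) ∈ D ↔ s ∈ Ioo T₀ (c.τ (a, l)) ∧ 0 < φ s := fun s => by
      have := lt_iff_rpow (γ := γ) (s := s) hp (hpos (a, s)) hl
      simp only [D, Cut.setM, mem_preimage, mem_ofPred_eq, mem_Ioo, hf, φ, W, sub_pos, this]
      tauto
    have h2 : ∫ s in T₀..c.τ (a, l), {s | 0 < φ s}.indicator φ' s =
        (∫ s, D.indicator (fun y => V' (a, y.1)) (s, l)) + γ / p * ∫ s, D.indicator W (s, l) := by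
      have hDl : MeasurableSet (( fun s => (s, l)) ⁻¹' D) := hD.preimage (by fun_prop)
      have hsub : (fun s => (s, l)) ⁻¹' D ⊆ Icc T₀ (T + ρ) := fun s hs => (hDsub hs).1
      have i1 : Integrable fun s => D.indicator (fun y => V' (a, y.1)) (s, l) := by
        change Integrable (((fun s => (s, l)) ⁻¹' D).indicator fun s => V' (a, s))
        rw [integrable_indicator_iff hDl]
        exact (Continuous.integrableOn_Icc (by fun_prop)).mono_set hsub
      have i2 : Integrable fun s => D.indicator W (s, l) := by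
        change Integrable (((fun s => (s, l)) ⁻¹' D).indicator fun s => W (s, l))
        rw [integrable_indicator_iff hDl]
        exact (Continuous.integrableOn_Icc (by fun_prop)).mono_set hsub
      rw [← integral_const_mul, ← integral_add i1 (i2.const_mul _),
        intervalIntegral.integral_of_le (by linarith), integral_Ioc_eq_integral_Ioo,
        ← integral_indicator measurableSet_Ioo]
      congr 1; ext s
      by_cases hs : (s, l) ∈ D
      · have := (hmem s).1 hs
        have h' : s ∈ {s | 0 < φ s} := this.2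
        simp only [indicator_of_mem hs, indicator_of_mem this.1, indicator_of_mem h', φ']
      · simp only [indicator_of_notMem hs, mul_zero, add_zero]
        by_cases h' : s ∈ Ioo T₀ (c.τ (a, l))
        · have h'' : s ∉ {s | 0 < φ s} := fun h => hs ((hmem s).2 ⟨h', h⟩)
          simp only [indicator_of_mem h', indicator_of_notMem h'']
        · simp only [indicator_of_notMem h']
    have h3 : max (φ (c.τ (a, l))) 0 ≤ (Ioo 0 m).indicator (fun l => V (a, T) - W (T, l)) l := by
      rcases lt_or_ge l m with h | h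
      · have h' : l ∈ Ioo 0 m := ⟨hl, h⟩
        rw [indicator_of_mem h', c.long a l h]
        refine max_le le_rfl (sub_nonneg.2 (le_of_lt ?_))
        refine (lt_iff_rpow (γ := γ) (s := T) hp (hpos (a, T)) hl).1 ?_
        rw [← hf (a, T)]
        exact h.trans_le (mn_le hfc a (by simpa using hρ))
      · have h' : l ∉ Ioo 0 m := fun h' => absurd h'.2 (not_lt.2 h)
        rw [indicator_of_notMem h']
        refine max_le (sub_nonpos.2 (not_lt.1 fun h2 => ?_)) le_rfl
        have := (lt_iff_rpow (γ := γ) (s := c.τ (a, l)) hp (hpos (a, c.τ (a, l))) hl).2 h2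
        rw [← hf (a, c.τ (a, l))] at this
        exact absurd (c.short a l h).2.1 (not_le.2 this)
    linarith
  -- step 3: integrate over the levels
  have iT : Integrable ((Ioo 0 m).indicator (fun l => V (a, T) - W (T, l))) := by
    rw [integrable_indicator_iff measurableSet_Ioo]
    exact (Continuous.integrableOn_Icc (by fun_prop)).mono_set Ioo_subset_Icc_self
  have e3 : ∫ l, (Ioo 0 m).indicator (fun l => V (a, T) - W (T, l)) l =
      m * V (a, T) - p / (p + 1) * m * (m ^ (1 / p) * Real.exp (-(γ / p) * T)) := by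
    have ic : IntegrableOn (fun _ : ℝ => V (a, T)) (Ioo 0 m) :=
      (Continuous.integrableOn_Icc (by fun_prop)).mono_set Ioo_subset_Icc_self
    rw [integral_indicator measurableSet_Ioo, integral_sub ic (hWi T m)]
    simp only [W]
    rw [integral_mul_const, integral_rpow_Ioo hp hm0.le]
    simp [hm0.le]
    ring
  have hfV : ∀ s, p / (p + 1) * f (a, s) * f (a, s) ^ (1 / p) * Real.exp (-(γ / p) * s) =
      p / (p + 1) * (f (a, s) * V (a, s)) := fun s => by
    have : f (a, s) ^ (1 / p) * Real.exp (-(γ / p) * s) = V (a, s) := by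
      rw [hf, Real.mul_rpow (Real.exp_pos _).le (Real.rpow_pos_of_pos (hpos _) _).le,
        ← Real.rpow_mul (hpos _).le, ← Real.exp_mul, mul_one_div_cancel hp.ne', Real.rpow_one,
        mul_right_comm, ← Real.exp_add]
      rw [show γ * s * (1 / p) + -(γ / p) * s = 0 by ring]; simp
    rw [mul_assoc, this]; ring
  have e4 : ∀ s, -(γ / p) * ∫ l, D.indicator W (s, l) ≤
      -(γ / (p + 1)) * (Ioc T₀ T).indicator (fun s => f (a, s) * V (a, s)) s +
        |γ| / (p + 1) * (Icc (T - ρ) (T + ρ)).indicator (fun s => f (a, s) * V (a, s)) s := by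
    intro s
    have hDs : MeasurableSet (Prod.mk s ⁻¹' D) := measurable_prodMk_left hD
    have hn : ∫ l, D.indicator W (s, l) = ∫ l in Prod.mk s ⁻¹' D, W (s, l) := by
      rw [← integral_indicator hDs]; rfl
    have hfull : ∫ l in Ioo 0 (f (a, s)), W (s, l) = p / (p + 1) * (f (a, s) * V (a, s)) := by
      simp only [W]
      rw [integral_mul_const, integral_rpow_Ioo hp (hfpos _).le, hfV]
    have hsub : Prod.mk s ⁻¹' D ⊆ Ioo 0 (f (a, s)) := fun l hl => ⟨hl.1, hl.2.1⟩
    have hn0 : 0 ≤ ∫ l in Prod.mk s ⁻¹' D, W (s, l) :=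
      setIntegral_nonneg hDs fun l hl => mul_nonneg (Real.rpow_nonneg (hsub hl).1.le _)
        (Real.exp_pos _).le
    have hn1 : ∫ l in Prod.mk s ⁻¹' D, W (s, l) ≤ p / (p + 1) * (f (a, s) * V (a, s)) := by
      rw [← hfull]
      refine setIntegral_mono_set ?_ ?_ hsub.eventuallyLE
      · exact hWi _ _
      · filter_upwards [ae_restrict_mem measurableSet_Ioo] with l hl
        exact mul_nonneg (Real.rpow_nonneg hl.1.le _) (Real.exp_pos _).le
    rw [hn]
    set n := ∫ l in Prod.mk s ⁻¹' D, W (s, l)
    set E := f (a, s) * V (a, s) with hE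
    have hE0 : 0 < E := mul_pos (hfpos _) (hpos _)
    have hg1 := le_abs_self γ
    have hg2 := neg_abs_le γ
    have hq : γ / (p + 1) * E = γ / p * (p / (p + 1) * E) := by field_simp
    have hq' : |γ| / (p + 1) * E = |γ| / p * (p / (p + 1) * E) := by field_simp
    have hg3 : γ / p ≤ |γ| / p := by gcongr
    have hg4 : -(|γ| / p) ≤ γ / p := by rw [← neg_div]; gcongr
    by_cases h1 : s ∈ Icc (T - ρ) (T + ρ)
    · by_cases h2 : s ∈ Ioc T₀ T
      · rw [indicator_of_mem h1, indicator_of_mem h2, neg_mul, neg_mul, hq, hq']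
        nlinarith
      · rw [indicator_of_mem h1, indicator_of_notMem h2, neg_mul, hq']
        nlinarith
    · by_cases h2 : s ∈ Ioc T₀ T
      · have h3 : s < T - ρ := by
          by_contra h; exact h1 ⟨not_lt.1 h, by linarith [h2.2]⟩
        have : Prod.mk s ⁻¹' D = Ioo 0 (f (a, s)) := by
          refine hsub.antisymm fun l hl => ⟨hl.1, hl.2, h2.1, ?_⟩
          have := abs_le.1 (c.abs_τ_le hρ a l)
          dsimp only; linarith
        have hn2 : n = p / (p + 1) * E := by rw [← hfull, ← this]
        rw [indicator_of_notMem h1, indicator_of_mem h2, neg_mul, neg_mul, hq, hn2]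
        simp
      · have : Prod.mk s ⁻¹' D = ∅ := by
          refine eq_empty_of_forall_notMem fun l hl => ?_
          have h4 := (hDsub hl).1
          have h5 : T₀ < s := hl.2.2.1
          by_cases h6 : s ≤ T
          · exact h2 ⟨h5, h6⟩
          · exact h1 ⟨by linarith, h4.2⟩
        have hn2 : n = 0 := by simp only [n, this, setIntegral_empty]
        rw [indicator_of_notMem h1, indicator_of_notMem h2, hn2]
        simp
  have iE1 : Integrable ((Ioc T₀ T).indicator (fun s => f (a, s) * V (a, s))) := by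
    rw [integrable_indicator_iff measurableSet_Ioc]
    exact (Continuous.integrableOn_Icc (by fun_prop)).mono_set Ioc_subset_Icc_self
  have iE2 : Integrable ((Icc (T - ρ) (T + ρ)).indicator (fun s => f (a, s) * V (a, s))) := by
    rw [integrable_indicator_iff measurableSet_Icc]
    exact Continuous.integrableOn_Icc (by fun_prop)
  have e5 : -(γ / p) * ∫ l, ∫ s, D.indicator W (s, l) ≤
      -(γ / (p + 1)) * (∫ s in Ioc T₀ T, f (a, s) * V (a, s))
        + |γ| / (p + 1) * ∫ s in Icc (T - ρ) (T + ρ), f (a, s) * V (a, s) := by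
    rw [← integral_integral_swap (f := fun s l => D.indicator W (s, l)) iW, ← integral_const_mul, ← integral_indicator measurableSet_Ioc,
      ← integral_indicator measurableSet_Icc, ← integral_const_mul, ← integral_const_mul,
      ← integral_add (iE1.const_mul _) (iE2.const_mul _)]
    exact integral_mono (iW.integral_prod_left.const_mul _)
      ((iE1.const_mul _).add (iE2.const_mul _)) e4
  have e6 : ∫ l, ∫ s, D.indicator (fun y => V' (a, y.1)) (s, l) ≤
      (∫ l, (Ioo 0 m).indicator (fun l => V (a, T) - W (T, l)) l)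
        - γ / p * ∫ l, ∫ s, D.indicator W (s, l) := by
    rw [← integral_const_mul, ← integral_sub iT (iW.integral_prod_right.const_mul _)]
    exact integral_mono iV'.integral_prod_right (iT.sub (iW.integral_prod_right.const_mul _)) e2
  rw [e1]
  linarith

end Crest.Agent.R77
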