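import Crest.Agent.R77.Global
import Crest.Agent.R77.Level

/-!
# Passing to the limit in the finite-difference force inequality
-/

set_option autoImplicit false
set_option linter.unusedSectionVars false

open MeasureTheory Set Filter Topology
open scoped ENNReal

namespace Crest.Agent.R77

theorem neg_le_of_symm_diff {Θ : ℝ → ℝ} {D B e₀ : ℝ} (h : HasDerivAt Θ D 0) (he₀ : 0 < e₀)
    (hB : ∀ e, 0 < e → e < e₀ → Θ (-e) - Θ e ≤ 2 * e * B) : -D ≤ B := by
  have h1 : HasDerivAt (fun e => Θ (-e)) (-D) 0 := by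
    have h' : HasDerivAt Θ D (-0) := by simpa using h
    simpa [Function.comp_def] using (h'.comp 0 (hasDerivAt_neg (0 : ℝ)))
  have h2 : HasDerivAt (fun e => Θ (-e) - Θ e) (-D - D) 0 := h1.sub h
  have h3 := (hasDerivAt_iff_tendsto_slope_zero.1 h2).mono_left
    (nhdsWithin_mono _ (show Ioi (0 : ℝ) ⊆ {0}ᶜ from fun x hx => ne_of_gt hx))
  have h4 : -D - D ≤ 2 * B := by
    refine le_of_tendsto h3 ?_
    filter_upwards [Ioo_mem_nhdsGT he₀] with e he
    simp only [zero_add, neg_zero, sub_self, sub_zero, smul_eq_mul]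
    rw [inv_mul_le_iff₀ he.1]
    have := hB e he.1 he.2
    linarith
  linarith

variable {S : Type} [MetricSpace S] [CompactSpace S] [MeasurableSpace S] [BorelSpace S]

theorem exists_bound_strip {V : S × ℝ → ℝ} (hV : Continuous V) (c d : ℝ) :
    ∃ B, 0 ≤ B ∧ ∀ a s, s ∈ Icc c d → |V (a, s)| ≤ B := by
  obtain ⟨B, hB⟩ := (isCompact_univ.prod (isCompact_Icc (a := c) (b := d))).exists_bound_of_continuousOn
    hV.continuousOn
  exact ⟨max B 0, le_max_right _ _, fun a s hs =>
    (hB (a, s) ⟨mem_univ _, hs⟩).trans (le_max_left _ _)⟩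

theorem integrable_shift {X : Type} [MeasurableSpace X] (π : Measure X) {α : X → S} {β : X → ℝ}
    (hα : Measurable α) (hβ : Measurable β) {c d : ℝ} {w : X → ℝ} (hw : Integrable w π)
    (hsupp : ∀ x, β x ∉ Icc c d → w x = 0) {V : S × ℝ → ℝ} (hV : Continuous V) (τ : ℝ) :
    Integrable (fun x => w x * V (α x, β x + τ)) π := by
  obtain ⟨B, hB0, hB⟩ := exists_bound_strip hV (c + τ) (d + τ)
  have := hV.measurable
  refine (hw.norm.mul_const B).mono'
    (hw.aestronglyMeasurable.mul (Measurable.aestronglyMeasurable (by fun_prop)))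
    (Eventually.of_forall fun x => ?_)
  by_cases hx : β x ∈ Icc c d
  · rw [norm_mul]
    exact mul_le_mul_of_nonneg_left (hB _ _ ⟨by linarith [hx.1], by linarith [hx.2]⟩) (norm_nonneg _)
  · simp [hsupp x hx]

theorem hasDerivAt_shift {X : Type} [MeasurableSpace X] (π : Measure X) {α : X → S} {β : X → ℝ}
    (hα : Measurable α) (hβ : Measurable β) {c d : ℝ} {w : X → ℝ} (hw : Integrable w π)
    (hsupp : ∀ x, β x ∉ Icc c d → w x = 0) {V V' : S × ℝ → ℝ} (hV : Continuous V)
    (hV' : Continuous V') (hd : ∀ a s, HasDerivAt (fun t => V (a, t)) (V' (a, s)) s) :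
    HasDerivAt (fun τ => ∫ x, w x * V (α x, β x + τ) ∂π) (∫ x, w x * V' (α x, β x) ∂π) 0 := by
  obtain ⟨B, hB0, hB⟩ := exists_bound_strip hV' (c - 1) (d + 1)
  have h := hasDerivAt_integral_of_dominated_loc_of_deriv_le (μ := π)
    (F := fun τ x => w x * V (α x, β x + τ)) (F' := fun τ x => w x * V' (α x, β x + τ))
    (x₀ := (0 : ℝ)) (bound := fun x => ‖w x‖ * B) (s := Metric.ball 0 1) (Metric.ball_mem_nhds _ one_pos)
    (Eventually.of_forall fun τ => (integrable_shift π hα hβ hw hsupp hV τ).aestronglyMeasurable)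
    (integrable_shift π hα hβ hw hsupp hV 0)
    (integrable_shift π hα hβ hw hsupp hV' 0).aestronglyMeasurable
    (Eventually.of_forall fun x τ hτ => by
      by_cases hx : β x ∈ Icc c d
      · rw [norm_mul]
        have := abs_lt.1 (by simpa using hτ : |τ| < 1)
        exact mul_le_mul_of_nonneg_left (hB _ _ ⟨by linarith [hx.1], by linarith [hx.2]⟩)
          (norm_nonneg _)
      · simp [hsupp x hx])
    (hw.norm.mul_const B)
    (Eventually.of_forall fun x τ _ => by
      have := (hd (α x) (β x + τ)).comp_const_add (β x) τ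
      exact this.const_mul (w x))
  simpa using h.2

variable (μ : Measure S) [IsFiniteMeasure μ]

/-- energy in the strip over `I` -/
noncomputable def En (h : S × ℝ → ℝ) (I : Set ℝ) : ℝ≥0∞ :=
  ∫⁻ a, (∫⁻ s in I, ENNReal.ofReal (h (a, s))) ∂μ

theorem meas_inner {h : S × ℝ → ℝ} (hh : Continuous h) (I : Set ℝ) :
    Measurable fun a => ∫⁻ s in I, ENNReal.ofReal (h (a, s)) := by
  have := hh.measurable
  exact Measurable.lintegral_prod_right' (f := fun x : S × ℝ => ENNReal.ofReal (h (x.1, x.2)))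
    (by fun_prop)

theorem En_mono (h : S × ℝ → ℝ) {I J : Set ℝ} (hIJ : I ⊆ J) : En μ h I ≤ En μ h J :=
  lintegral_mono fun _ => lintegral_mono_set hIJ

theorem En_union {h : S × ℝ → ℝ} (hh : Continuous h) {I J : Set ℝ} (hJ : MeasurableSet J)
    (hd : Disjoint I J) : En μ h (I ∪ J) = En μ h I + En μ h J := by
  unfold En
  simp_rw [lintegral_union hJ hd]
  rw [lintegral_add_left (meas_inner hh I)]

theorem inner_le {h : S × ℝ → ℝ} (hh : Continuous h) {I : Set ℝ} {c d : ℝ} (hI : I ⊆ Icc c d) :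
    ∃ B : ℝ≥0∞, B ≠ ⊤ ∧ ∀ a, ∫⁻ s in I, ENNReal.ofReal (h (a, s)) ≤ B := by
  obtain ⟨B, hB0, hB⟩ := exists_bound_strip hh c d
  refine ⟨ENNReal.ofReal B * volume (Icc c d), ENNReal.mul_ne_top ENNReal.ofReal_ne_top
    (by simp), fun a => ?_⟩
  rw [← setLIntegral_const]
  exact (lintegral_mono_set hI).trans (setLIntegral_mono' measurableSet_Icc fun s hs =>
    ENNReal.ofReal_le_ofReal ((le_abs_self _).trans (hB a s hs)))

theorem En_ne_top {h : S × ℝ → ℝ} (hh : Continuous h) {I : Set ℝ} {c d : ℝ} (hI : I ⊆ Icc c d) :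
    En μ h I ≠ ⊤ := by
  obtain ⟨B, hB, h⟩ := inner_le hh hI
  refine ne_top_of_le_ne_top (ENNReal.mul_ne_top hB (measure_ne_top μ univ)) ?_
  rw [← lintegral_const]
  exact lintegral_mono h

theorem inner_eq {h : S × ℝ → ℝ} (hh : Continuous h) (h0 : ∀ x, 0 ≤ h x) (I : Set ℝ) (a : S) :
    ∫ s in I, h (a, s) = (∫⁻ s in I, ENNReal.ofReal (h (a, s))).toReal :=
  integral_eq_lintegral_of_nonneg_ae (Eventually.of_forall fun _ => h0 _)
    (Continuous.aestronglyMeasurable (by fun_prop))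

theorem integrable_inner {h : S × ℝ → ℝ} (hh : Continuous h) (h0 : ∀ x, 0 ≤ h x) {I : Set ℝ}
    {c d : ℝ} (hI : I ⊆ Icc c d) : Integrable (fun a => ∫ s in I, h (a, s)) μ := by
  simp_rw [inner_eq hh h0]
  exact integrable_toReal_of_lintegral_ne_top (meas_inner hh I).aemeasurable (En_ne_top μ hh hI)

theorem En_toReal {h : S × ℝ → ℝ} (hh : Continuous h) (h0 : ∀ x, 0 ≤ h x) {I : Set ℝ}
    {c d : ℝ} (hI : I ⊆ Icc c d) : (En μ h I).toReal = ∫ a, (∫ s in I, h (a, s)) ∂μ := by
  simp_rw [inner_eq hh h0]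
  obtain ⟨B, hB, h⟩ := inner_le hh hI
  rw [integral_toReal (meas_inner hh I).aemeasurable
    (Eventually.of_forall fun a => (h a).trans_lt hB.lt_top)]
  rfl

theorem integrable_cont {m : S → ℝ} (hm : Continuous m) : Integrable m μ :=
  hm.integrable_of_hasCompactSupport (HasCompactSupport.of_compactSpace m)

theorem Cut.integrable_Fm {f : S × ℝ → ℝ} (hf : Continuous f) {T ρ T₀ : ℝ} (hρ : 0 ≤ ρ)
    (hT₀ : T₀ < T - ρ) (c : Cut f T ρ) :
    Integrable (fun x => (c.Fm T₀ x).toReal) (μ.prod volume) := by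
  refine integrable_toReal_of_lintegral_ne_top (c.measurable_Fm hf T₀).aemeasurable ?_
  rw [lintegral_prod _ (c.measurable_Fm hf T₀).aemeasurable]
  refine ne_top_of_le_ne_top (En_ne_top μ hf (I := Icc T₀ (T + ρ)) subset_rfl) ?_
  refine lintegral_mono fun a => ?_
  rw [← lintegral_indicator measurableSet_Icc]
  refine lintegral_mono fun s => ?_
  by_cases hs : s ∈ Icc T₀ (T + ρ)
  · rw [indicator_of_mem hs]; exact c.Fm_le hf hρ hT₀ _
  · rw [indicator_of_notMem hs]
    rcases le_or_gt s T₀ with h | h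
    · exact (c.Fm_eq_zero_left a h).le
    · exact (c.Fm_eq_zero_right hρ a (by by_contra h'; exact hs ⟨h.le, by linarith⟩)).le

theorem Cut.Fm_supp {f : S × ℝ → ℝ} {T ρ T₀ : ℝ} (hρ : 0 ≤ ρ) (c : Cut f T ρ) (x : S × ℝ)
    (hx : x.2 ∉ Icc T₀ (T + ρ)) : (c.Fm T₀ x).toReal = 0 := by
  obtain ⟨a, s⟩ := x
  rcases le_or_gt s T₀ with h | h
  · simp [c.Fm_eq_zero_left a h]
  · simp [c.Fm_eq_zero_right hρ a (s := s) (by by_contra h'; exact hx ⟨h.le, by linarith⟩)]

theorem Lam_eq {f V : S × ℝ → ℝ} (hf : Continuous f) (hV : Continuous V) (hV0 : ∀ x, 0 ≤ V x)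
    {T ρ T₀ : ℝ} (hρ : 0 ≤ ρ) (hT₀ : T₀ < T - ρ) (c : Cut f T ρ) (τ : ℝ) :
    Lam μ (c.Fm T₀) V τ =
      ENNReal.ofReal (∫ x, (c.Fm T₀ x).toReal * V (x.1, x.2 + τ) ∂(μ.prod volume)) := by
  have hm := c.measurable_Fm hf T₀
  have hVm := hV.measurable
  rw [ofReal_integral_eq_lintegral_ofReal (integrable_shift _ measurable_fst measurable_snd
    (c.integrable_Fm μ hf hρ hT₀) (c.Fm_supp hρ) hV τ)
    (Eventually.of_forall fun x => mul_nonneg ENNReal.toReal_nonneg (hV0 _)),
    lintegral_prod _ (Measurable.aemeasurable (by fun_prop))]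
  unfold Lam
  congr 1; ext a; congr 1; ext s
  rw [ENNReal.ofReal_mul ENNReal.toReal_nonneg, ENNReal.ofReal_toReal
    (ne_top_of_le_ne_top ENNReal.ofReal_ne_top (c.Fm_le hf hρ hT₀ _))]

/-- primitive along rays -/
noncomputable def prim (V : S × ℝ → ℝ) (T : ℝ) (x : S × ℝ) : ℝ := ∫ s in T..x.2, V (x.1, s)

theorem continuous_prim {V : S × ℝ → ℝ} (hV : Continuous V) (T : ℝ) : Continuous (prim V T) :=
  intervalIntegral.continuous_parametric_intervalIntegral_of_continuous
    (f := fun (x : S × ℝ) s => V (x.1, s)) (by fun_prop) continuous_snd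

theorem hasDerivAt_prim {V : S × ℝ → ℝ} (hV : Continuous V) (T : ℝ) (a : S) (s : ℝ) :
    HasDerivAt (fun t => prim V T (a, t)) (V (a, s)) s :=
  (Continuous.deriv_integral (fun t => V (a, t)) (by fun_prop) T s) ▸
    ((intervalIntegral.integral_hasDerivAt_right
      ((by fun_prop : Continuous fun t => V (a, t)).intervalIntegrable _ _)
      ((by fun_prop : Continuous fun t => V (a, t)).stronglyMeasurableAtFilter _ _)
      (by fun_prop : Continuous fun t => V (a, t)).continuousAt).differentiableAt.hasDerivAt)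

theorem Win_eq {m : S → ℝ} (hm : Continuous m) (hm0 : ∀ a, 0 ≤ m a) {V : S × ℝ → ℝ}
    (hV : Continuous V) (hV0 : ∀ x, 0 ≤ V x) (T : ℝ) {e : ℝ} (he : 0 ≤ e) :
    Win μ (fun a => ENNReal.ofReal (m a)) V T e =
      ENNReal.ofReal ((∫ a, m a * prim V T (a, T + e) ∂μ) - ∫ a, m a * prim V T (a, T + -e) ∂μ) := by
  have hp := continuous_prim hV T
  have h1 : ∀ a, prim V T (a, T + e) - prim V T (a, T + -e) =
      ∫ s in Ioo (T - e) (T + e), V (a, s) := fun a => by
    have hc : Continuous fun t => V (a, t) := by fun_prop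
    simp only [prim]
    rw [intervalIntegral.integral_interval_sub_left (hc.intervalIntegrable _ _)
      (hc.intervalIntegrable _ _), intervalIntegral.integral_of_le (by linarith),
      integral_Ioc_eq_integral_Ioo, ← sub_eq_add_neg]
  rw [← integral_sub (integrable_cont μ (by fun_prop)) (integrable_cont μ (by fun_prop))]
  simp_rw [← mul_sub, h1]
  have h2 : Continuous fun a => ∫ s in Ioo (T - e) (T + e), V (a, s) := by
    simp_rw [← h1]; fun_prop
  have h3 : Continuous fun a => m a * ∫ s in Ioo (T - e) (T + e), V (a, s) := hm.mul h2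
  rw [ofReal_integral_eq_lintegral_ofReal (integrable_cont μ h3)
    (Eventually.of_forall fun a => mul_nonneg (hm0 a) (integral_nonneg fun _ => hV0 _))]
  unfold Win
  congr 1; ext a
  obtain ⟨B, hB, h⟩ := inner_le hV (I := Ioo (T - e) (T + e)) Ioo_subset_Icc_self
  rw [ENNReal.ofReal_mul (hm0 a), inner_eq hV hV0, ENNReal.ofReal_toReal
    (ne_top_of_le_ne_top hB (h a))]

theorem Win_one_le {V : S × ℝ → ℝ} {T₀ e M : ℝ} (he : e ≤ 1)
    (hM : ∀ a s, s ≤ T₀ + 1 → V (a, s) ≤ M) :
    Win μ (fun _ => 1) V T₀ e ≤ ENNReal.ofReal (2 * e) * (ENNReal.ofReal M * μ univ) := by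
  unfold Win
  calc ∫⁻ a, 1 * (∫⁻ s in Ioo (T₀ - e) (T₀ + e), ENNReal.ofReal (V (a, s))) ∂μ
      ≤ ∫⁻ _, ENNReal.ofReal M * ENNReal.ofReal (2 * e) ∂μ := by
        refine lintegral_mono fun a => ?_
        rw [one_mul, show 2 * e = T₀ + e - (T₀ - e) by ring, ← Real.volume_Ioo,
          ← setLIntegral_const]
        exact setLIntegral_mono' measurableSet_Ioo fun s hs =>
          ENNReal.ofReal_le_ofReal (hM a s (by linarith [hs.2]))
    _ = _ := by rw [lintegral_const]; ring

/-- The level inequality, integrated over all rays. -/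
theorem level_int {V V' : S × ℝ → ℝ} (hV : Continuous V) (hV' : Continuous V')
    (hpos : ∀ x, 0 < V x) (hd : ∀ a s, HasDerivAt (fun t => V (a, t)) (V' (a, s)) s)
    {p γ T ρ T₀ : ℝ} (hp : 0 < p) (hρ : 0 ≤ ρ) (hT₀ : T₀ < T - ρ)
    {f : S × ℝ → ℝ} (hf : ∀ x, f x = Real.exp (γ * x.2) * V x ^ p) (c : Cut f T ρ) :
    (∫ x, (c.Fm T₀ x).toReal * V' (x.1, x.2) ∂(μ.prod volume))
        - ∫ a, mn f T ρ a * V (a, T) ∂μ ≤
      - (p / (p + 1) *
          ∫ a, mn f T ρ a * (mn f T ρ a ^ (1 / p) * Real.exp (-(γ / p) * T)) ∂μ)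
        - γ / (p + 1) * (En μ (fun x => f x * V x) (Ioc T₀ T)).toReal
        + |γ| / (p + 1) * (En μ (fun x => f x * V x) (Icc (T - ρ) (T + ρ))).toReal := by
  have hfc : Continuous f := by
    have : f = fun x => Real.exp (γ * x.2) * V x ^ p := funext hf
    rw [this]
    exact Continuous.mul (by fun_prop) (hV.rpow_const fun x => Or.inl (hpos x).ne')
  have hfpos : ∀ x, 0 < f x := fun x => by
    rw [hf]; exact mul_pos (Real.exp_pos _) (Real.rpow_pos_of_pos (hpos x) _)
  have hE : Continuous fun x => f x * V x := hfc.mul hV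
  have hE0 : ∀ x, 0 ≤ f x * V x := fun x => (mul_pos (hfpos x) (hpos x)).le
  have hm := continuous_mn hfc T ρ
  have hi := integrable_shift (μ.prod volume) measurable_fst measurable_snd
    (c.integrable_Fm μ hfc hρ hT₀) (c.Fm_supp hρ) hV' 0
  simp only [add_zero] at hi
  have i1 : Integrable (fun a => mn f T ρ a * V (a, T)) μ := integrable_cont μ (by fun_prop)
  have i2 : Integrable (fun a => mn f T ρ a * (mn f T ρ a ^ (1 / p) * Real.exp (-(γ / p) * T))) μ :=
    integrable_cont μ (hm.mul ((hm.rpow_const fun _ => Or.inr (by positivity)).mul continuous_const))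
  have i3 := integrable_inner μ hE hE0 (I := Ioc T₀ T) Ioc_subset_Icc_self
  have i4 := integrable_inner μ hE hE0 (I := Icc (T - ρ) (T + ρ)) subset_rfl
  rw [integral_prod _ hi, En_toReal μ hE hE0 Ioc_subset_Icc_self, En_toReal μ hE hE0 subset_rfl]
  have := integral_mono hi.integral_prod_left (((i1.sub (i2.const_mul (p / (p + 1)))).sub
    (i3.const_mul (γ / (p + 1)))).add (i4.const_mul (|γ| / (p + 1))))
    (fun a => by
      have := level_ineq hV hV' hpos hd hp hρ hT₀ hf c a
      simp only [Pi.add_apply, Pi.sub_apply]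
      linarith)
  rw [integral_add' ((i1.sub (i2.const_mul (p / (p + 1)))).sub
    (i3.const_mul (γ / (p + 1)))) (i4.const_mul (|γ| / (p + 1))),
    integral_sub' (i1.sub (i2.const_mul (p / (p + 1)))) (i3.const_mul (γ / (p + 1))),
    integral_sub' i1 (i2.const_mul (p / (p + 1))), integral_const_mul, integral_const_mul,
    integral_const_mul] at this
  linarith

end Crest.Agent.R77
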