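import Crest.Agent.R77.Green

/-! No nonnegative strictly superharmonic function on the punctured plane (minimum principle with
the barrier `ε |log ‖x‖²|`). -/

set_option autoImplicit false

open MeasureTheory Laplacian InnerProductSpace Metric Set Filter
open scoped ENNReal Topology RealInnerProductSpace

namespace Crest.Agent.R77

namespace Dim2

theorem deriv2_nonneg {g : ℝ → ℝ} {a : ℝ} (hmin : IsLocalMin g a) (hc : ContinuousAt g a) :
    0 ≤ deriv (deriv g) a := by
  by_contra h
  have hmax := isLocalMax_of_deriv_deriv_neg (not_le.1 h) hmin.deriv_eq_zero hc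
  have he : g =ᶠ[𝓝 a] fun _ => g a := by
    filter_upwards [hmin, hmax] with x h1 h2 using le_antisymm h2 h1
  have := he.deriv.deriv_eq
  simp at this
  exact h this.ge

variable {E : Type*} [NormedAddCommGroup E] [InnerProductSpace ℝ E] [FiniteDimensional ℝ E]

theorem laplacian_nonneg {f : E → ℝ} {x : E} (hf : ContDiffAt ℝ 2 f x) (hmin : IsLocalMin f x) :
    0 ≤ (Δ f) x := by
  rw [Green.laplacian_eq_sum (stdOrthonormalBasis ℝ E) hf]
  refine Finset.sum_nonneg fun i _ => ?_
  set v := stdOrthonormalBasis ℝ E i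
  have hl : ∀ t : ℝ, HasDerivAt (fun t : ℝ => x + t • v) v t := fun t => by
    simpa using ((hasDerivAt_id t).smul_const v).const_add x
  have hlc : Tendsto (fun t : ℝ => x + t • v) (𝓝 0) (𝓝 x) := by
    simpa using (hl 0).continuousAt.tendsto
  have hx : x + (0 : ℝ) • v = x := by simp
  have h1 : IsLocalMin (fun t : ℝ => f (x + t • v)) 0 := by
    have := hlc.eventually hmin
    simpa [IsLocalMin, IsMinFilter] using this
  have h2 : deriv (fun t : ℝ => f (x + t • v)) =ᶠ[𝓝 0] fun t => fderiv ℝ f (x + t • v) v := by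
    filter_upwards [hlc.eventually (hf.eventually (by simp))] with t ht
    exact ((ht.differentiableAt two_ne_zero).hasFDerivAt.comp_hasDerivAt t (hl t)).deriv
  have h3 : DifferentiableAt ℝ (fun y => fderiv ℝ f y v) (x + (0 : ℝ) • v) := by
    rw [hx]
    exact ((hf.fderiv_right (m := 1) le_rfl).differentiableAt one_ne_zero).clm_apply
      (differentiableAt_const _)
  have h4 := (h3.hasFDerivAt.comp_hasDerivAt (0 : ℝ) (hl 0)).deriv
  have h5 := deriv2_nonneg h1 (ContinuousAt.comp (g := f) (by rw [hx]; exact hf.continuousAt)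
    (hl 0).continuousAt)
  rw [h2.deriv_eq] at h5
  rw [hx] at h4
  exact h5.trans_eq h4

theorem laplacian_log (hn : Module.finrank ℝ E = 2) {x : E} (hx : x ≠ 0) :
    (Δ fun y : E => Real.log (‖y‖ ^ 2)) x = 0 := by
  have hpos : ‖x - 0‖ ^ 2 ≠ 0 := by simpa using hx
  have := Green.radial Real.log 0 x (Real.contDiffAt_log.2 hpos)
  simp only [sub_zero] at this hpos
  rw [this, Real.deriv_log', deriv_inv, hn]
  field_simp
  norm_num

theorem main (hn : Module.finrank ℝ E = 2) (w : E → ℝ) (hw : Continuous w)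
    (hw2 : ContDiffOn ℝ 2 w {0}ᶜ) (hw0 : ∀ x, 0 ≤ w x) (hneg : ∀ x, x ≠ 0 → (Δ w) x < 0) :
    False := by
  have : Nontrivial E := Module.nontrivial_of_finrank_pos (R := ℝ) (by omega)
  obtain ⟨e, he, hmin⟩ := (isCompact_sphere (0 : E) 1).exists_isMinOn
    (NormedSpace.sphere_nonempty.2 zero_le_one) hw.continuousOn
  have he1 : ‖e‖ = 1 := by simpa using he
  have hcd : ∀ x : E, x ≠ 0 → ContDiffAt ℝ 2 w x := fun x hx =>
    hw2.contDiffAt (isOpen_compl_singleton.mem_nhds hx)
  have hlog : ∀ x : E, x ≠ 0 → ContDiffAt ℝ 2 (fun y : E => Real.log (‖y‖ ^ 2)) x := fun x hx =>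
    (contDiffAt_id.norm_sq ℝ).log (by simpa using hx)
  have key : ∀ ε : ℝ, 0 < ε → ∀ x : E, x ≠ 0 → w e ≤ w x + ε * |Real.log (‖x‖ ^ 2)| := by
    intro ε hε
    let u : E → ℝ := fun x => w x + ε * |Real.log (‖x‖ ^ 2)|
    set R := Real.exp (w e / ε) with hR
    have hR1 : 1 ≤ R := Real.one_le_exp (div_nonneg (hw0 e) hε.le)
    have hR0 : 0 < R := one_pos.trans_le hR1
    let K : Set E := closedBall 0 R \ ball 0 R⁻¹
    have hK : IsCompact K := (isCompact_closedBall 0 R).diff isOpen_ball
    have heK : e ∈ K := ⟨by simpa [he1] using hR1, by simpa [he1] using inv_le_one_of_one_le₀ hR1⟩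
    have hK0 : ∀ x ∈ K, x ≠ 0 := by
      rintro x hx rfl
      exact hx.2 (mem_ball_self (inv_pos.2 hR0))
    have huc : ContinuousOn u K := fun x hx =>
      (hw.continuousAt.add (continuousAt_const.mul
        (hlog x (hK0 x hx)).continuousAt.abs)).continuousWithinAt
    obtain ⟨z, hz, hzmin⟩ := hK.exists_isMinOn ⟨e, heK⟩ huc
    have hue : u e = w e := by simp [u, he1]
    have hglob : ∀ x : E, x ≠ 0 → u z ≤ u x := by
      intro x hx
      by_cases hxK : x ∈ K
      · exact hzmin hxK
      · have hxp : 0 < ‖x‖ := norm_pos_iff.2 hx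
        have h1 : w e / ε ≤ |Real.log ‖x‖| := by
          simp only [K, Set.mem_sdiff, mem_closedBall_zero_iff, mem_ball_zero_iff, not_and, not_not]
            at hxK
          by_cases h2 : ‖x‖ ≤ R
          · have := Real.log_le_log hxp (hxK h2).le
            rw [Real.log_inv, hR, Real.log_exp] at this
            exact le_abs.2 (Or.inr (by linarith))
          · have := Real.log_le_log hR0 (not_le.1 h2).le
            rw [hR, Real.log_exp] at this
            exact le_abs.2 (Or.inl this)
        rw [div_le_iff₀ hε] at h1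
        have h3 : |Real.log (‖x‖ ^ 2)| = 2 * |Real.log ‖x‖| := by
          rw [Real.log_pow, abs_mul]; simp
        have h4 : u z ≤ w e := hue ▸ hzmin heK
        have h5 := mul_nonneg hε.le (abs_nonneg (Real.log ‖x‖))
        simp only [u, h3] at h4 ⊢
        nlinarith [hw0 x]
    have hz0 := hK0 z hz
    have hz1 : ‖z‖ = 1 := by
      by_contra hz1
      have hlz : Real.log (‖z‖ ^ 2) ≠ 0 := by
        rw [Real.log_pow]
        exact mul_ne_zero (by simp) (Real.log_ne_zero_of_pos_of_ne_one (norm_pos_iff.2 hz0) hz1)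
      obtain ⟨σ, hσ⟩ : ∃ σ : ℝ, ∀ᶠ x in 𝓝 z, ε * |Real.log (‖x‖ ^ 2)| = σ * Real.log (‖x‖ ^ 2) := by
        rcases hlz.lt_or_gt with h | h
        · refine ⟨-ε, ?_⟩
          filter_upwards [(hlog z hz0).continuousAt.eventually (gt_mem_nhds h)] with x hx
          rw [abs_of_neg hx]; ring
        · refine ⟨ε, ?_⟩
          filter_upwards [(hlog z hz0).continuousAt.eventually (lt_mem_nhds h)] with x hx
          rw [abs_of_pos hx]
      have hm : IsLocalMin (w + σ • fun y : E => Real.log (‖y‖ ^ 2)) z := by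
        filter_upwards [hσ, isOpen_compl_singleton.mem_nhds hz0] with x hx hx0
        have := hglob x hx0
        simp only [u, hx, hσ.self_of_nhds] at this
        simpa using this
      have h1 := laplacian_nonneg ((hcd z hz0).add ((hlog z hz0).const_smul σ)) hm
      have h2 := ContDiffAt.laplacian_add (hcd z hz0) ((hlog z hz0).const_smul σ)
      have h3 := laplacian_smul σ (hlog z hz0)
      rw [laplacian_log hn hz0, smul_zero] at h3
      have h4 : (Δ (w + σ • fun y : E => Real.log (‖y‖ ^ 2))) z = (Δ w) z + 0 := h3 ▸ h2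
      have h5 : 0 ≤ (Δ (w + σ • fun y : E => Real.log (‖y‖ ^ 2))) z := h1
      linarith [hneg z hz0]
    intro x hx
    have h1 : w e ≤ w z := hmin (by simpa using hz1)
    have h2 := hglob x hx
    simp only [u, hz1] at h2
    simp at h2 ⊢
    linarith
  have he0 : e ≠ 0 := by rintro rfl; simp at he1
  have hm : IsLocalMin w e := by
    filter_upwards [isOpen_compl_singleton.mem_nhds he0] with x hx
    have ht : Tendsto (fun ε : ℝ => w x + ε * |Real.log (‖x‖ ^ 2)|) (𝓝[>] 0) (𝓝 (w x)) := by
      have : Continuous fun ε : ℝ => w x + ε * |Real.log (‖x‖ ^ 2)| := by fun_prop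
      simpa using (this.tendsto 0).mono_left (nhdsWithin_le_nhds (s := Ioi 0))
    exact ge_of_tendsto ht (eventually_nhdsWithin_of_forall fun ε hε => key ε hε x hx)
  linarith [laplacian_nonneg (hcd e he0) hm, hneg e he0]

end Dim2

/-- No nonnegative continuous strictly superharmonic function on the punctured plane. -/
theorem dim2 (w φ : EuclideanSpace ℝ (Fin 2) → ℝ) (hw : Continuous w) (hw2 : ContDiffOn ℝ 2 w {0}ᶜ)
    (hw0 : ∀ x, 0 ≤ w x) (_hφ : ContinuousOn φ {0}ᶜ) (hφ0 : ∀ x, x ≠ 0 → 0 < φ x)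
    (heq : ∀ x, x ≠ 0 → -(Δ w) x = φ x) : False :=
  Dim2.main (by simp) w hw hw2 hw0 fun x hx => by linarith [hφ0 x hx, heq x hx]

end Crest.Agent.R77
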