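import Crest.Agent.R77.Main

/-!
# Finite energy, flux estimate and the decay of the weighted masses
-/

set_option autoImplicit false
set_option linter.unusedSectionVars false

open MeasureTheory Set Filter Topology
open scoped ENNReal

namespace Crest.Agent.R77

theorem pp_mono {k : ℝ → ℝ≥0∞} {a a' b b' : ℝ → ℝ≥0∞} (ha : ∀ s, a s ≤ a' s) (hb : ∀ s, b s ≤ b' s)
    (τ : ℝ) : pp k τ a b ≤ pp k τ a' b' :=
  lintegral_mono fun s => mul_le_mul' (ha s) (conv_mono hb _)

theorem flux1 {k : ℝ → ℝ≥0∞} (hk : Measurable k) {f g : ℝ → ℝ≥0∞} (hf : Measurable f)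
    (hg : Measurable g) {T σ ν C : ℝ} (hC : 0 ≤ C) (hσ : 0 ≤ σ)
    (hfar : ∀ z, σ ≤ |z| → k z ≤ ENNReal.ofReal (C * Real.exp (-(ν * |z|)))) :
    pp k 0 ((Iic T).indicator f) g ≤ pp k 0 f ((Iic T).indicator g) +
      pp k 0 ((Ioc (T - σ) T).indicator f) g + ENNReal.ofReal C * (psi ν T f * psi ν T g) := by
  have m1 : Measurable ((Iic T).indicator f) := hf.indicator measurableSet_Iic
  have m2 : Measurable ((Iic T).indicator g) := hg.indicator measurableSet_Iic
  have m3 : Measurable ((Ioi T).indicator g) := hg.indicator measurableSet_Ioi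
  have m4 : Measurable ((Ioc (T - σ) T).indicator f) := hf.indicator measurableSet_Ioc
  have e1 : g = fun t => (Iic T).indicator g t + (Ioi T).indicator g t := by
    ext t
    rcases le_or_gt t T with h | h
    · simp [h]
    · simp [h]
  have e2 : (Iic T).indicator f =
      fun s => (Ioc (T - σ) T).indicator f s + (Iic (T - σ)).indicator f s := by
    ext s
    rcases le_or_gt s (T - σ) with h | h
    · have h1 : s ∈ Iic T := by simp only [mem_Iic]; linarith
      have h2 : s ∉ Ioc (T - σ) T := fun h' => absurd h'.1 (not_lt.2 h)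
      have h3 : s ∈ Iic (T - σ) := h
      simp only [indicator_of_mem h1, indicator_of_notMem h2, indicator_of_mem h3, zero_add]
    · have h3 : s ∉ Iic (T - σ) := not_le.2 h
      rcases le_or_gt s T with h' | h'
      · have h1 : s ∈ Iic T := h'
        have h2 : s ∈ Ioc (T - σ) T := ⟨h, h'⟩
        simp only [indicator_of_mem h1, indicator_of_mem h2, indicator_of_notMem h3, add_zero]
      · have h1 : s ∉ Iic T := not_le.2 h'
        have h2 : s ∉ Ioc (T - σ) T := fun h'' => h1 h''.2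
        simp only [indicator_of_notMem h1, indicator_of_notMem h2, indicator_of_notMem h3, add_zero]
  have far : pp k 0 ((Iic (T - σ)).indicator f) ((Ioi T).indicator g) ≤
      ENNReal.ofReal C * (psi ν T f * psi ν T g) := by
    rw [← mul_assoc, psi, ← lintegral_const_mul _ (by fun_prop),
      ← lintegral_mul_const _ (by fun_prop)]
    refine lintegral_mono fun s => ?_
    by_cases hs : s ∈ Iic (T - σ)
    swap
    · simp [hs]
    rw [indicator_of_mem hs, ← mul_assoc, mul_comm _ (f s), mul_assoc]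
    refine mul_le_mul_right ?_ _
    rw [psi, ← lintegral_const_mul _ (by fun_prop)]
    refine lintegral_mono fun t => ?_
    by_cases ht : t ∈ Ioi T
    swap
    · simp [ht]
    simp only [mem_Iic] at hs
    rw [indicator_of_mem ht, ← mul_assoc]
    simp only [mem_Ioi] at ht
    refine mul_le_mul_left ((hfar _ ?_).trans (le_of_eq ?_)) _
    · rw [abs_of_nonpos (by linarith)]; linarith
    · rw [← ENNReal.ofReal_mul hC, ← ENNReal.ofReal_mul (by positivity), mul_assoc, ← Real.exp_add,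
        abs_of_nonpos (by linarith), abs_of_nonneg (by linarith), abs_of_nonpos (by linarith)]
      congr 3; ring
  calc pp k 0 ((Iic T).indicator f) g
      = pp k 0 ((Iic T).indicator f) ((Iic T).indicator g) +
          pp k 0 ((Iic T).indicator f) ((Ioi T).indicator g) := by
        conv_lhs => rw [e1]
        rw [pp_add_right hk m1 m2]
    _ = pp k 0 ((Iic T).indicator f) ((Iic T).indicator g) +
          pp k 0 ((Ioc (T - σ) T).indicator f) ((Ioi T).indicator g) +
          pp k 0 ((Iic (T - σ)).indicator f) ((Ioi T).indicator g) := by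
        rw [add_assoc, ← pp_add_left hk m4 m3, ← e2]
    _ ≤ _ := add_le_add (add_le_add (pp_mono (fun s => indicator_le_self _ _ s) (fun _ => le_rfl) 0)
        (pp_mono (fun _ => le_rfl) (fun s => indicator_le_self _ _ s) 0)) far

variable {S : Type} [MetricSpace S] [CompactSpace S] [MeasurableSpace S] [BorelSpace S]
  {μ : Measure S} [IsFiniteMeasure μ] {ν : ℝ} {K : Kern S ν}

theorem En_eq {F V : S × ℝ → ℝ} (hF0 : ∀ x, 0 < F x) {B : S × ℝ → ℝ≥0∞}
    (hV : ∀ x, ENNReal.ofReal (V x) = Pot μ K B x) {I : Set ℝ} (hI : MeasurableSet I) :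
    ∫⁻ a, (∫⁻ s, I.indicator (fun s => ENNReal.ofReal (F (a, s))) s * Pot μ K B (a, s)) ∂μ =
      En μ (fun x => F x * V x) I := by
  unfold En
  congr 1; ext a
  rw [← lintegral_indicator hI]
  congr 1; ext s
  by_cases hs : s ∈ I
  · simp only [indicator_of_mem hs]
    rw [ENNReal.ofReal_mul (hF0 _).le, hV]
  · simp only [indicator_of_notMem hs, zero_mul]

theorem flux {F G U V : S × ℝ → ℝ} (hF : Continuous F) (hG : Continuous G)
    (hF0 : ∀ x, 0 < F x) (hG0 : ∀ x, 0 < G x)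
    (hV : ∀ x, ENNReal.ofReal (V x) = Pot μ K (fun y => ENNReal.ofReal (G y)) x)
    (hU : ∀ x, ENNReal.ofReal (U x) = Pot μ K (fun y => ENNReal.ofReal (F y)) x)
    (T : ℝ) {σ : ℝ} (hσ : 0 < σ) (hσ1 : σ ≤ 1) :
    En μ (fun x => F x * V x) (Iic T) ≤ En μ (fun x => G x * U x) (Iic T) +
      En μ (fun x => F x * V x) (Ioc (T - σ) T) + ENNReal.ofReal (K.C₀ / σ ^ K.N) *
        (Psi μ ν T (fun y => ENNReal.ofReal (F y)) * Psi μ ν T (fun y => ENNReal.ofReal (G y))) := by
  have mF : Measurable fun y => ENNReal.ofReal (F y) := hF.measurable.ennreal_ofReal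
  have mG : Measurable fun y => ENNReal.ofReal (G y) := hG.measurable.ennreal_ofReal
  have mI : ∀ {B : S × ℝ → ℝ≥0∞} {I : Set ℝ}, Measurable B → MeasurableSet I →
      Measurable fun y : S × ℝ => I.indicator (fun s => B (y.1, s)) y.2 := fun hB hI =>
    hB.indicator (s := Prod.snd ⁻¹' _) (measurable_snd hI)
  have key := fun z : S × S => flux1 (K.meas₁ z.1 z.2)
    (f := fun s => ENNReal.ofReal (F (z.1, s))) (g := fun s => ENNReal.ofReal (G (z.2, s)))
    (mF.comp (by fun_prop)) (mG.comp (by fun_prop)) (T := T)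
    (div_nonneg K.C₀_pos.le (by positivity)) hσ.le (K.upper σ hσ hσ1 z.1 z.2)
  have int := lintegral_mono (μ := μ.prod μ) key
  have s1 := meas_psi ν T mG
  have s2 := meas_psi ν T mF
  have s3 : Measurable fun z : S × S => psi ν T (fun s => ENNReal.ofReal (F (z.1, s))) *
      psi ν T (fun s => ENNReal.ofReal (G (z.2, s))) :=
    (s2.comp measurable_fst).mul (s1.comp measurable_snd)
  have p1 := K.meas_pp measurable_fst measurable_snd (mI mF (measurableSet_Ioc (a := T - σ) (b := T)))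
    mG 0
  have i1 := int_pp μ K (mI mF (measurableSet_Iic (a := T))) mG 0
  have i2 := int_pp' μ K mF (mI mG (measurableSet_Iic (a := T))) 0
  have i3 := int_pp μ K (mI mF (measurableSet_Ioc (a := T - σ) (b := T))) mG 0
  simp only [add_zero, neg_zero] at i1 i2 i3
  rw [lintegral_add_right _ (s3.const_mul _), lintegral_add_right _ p1,
    lintegral_const_mul _ s3, lintegral_prod_mul s2.aemeasurable s1.aemeasurable] at int
  rw [← En_eq hF0 hV measurableSet_Iic, ← En_eq hG0 hU measurableSet_Iic,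
    ← En_eq hF0 hV measurableSet_Ioc, ← i1, ← i2, ← i3]
  exact int

theorem En_Iic_le {h : S × ℝ → ℝ} {M κ T₀ : ℝ} (hM : 0 ≤ M) (hκ : 0 < κ)
    (hb : ∀ a s, s ≤ T₀ → h (a, s) ≤ M * Real.exp (κ * s)) :
    En μ h (Iic T₀) ≤ ENNReal.ofReal (M * (Real.exp (κ * T₀) / κ)) * μ univ := by
  rw [← lintegral_const]
  refine lintegral_mono fun a => ?_
  rw [← integral_exp_mul_Iic hκ, ← integral_const_mul, ofReal_integral_eq_lintegral_ofReal
    ((integrableOn_exp_mul_Iic hκ T₀).const_mul M)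
    (Eventually.of_forall fun s => by positivity)]
  exact setLIntegral_mono' measurableSet_Iic fun s hs => ENNReal.ofReal_le_ofReal (hb a s hs)

theorem En_Iic_add {h : S × ℝ → ℝ} (hh : Continuous h) {T₀ T : ℝ} (hT : T₀ ≤ T) :
    En μ h (Iic T) = En μ h (Iic T₀) + En μ h (Ioc T₀ T) := by
  rw [← En_union μ hh measurableSet_Ioc (Iic_disjoint_Ioc le_rfl), Iic_union_Ioc_eq_Iic hT]

theorem Half.bounds {q γ : ℝ} {U V : S × ℝ → ℝ} (h : Half μ K q γ U V) :
    ∃ M : ℝ, 0 < M ∧ ∀ a s, s ≤ 1 → V (a, s) ≤ M * Real.exp (ν * s) := by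
  obtain ⟨M, hM⟩ := h.bound
  exact ⟨max M 1, by positivity, fun a s hs => (hM a s hs).trans
    (mul_le_mul_of_nonneg_right (le_max_left _ _) (Real.exp_pos _).le)⟩

theorem dens_le {p γ M : ℝ} (hp : 0 < p) (hM : 0 < M) {V : S × ℝ → ℝ} (h0 : ∀ x, 0 < V x) {a : S}
    {s : ℝ} (h : V (a, s) ≤ M * Real.exp (ν * s)) :
    dens p γ V (a, s) ≤ M ^ p * Real.exp ((γ + p * ν) * s) := by
  unfold dens
  calc Real.exp (γ * s) * V (a, s) ^ p ≤ Real.exp (γ * s) * (M * Real.exp (ν * s)) ^ p := by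
        gcongr; exact (h0 _).le
    _ = _ := by
        rw [Real.mul_rpow hM.le (Real.exp_pos _).le, ← Real.exp_mul, mul_left_comm, ← Real.exp_add]
        congr 2; ring

theorem energy_bound (hν : 0 < ν) {p q γ₁ γ₂ : ℝ} {U V : S × ℝ → ℝ}
    (hV : Half μ K q γ₂ U V) (hU : Half μ K p γ₁ V U) :
    ∃ M κ : ℝ, 0 < κ ∧ 0 ≤ M ∧ ∀ T₀, T₀ ≤ 1 → En μ (fun x => dens p γ₁ V x * V x) (Iic T₀) ≤
      ENNReal.ofReal (M * (Real.exp (κ * T₀) / κ)) * μ univ := by
  obtain ⟨M, hM0, hM⟩ := hV.bounds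
  have := hU.gam
  refine ⟨M ^ p * M, γ₁ + p * ν + ν, by linarith, by positivity, fun T₀ hT₀ =>
    En_Iic_le (by positivity) (by linarith) fun a s hs => ?_⟩
  have h1 := hM a s (hs.trans hT₀)
  calc dens p γ₁ V (a, s) * V (a, s) ≤ (M ^ p * Real.exp ((γ₁ + p * ν) * s)) * (M * Real.exp (ν * s)) :=
        mul_le_mul (dens_le hU.q_pos hM0 hV.pos h1) h1 (hV.pos _).le (by positivity)
    _ = _ := by rw [add_mul (γ₁ + p * ν), Real.exp_add]; ring

theorem En_Iic_ne_top (hν : 0 < ν) {p q γ₁ γ₂ : ℝ} {U V : S × ℝ → ℝ}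
    (hV : Half μ K q γ₂ U V) (hU : Half μ K p γ₁ V U) (T : ℝ) :
    En μ (fun x => dens p γ₁ V x * V x) (Iic T) ≠ ⊤ := by
  obtain ⟨M, κ, -, -, h⟩ := energy_bound hν hV hU
  have hc : Continuous fun x => dens p γ₁ V x * V x := (continuous_dens hV.cont hV.pos).mul hV.cont
  have h1 : En μ (fun x => dens p γ₁ V x * V x) (Iic (min T 1)) ≠ ⊤ :=
    ne_top_of_le_ne_top (ENNReal.mul_ne_top ENNReal.ofReal_ne_top (measure_ne_top _ _))
      (h _ (min_le_right _ _))
  rw [En_Iic_add hc (min_le_left T 1)]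
  exact ENNReal.add_ne_top.2 ⟨h1, En_ne_top μ hc Ioc_subset_Icc_self⟩

theorem tendsto_exp_mul_atBot {κ : ℝ} (hκ : 0 < κ) :
    Tendsto (fun t : ℝ => Real.exp (κ * t)) atBot (𝓝 0) :=
  Real.tendsto_exp_atBot.comp (tendsto_id.const_mul_atBot hκ)

theorem tendsto_En_Iic (hν : 0 < ν) {p q γ₁ γ₂ : ℝ} {U V : S × ℝ → ℝ}
    (hV : Half μ K q γ₂ U V) (hU : Half μ K p γ₁ V U) :
    Tendsto (fun T₀ => (En μ (fun x => dens p γ₁ V x * V x) (Iic T₀)).toReal) atBot (𝓝 0) := by
  obtain ⟨M, κ, hκ, hM, h⟩ := energy_bound hν hV hU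
  have h1 : Tendsto (fun T₀ => M * (Real.exp (κ * T₀) / κ) * (μ univ).toReal) atBot (𝓝 0) := by
    have := (((tendsto_exp_mul_atBot hκ).div_const κ).const_mul M).mul_const (μ univ).toReal
    simpa using this
  refine squeeze_zero' (Eventually.of_forall fun _ => ENNReal.toReal_nonneg) ?_ h1
  filter_upwards [eventually_le_atBot 1] with T₀ hT₀
  have := ENNReal.toReal_mono (ENNReal.mul_ne_top ENNReal.ofReal_ne_top (measure_ne_top _ _))
    (h T₀ hT₀)
  rwa [ENNReal.toReal_mul, ENNReal.toReal_ofReal (by positivity)] at this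

theorem Psi_shift (hν : 0 ≤ ν) {B : S × ℝ → ℝ≥0∞} (T s : ℝ) :
    Psi μ ν T B ≤ ENNReal.ofReal (Real.exp (ν * |s - T|)) * Psi μ ν s B := by
  unfold Psi psi
  rw [← lintegral_const_mul' _ _ ENNReal.ofReal_ne_top]
  refine lintegral_mono fun b => ?_
  rw [← lintegral_const_mul' _ _ ENNReal.ofReal_ne_top]
  refine lintegral_mono fun t => ?_
  rw [← mul_assoc, ← ENNReal.ofReal_mul (Real.exp_pos _).le, ← Real.exp_add]
  refine mul_le_mul_left (ENNReal.ofReal_le_ofReal (Real.exp_le_exp.2 ?_)) _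
  have : |s - t| ≤ |s - T| + |T - t| := abs_sub_le _ _ _
  nlinarith

theorem Psi_pos (hμ : μ ≠ 0) (hν : 0 ≤ ν) {F : S × ℝ → ℝ} (hF : Continuous F) (hF0 : ∀ x, 0 < F x)
    (T : ℝ) : Psi μ ν T (fun y => ENNReal.ofReal (F y)) ≠ 0 := by
  have h := int_mE_le (μ := μ) hν hF (T := T) (r := 1) (ρ := 1) le_rfl le_rfl
  intro h0
  rw [h0, nonpos_iff_eq_zero, mul_eq_zero] at h
  rcases h with h | h
  · rw [ENNReal.ofReal_eq_zero] at h
    exact absurd h (not_le.2 (by positivity))
  · rw [lintegral_eq_zero_iff (meas_mE hF T 1)] at h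
    have : ∀ᵐ a ∂μ, False := by
      filter_upwards [h] with a ha
      simp only [mE, Pi.zero_apply, ENNReal.ofReal_eq_zero] at ha
      exact absurd ha (not_le.2 (mn_pos hF hF0 T zero_le_one a))
    simp only [eventually_false_iff_eq_bot, ae_eq_bot] at this
    exact hμ this

/-- the nonlinear lower bound between the two weighted masses -/
theorem log_Psi_le (hμ : μ ≠ 0) (hν : 0 < ν) {p q γ₁ γ₂ : ℝ} {U V : S × ℝ → ℝ}
    (hV : Half μ K q γ₂ U V) (hU : Half μ K p γ₁ V U) : ∃ C : ℝ, ∀ T,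
    C + γ₁ * T + p * Real.log (Psi μ ν T (fun y => ENNReal.ofReal (dens q γ₂ U y))).toReal ≤
      Real.log (Psi μ ν T (fun y => ENNReal.ofReal (dens p γ₁ V y))).toReal := by
  have hp := hU.q_pos
  have hF : Continuous (dens p γ₁ V) := continuous_dens hV.cont hV.pos
  have hG : Continuous (dens q γ₂ U) := continuous_dens hU.cont hU.pos
  have hF0 : ∀ x, 0 < dens p γ₁ V x := dens_pos hV.pos
  have hG0 : ∀ x, 0 < dens q γ₂ U x := dens_pos hU.pos
  have hμ' : 0 < (μ univ).toReal :=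
    ENNReal.toReal_pos (by simpa using hμ) (measure_ne_top _ _)
  have hc := K.c₀_pos
  refine ⟨Real.log (2 * 1 * Real.exp (-ν)) + Real.log (μ univ).toReal - |γ₁| +
    p * (Real.log K.c₀ - ν), fun T => ?_⟩
  set Y := (Psi μ ν T (fun y => ENNReal.ofReal (dens q γ₂ U y))).toReal with hY
  have hY0 : 0 < Y := ENNReal.toReal_pos (Psi_pos hμ hν.le hG hG0 T) (Psi_ne_top hG hV.rep' hμ T)
  set L := Real.exp (γ₁ * T - |γ₁|) * (K.c₀ * Real.exp (-ν) * Y) ^ p with hL
  have hL0 : 0 < L := by positivity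
  have h1 : ∀ a, L ≤ mn (dens p γ₁ V) T 1 a := fun a => by
    obtain ⟨s, hs, h⟩ := exists_mn hF T zero_le_one a
    rw [← h]
    have h2 : K.c₀ * Real.exp (-ν) * Y ≤ V (a, s) := by
      have h3 := Psi_le_pot hG hV.rep' s a
      have h4 := Psi_shift (μ := μ) hν.le (B := fun y => ENNReal.ofReal (dens q γ₂ U y)) T s
      have h5 := Psi_ne_top hG hV.rep' hμ s
      have h3' := ENNReal.toReal_le_of_le_ofReal (hV.pos _).le h3
      have h4' := ENNReal.toReal_mono (by finiteness) h4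
      rw [ENNReal.toReal_mul, ENNReal.toReal_ofReal (by positivity)] at h3' h4'
      refine le_trans ?_ h3'
      rw [mul_assoc]
      refine mul_le_mul_of_nonneg_left ?_ hc.le
      rw [Real.exp_neg, inv_mul_le_iff₀ (Real.exp_pos _)]
      refine h4'.trans (mul_le_mul_of_nonneg_right (Real.exp_le_exp.2 ?_) ENNReal.toReal_nonneg)
      nlinarith
    refine mul_le_mul (Real.exp_le_exp.2 ?_) (Real.rpow_le_rpow (by positivity) h2 hp.le)
      (by positivity) (Real.exp_pos _).le
    have : |γ₁ * (s - T)| ≤ |γ₁| := by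
      rw [abs_mul]; exact mul_le_of_le_one_right (abs_nonneg _) hs
    have := neg_abs_le (γ₁ * (s - T))
    dsimp only; linarith
  have h2 := int_mE_le (μ := μ) hν.le hF (T := T) (r := 1) (ρ := 1) le_rfl le_rfl
  have h3 : ENNReal.ofReal L * μ univ ≤ ∫⁻ a, mE (dens p γ₁ V) T 1 a ∂μ := by
    rw [← lintegral_const]
    exact lintegral_mono fun a => ENNReal.ofReal_le_ofReal (h1 a)
  have h4 := ENNReal.toReal_mono (Psi_ne_top hF hU.rep' hμ T) ((mul_le_mul_right h3 _).trans h2)
  rw [ENNReal.toReal_mul, ENNReal.toReal_mul, ENNReal.toReal_ofReal (by positivity),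
    ENNReal.toReal_ofReal hL0.le] at h4
  have h5 := Real.log_le_log (by positivity) h4
  have h6 : Real.log L = γ₁ * T - |γ₁| + p * (Real.log K.c₀ + -ν + Real.log Y) := by
    rw [hL, Real.log_mul (by positivity) (by positivity), Real.log_exp,
      Real.log_rpow (by positivity), Real.log_mul (by positivity) hY0.ne',
      Real.log_mul hc.ne' (by positivity), Real.log_exp]
  rw [Real.log_mul (by positivity) (by positivity), Real.log_mul hL0.ne' hμ'.ne', h6] at h5
  linarith

end Crest.Agent.R77
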