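import Crest.Agent.R77.Pair
import Crest.Agent.R77.Cut

/-!
# Integrating the pair inequality over all pairs of rays
-/

set_option autoImplicit false
set_option linter.unusedSectionVars false

open MeasureTheory Set
open scoped ENNReal

namespace Crest.Agent.R77

variable {S : Type} [MetricSpace S] [CompactSpace S] [MeasurableSpace S] [BorelSpace S]
  (μ : Measure S) [IsFiniteMeasure μ] {ν : ℝ} (K : Kern S ν)

/-- potential of a density on the cylinder -/
noncomputable def Pot (B : S × ℝ → ℝ≥0∞) (x : S × ℝ) : ℝ≥0∞ :=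
  ∫⁻ b, conv (K.k x.1 b) (fun t => B (b, t)) x.2 ∂μ

/-- exponentially weighted total mass about `T` -/
noncomputable def Psi (ν T : ℝ) (B : S × ℝ → ℝ≥0∞) : ℝ≥0∞ :=
  ∫⁻ b, psi ν T (fun t => B (b, t)) ∂μ

/-- interaction of two window minima -/
noncomputable def ZZ (σ : ℝ) (m m' : S → ℝ≥0∞) : ℝ≥0∞ :=
  ∫⁻ z : S × S, m z.1 * m' z.2 * kbar (K.k z.1 z.2) σ ∂(μ.prod μ)

/-- shifted pairing with a function -/
noncomputable def Lam (A : S × ℝ → ℝ≥0∞) (V : S × ℝ → ℝ) (τ : ℝ) : ℝ≥0∞ :=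
  ∫⁻ a, (∫⁻ s, A (a, s) * ENNReal.ofReal (V (a, s + τ))) ∂μ

/-- window integral -/
noncomputable def Win (m : S → ℝ≥0∞) (V : S × ℝ → ℝ) (x e : ℝ) : ℝ≥0∞ :=
  ∫⁻ a, m a * (∫⁻ s in Ioo (x - e) (x + e), ENNReal.ofReal (V (a, s))) ∂μ

theorem Kern.meas₁ (a b : S) : Measurable (K.k a b) :=
  K.meas.comp (f := fun z : ℝ => (a, b, z)) (by fun_prop)

theorem Kern.unimodal (a b : S) : Unimodal (K.k a b) := K.anti a b

theorem Kern.meas_comp {α : Type} [MeasurableSpace α] {f g : α → S} {h : α → ℝ}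
    (hf : Measurable f) (hg : Measurable g) (hh : Measurable h) :
    Measurable fun y => K.k (f y) (g y) (h y) :=
  K.meas.comp (f := fun y => (f y, g y, h y)) (by fun_prop)

theorem Kern.meas_conv {α : Type} [MeasurableSpace α] {f g π : α → S} {h : α → ℝ}
    (hf : Measurable f) (hg : Measurable g) (hπ : Measurable π) (hh : Measurable h)
    {B : S × ℝ → ℝ≥0∞} (hB : Measurable B) :
    Measurable fun y => conv (K.k (f y) (g y)) (fun t => B (π y, t)) (h y) := by
  unfold conv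
  refine Measurable.lintegral_prod_right'
    (f := fun x : α × ℝ => K.k (f x.1) (g x.1) (h x.1 - x.2) * B (π x.1, x.2)) ?_
  exact (K.meas_comp (by fun_prop) (by fun_prop) (by fun_prop)).mul (by fun_prop)

theorem Kern.meas_pp {π π' : S × S → S} (hπ : Measurable π) (hπ' : Measurable π')
    {A B : S × ℝ → ℝ≥0∞} (hA : Measurable A) (hB : Measurable B) (τ : ℝ) :
    Measurable fun z : S × S =>
      pp (K.k z.1 z.2) τ (fun s => A (π z, s)) (fun t => B (π' z, t)) := by
  unfold pp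
  refine Measurable.lintegral_prod_right' (f := fun x : (S × S) × ℝ =>
    A (π x.1, x.2) * conv (K.k x.1.1 x.1.2) (fun t => B (π' x.1, t)) (x.2 + τ)) ?_
  exact Measurable.mul (by fun_prop)
    (K.meas_conv (by fun_prop) (by fun_prop) (by fun_prop) (by fun_prop) hB)

theorem Kern.meas_ww {π : S × S → S} (hπ : Measurable π)
    {B : S × ℝ → ℝ≥0∞} (hB : Measurable B) (e x : ℝ) :
    Measurable fun z : S × S => ww (K.k z.1 z.2) e x (fun t => B (π z, t)) := by
  unfold ww
  exact Measurable.lintegral_prod_right' (f := fun x : (S × S) × ℝ =>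
    conv (K.k x.1.1 x.1.2) (fun t => B (π x.1, t)) x.2)
    (K.meas_conv (by fun_prop) (by fun_prop) (by fun_prop) (by fun_prop) hB)

theorem Kern.meas_kbar (σ : ℝ) : Measurable fun z : S × S => kbar (K.k z.1 z.2) σ := by
  unfold kbar
  exact Measurable.lintegral_prod_right' (f := fun x : (S × S) × ℝ => K.k x.1.1 x.1.2 x.2)
    (K.meas_comp (by fun_prop) (by fun_prop) (by fun_prop))

theorem meas_psi (ν T : ℝ) {B : S × ℝ → ℝ≥0∞} (hB : Measurable B) :
    Measurable fun b : S => psi ν T (fun t => B (b, t)) := by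
  unfold psi
  exact Measurable.lintegral_prod_right' (f := fun x : S × ℝ =>
    ENNReal.ofReal (Real.exp (-(ν * |T - x.2|))) * B (x.1, x.2)) (by fun_prop)

theorem measurable_Pot {B : S × ℝ → ℝ≥0∞} (hB : Measurable B) : Measurable (Pot μ K B) := by
  unfold Pot
  exact Measurable.lintegral_prod_right' (f := fun x : (S × ℝ) × S =>
    conv (K.k x.1.1 x.2) (fun t => B (x.2, t)) x.1.2)
    (K.meas_conv (by fun_prop) (by fun_prop) (by fun_prop) (by fun_prop) hB)

theorem int_pp {A B : S × ℝ → ℝ≥0∞} (hA : Measurable A) (hB : Measurable B) (τ : ℝ) :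
    ∫⁻ z : S × S, pp (K.k z.1 z.2) τ (fun s => A (z.1, s)) (fun t => B (z.2, t)) ∂(μ.prod μ) =
      ∫⁻ a, (∫⁻ s, A (a, s) * Pot μ K B (a, s + τ)) ∂μ := by
  rw [lintegral_prod _ (K.meas_pp measurable_fst measurable_snd hA hB τ).aemeasurable]
  congr 1; ext a
  unfold pp Pot
  have hm : Measurable fun y : S × ℝ => conv (K.k a y.1) (fun t => B (y.1, t)) (y.2 + τ) :=
    K.meas_conv (by fun_prop) (by fun_prop) (by fun_prop) (by fun_prop) hB
  rw [lintegral_lintegral_swap (f := fun b s => A (a, s) *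
    conv (K.k a b) (fun t => B (b, t)) (s + τ)) (Measurable.aemeasurable (Measurable.mul
      (by fun_prop) hm))]
  congr 1; ext s
  rw [lintegral_const_mul _
    (K.meas_conv (by fun_prop) (by fun_prop) (by fun_prop) (by fun_prop) hB)]

theorem int_pp' {A B : S × ℝ → ℝ≥0∞} (hA : Measurable A) (hB : Measurable B) (τ : ℝ) :
    ∫⁻ z : S × S, pp (K.k z.1 z.2) τ (fun s => A (z.1, s)) (fun t => B (z.2, t)) ∂(μ.prod μ) =
      ∫⁻ b, (∫⁻ t, B (b, t) * Pot μ K A (b, t + -τ)) ∂μ := by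
  rw [← int_pp μ K hB hA, ← lintegral_prod_swap]
  congr 1; ext z
  rw [pp_swap (K.meas₁ _ _) (K.unimodal _ _) (by fun_prop) (by fun_prop)]
  simp only [Prod.fst_swap, Prod.snd_swap]
  congr 1; ext t; exact K.symm _ _ _

theorem int_ww {m : S → ℝ≥0∞} (hm : Measurable m) {B : S × ℝ → ℝ≥0∞} (hB : Measurable B)
    (e x : ℝ) :
    ∫⁻ z : S × S, m z.1 * ww (K.k z.1 z.2) e x (fun t => B (z.2, t)) ∂(μ.prod μ) =
      ∫⁻ a, m a * (∫⁻ s in Ioo (x - e) (x + e), Pot μ K B (a, s)) ∂μ := by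
  have h1 := K.meas_ww measurable_snd hB e x
  rw [lintegral_prod _ (Measurable.aemeasurable (by fun_prop))]
  congr 1; ext a
  have h2 : Measurable fun b => ww (K.k a b) e x (fun t => B (b, t)) :=
    h1.comp (f := fun b => (a, b)) (by fun_prop)
  simp only
  rw [lintegral_const_mul _ h2]
  congr 1
  unfold ww Pot
  exact lintegral_lintegral_swap (f := fun b s => conv (K.k a b) (fun t => B (b, t)) s)
    (K.meas_conv (by fun_prop) (by fun_prop) (by fun_prop) (by fun_prop) hB).aemeasurable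

theorem int_ww' {m : S → ℝ≥0∞} (hm : Measurable m) {B : S × ℝ → ℝ≥0∞} (hB : Measurable B)
    (e x : ℝ) :
    ∫⁻ z : S × S, m z.2 * ww (K.k z.1 z.2) e x (fun t => B (z.1, t)) ∂(μ.prod μ) =
      ∫⁻ a, m a * (∫⁻ s in Ioo (x - e) (x + e), Pot μ K B (a, s)) ∂μ := by
  rw [← int_ww μ K hm hB, ← lintegral_prod_swap]
  congr 1; ext z
  simp only [Prod.fst_swap, Prod.snd_swap]
  congr 2; ext t; exact K.symm _ _ _

theorem ZZ_comm (σ : ℝ) (m m' : S → ℝ≥0∞) : ZZ μ K σ m m' = ZZ μ K σ m' m := by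
  unfold ZZ
  rw [← lintegral_prod_swap]
  congr 1; ext z
  simp only [Prod.fst_swap, Prod.snd_swap]
  rw [mul_comm (m z.2)]
  congr 2; ext t; exact K.symm _ _ _

theorem ray_of_cut {f : S × ℝ → ℝ} (hf : Continuous f) (hpos : ∀ x, 0 < f x) {T ρ ρ₀ T₀ M : ℝ}
    (hρ₀ : 0 ≤ ρ₀) (hρ : ρ₀ ≤ ρ) (hT₀ : T₀ < T - ρ) (hM : ∀ a s, s ≤ T₀ → f (a, s) ≤ M)
    (c : Cut f T ρ) (a : S) :
    Ray T ρ ρ₀ T₀ (ENNReal.ofReal (mn f T ρ a)) (ENNReal.ofReal (mn f T ρ₀ a - mn f T ρ a))
      (ENNReal.ofReal M) (fun s => ENNReal.ofReal (f (a, s))) (fun s => c.Fm T₀ (a, s))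
      (fun s => c.Fp (a, s)) (fun s => F0 f T₀ (a, s)) where
  mf := by have := hf.measurable; fun_prop
  mm := (c.measurable_Fm hf T₀).comp (by fun_prop)
  mp := (c.measurable_Fp hf).comp (by fun_prop)
  m0 := (measurable_F0 hf T₀).comp (by fun_prop)
  sum := funext fun s => (c.sum_eq hf (hρ₀.trans hρ) hT₀ (a, s)).symm
  split := c.split hf hpos (hρ₀.trans hρ) hT₀ a
  fm_left := fun s hs => c.Fm_eq_zero_left a hs
  f0_right := fun s hs => by simp [F0, not_le.2 hs]
  f0_le := fun s => by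
    unfold F0
    split_ifs with h
    · exact ENNReal.ofReal_le_ofReal (hM a s h)
    · exact zero_le
  fm_le := fun s hs => c.Fm_le_sub hf hρ₀ T₀ a hs
  fp_le := fun s hs => c.Fp_le_sub hf hρ₀ a hs
  m_le := fun s hs => ENNReal.ofReal_le_ofReal (mn_le hf a hs)

/-- The integrated force inequality. -/
theorem global_ineq (hν : 0 < ν) {F G U V : S × ℝ → ℝ} (hF : Continuous F) (hG : Continuous G)
    (hFpos : ∀ x, 0 < F x) (hGpos : ∀ x, 0 < G x)
    (hV : ∀ x, ENNReal.ofReal (V x) = Pot μ K (fun y => ENNReal.ofReal (G y)) x)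
    (hU : ∀ x, ENNReal.ofReal (U x) = Pot μ K (fun y => ENNReal.ofReal (F y)) x)
    {T ρ ρ₀ T₀ σ e MF MG : ℝ} (he : 0 < e) (hσ : 0 < σ) (hρ₀ : 0 ≤ ρ₀)
    (hρ : ρ₀ + σ + e ≤ ρ) (hρ1 : ρ + e ≤ 1) (hT₀ : T₀ < T - ρ)
    (hMF : ∀ a s, s ≤ T₀ → F (a, s) ≤ MF) (hMG : ∀ a s, s ≤ T₀ → G (a, s) ≤ MG)
    (cF : Cut F T ρ) (cG : Cut G T ρ) :
    Lam μ (cF.Fm T₀) V (-e) + Lam μ (cG.Fm T₀) U (-e)
        + Win μ (fun a => ENNReal.ofReal (mn F T ρ a)) V T e
        + Win μ (fun a => ENNReal.ofReal (mn G T ρ a)) U T e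
        + ENNReal.ofReal (2 * e) * ZZ μ K σ (fun a => ENNReal.ofReal (mn F T ρ a))
          (fun a => ENNReal.ofReal (mn G T ρ a)) ≤
      Lam μ (cF.Fm T₀) V e + Lam μ (cG.Fm T₀) U e
        + ENNReal.ofReal (2 * e) * (2 * ZZ μ K σ (fun a => ENNReal.ofReal (mn F T ρ₀ a))
            (fun a => ENNReal.ofReal (mn G T ρ₀ a))
          + ENNReal.ofReal (K.C₀ / σ ^ K.N * Real.exp ν) *
            (3 * ((∫⁻ a, ENNReal.ofReal (mn F T ρ a) ∂μ) *
                Psi μ ν T (fun y => ENNReal.ofReal (G y)))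
              + 4 * ((∫⁻ a, ENNReal.ofReal (mn G T ρ a) ∂μ) *
                Psi μ ν T (fun y => ENNReal.ofReal (F y)))))
        + ENNReal.ofReal MG * Win μ (fun _ => 1) U T₀ e
        + ENNReal.ofReal MF * Win μ (fun _ => 1) V T₀ e := by
  have hρρ : ρ₀ ≤ ρ := by linarith
  have mF : Measurable fun y => ENNReal.ofReal (F y) := hF.measurable.ennreal_ofReal
  have mG : Measurable fun y => ENNReal.ofReal (G y) := hG.measurable.ennreal_ofReal
  have mFm := cF.measurable_Fm hF T₀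
  have mGm := cG.measurable_Fm hG T₀
  have mm : ∀ r, Measurable fun a => ENNReal.ofReal (mn F T r a) := fun r =>
    (continuous_mn hF T r).measurable.ennreal_ofReal
  have mm' : ∀ r, Measurable fun a => ENNReal.ofReal (mn G T r a) := fun r =>
    (continuous_mn hG T r).measurable.ennreal_ofReal
  have hC : 0 ≤ K.C₀ / σ ^ K.N := div_nonneg K.C₀_pos.le (by positivity)
  have key := fun z : S × S => pair_full (K.meas₁ z.1 z.2) (K.unimodal z.1 z.2) hν.le hC he hσ hρ₀
    hρ hρ1 hT₀ (K.upper σ hσ (by linarith) z.1 z.2)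
    (lintegral_Ici_ne_top hν he (K.upper e he (by linarith) z.1 z.2))
    (ray_of_cut hF hFpos hρ₀ hρρ hT₀ hMF cF z.1) (ray_of_cut hG hGpos hρ₀ hρρ hT₀ hMG cG z.2)
  have hadd : ∀ {f : S × ℝ → ℝ}, Continuous f → (∀ x, 0 < f x) → ∀ a,
      ENNReal.ofReal (mn f T ρ a) + ENNReal.ofReal (mn f T ρ₀ a - mn f T ρ a) =
        ENNReal.ofReal (mn f T ρ₀ a) := fun hf hpos a => by
    rw [← ENNReal.ofReal_add (mn_pos hf hpos T (by linarith) a).le
      (sub_nonneg.2 (mn_anti hf T hρ₀ hρρ a))]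
    congr 1; ring
  simp only [hadd hF hFpos, hadd hG hGpos] at key
  have int := lintegral_mono (μ := μ.prod μ) key
  have p1 := fun τ => K.meas_pp measurable_fst measurable_snd mFm mG τ
  have p2 := fun τ => K.meas_pp measurable_fst measurable_snd mF mGm τ
  have w1 := fun x => K.meas_ww measurable_snd mG e x
  have w2 := fun x => K.meas_ww measurable_fst mF e x
  have kb := K.meas_kbar σ
  have s1 := meas_psi ν T mG
  have s2 := meas_psi ν T mF
  have mmρ := mm ρ
  have mmρ' := mm' ρ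
  have mm0 := mm ρ₀
  have mm0' := mm' ρ₀
  have n1 := (continuous_mn hF T ρ).measurable
  have n2 := (continuous_mn hG T ρ).measurable
  have n3 := (continuous_mn hF T ρ₀).measurable
  have n4 := (continuous_mn hG T ρ₀).measurable
  have s1' : Measurable fun z : S × S => psi ν T fun s => ENNReal.ofReal (G (z.2, s)) :=
    s1.comp measurable_snd
  have s2' : Measurable fun z : S × S => psi ν T fun s => ENNReal.ofReal (F (z.1, s)) :=
    s2.comp measurable_fst
  have p1a := p1 e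
  have p1b := p1 (-e)
  have p2a := p2 e
  have p2b := p2 (-e)
  have w1a := w1 T
  have w1b := w1 T₀
  have w2a := w2 T
  have w2b := w2 T₀
  rw [lintegral_add_right _ (by fun_prop), lintegral_add_right _ (by fun_prop),
    lintegral_add_right _ (by fun_prop), lintegral_add_right _ (by fun_prop),
    lintegral_add_right _ (by fun_prop), lintegral_add_right _ (by fun_prop),
    lintegral_add_right _ (by fun_prop), lintegral_add_right _ (by fun_prop),
    lintegral_const_mul _ (by fun_prop), lintegral_const_mul _ (by fun_prop),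
    lintegral_const_mul _ (by fun_prop), lintegral_const_mul _ (by fun_prop),
    lintegral_add_right _ (by fun_prop), lintegral_const_mul _ (by fun_prop),
    lintegral_const_mul _ (by fun_prop), lintegral_add_right _ (by fun_prop),
    lintegral_const_mul _ (by fun_prop), lintegral_const_mul _ (by fun_prop),
    int_pp μ K mFm mG, int_pp μ K mFm mG, int_pp' μ K mF mGm, int_pp' μ K mF mGm, neg_neg,
    int_ww μ K mmρ mG, int_ww' μ K mmρ' mF,
    lintegral_prod_mul mmρ.aemeasurable s1.aemeasurable] at int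
  have l1 : ∫⁻ z : S × S, ENNReal.ofReal (mn G T ρ z.2) *
      psi ν T (fun s => ENNReal.ofReal (F (z.1, s))) ∂(μ.prod μ) =
      (∫⁻ a, ENNReal.ofReal (mn G T ρ a) ∂μ) * Psi μ ν T (fun y => ENNReal.ofReal (F y)) := by
    rw [← lintegral_prod_swap]
    exact lintegral_prod_mul mmρ'.aemeasurable s2.aemeasurable
  have l2 := int_ww μ K (m := fun _ => 1) measurable_const mG e T₀
  have l3 := int_ww' μ K (m := fun _ => 1) measurable_const mF e T₀
  simp only [one_mul] at l2 l3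
  rw [l1, l2, l3] at int
  simpa only [Lam, Win, ZZ, Psi, hV, hU, one_mul] using int

end Crest.Agent.R77
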