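import Crest.Agent.R77.Deriv

/-!
# The localized Pohozaev inequality in real form
-/

set_option autoImplicit false
set_option linter.unusedSectionVars false

open MeasureTheory Set Filter Topology
open scoped ENNReal

namespace Crest.Agent.R77

variable {S : Type} [MetricSpace S] [CompactSpace S] [MeasurableSpace S] [BorelSpace S]
  {μ : Measure S} [IsFiniteMeasure μ] {ν : ℝ} {K : Kern S ν}

/-- the source term -/
noncomputable def dens (q γ : ℝ) (U : S × ℝ → ℝ) (x : S × ℝ) : ℝ := Real.exp (γ * x.2) * U x ^ q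

theorem continuous_dens {q γ : ℝ} {U : S × ℝ → ℝ} (hU : Continuous U) (h0 : ∀ x, 0 < U x) :
    Continuous (dens q γ U) :=
  Continuous.mul (by fun_prop) (hU.rpow_const fun x => Or.inl (h0 x).ne')

theorem dens_pos {q γ : ℝ} {U : S × ℝ → ℝ} (h0 : ∀ x, 0 < U x) (x : S × ℝ) : 0 < dens q γ U x :=
  mul_pos (Real.exp_pos _) (Real.rpow_pos_of_pos (h0 x) _)

theorem Half.rep' {q γ : ℝ} {U V : S × ℝ → ℝ} (h : Half μ K q γ U V) (x : S × ℝ) :
    ENNReal.ofReal (V x) = Pot μ K (fun y => ENNReal.ofReal (dens q γ U y)) x := h.rep x.1 x.2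

/-- `mn` as an `ℝ≥0∞`-valued function -/
noncomputable abbrev mE (f : S × ℝ → ℝ) (T r : ℝ) (a : S) : ℝ≥0∞ := ENNReal.ofReal (mn f T r a)

theorem meas_mE {f : S × ℝ → ℝ} (hf : Continuous f) (T r : ℝ) : Measurable (mE f T r) :=
  (continuous_mn hf T r).measurable.ennreal_ofReal

theorem lintegral_cont_ne_top {m : S → ℝ} (hm : Continuous m) :
    ∫⁻ a, ENNReal.ofReal (m a) ∂μ ≠ ⊤ :=
  (integrable_cont μ hm).lintegral_lt_top.ne

section pot

variable {G V : S × ℝ → ℝ} (hG : Continuous G)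
  (hV : ∀ x, ENNReal.ofReal (V x) = Pot μ K (fun y => ENNReal.ofReal (G y)) x)
include hG hV

theorem kbar_le_pot {T r σ s : ℝ} (hs : |s - T| + σ ≤ r) (a : S) :
    ∫⁻ b, mE G T r b * kbar (K.k a b) σ ∂μ ≤ ENNReal.ofReal (V (a, s)) := by
  rw [hV]
  refine lintegral_mono fun b => le_conv (K.meas₁ a b) fun t ht =>
    ENNReal.ofReal_le_ofReal (mn_le hG b ?_)
  calc |t - T| = |(s - T) - (s - t)| := by congr 1; ring
    _ ≤ |s - T| + |s - t| := abs_sub _ _
    _ ≤ r := by linarith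

theorem ZZ_le {T r σ : ℝ} {m W : S → ℝ≥0∞}
    (hW : ∀ a, ∃ s, |s - T| + σ ≤ r ∧ m a * ENNReal.ofReal (V (a, s)) ≤ W a) (hm : Measurable m) :
    ZZ μ K σ m (mE G T r) ≤ ∫⁻ a, W a ∂μ := by
  have h1 := (continuous_mn hG T r).measurable
  have h2 := K.meas_kbar σ
  unfold ZZ
  rw [lintegral_prod _ (Measurable.aemeasurable (by fun_prop))]
  refine lintegral_mono fun a => ?_
  obtain ⟨s, hs, h⟩ := hW a
  have h3 : Measurable fun b => kbar (K.k a b) σ := h2.comp (f := fun b => (a, b)) (by fun_prop)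
  simp only [mul_assoc]
  rw [lintegral_const_mul _ (by fun_prop)]
  exact (mul_le_mul_right (kbar_le_pot hG hV hs a) _).trans h

theorem Psi_le_pot (T : ℝ) (a : S) :
    ENNReal.ofReal K.c₀ * Psi μ ν T (fun y => ENNReal.ofReal (G y)) ≤ ENNReal.ofReal (V (a, T)) := by
  have hm := hG.measurable
  rw [hV, Psi, ← lintegral_const_mul _ (meas_psi ν T hm.ennreal_ofReal)]
  refine lintegral_mono fun b => ?_
  unfold psi conv
  rw [← lintegral_const_mul _ (by fun_prop)]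
  refine lintegral_mono fun t => ?_
  rw [← mul_assoc, ← ENNReal.ofReal_mul K.c₀_pos.le]
  exact mul_le_mul_left (K.lower _ _ _) _

theorem Psi_ne_top (hμ : μ ≠ 0) (T : ℝ) : Psi μ ν T (fun y => ENNReal.ofReal (G y)) ≠ ⊤ := by
  obtain ⟨a⟩ : Nonempty S := by
    by_contra h
    rw [not_nonempty_iff] at h
    exact hμ (Measure.eq_zero_of_isEmpty μ)
  have := Psi_le_pot hG hV T a
  intro h
  rw [h, ENNReal.mul_top (by simpa using K.c₀_pos)] at this
  exact absurd this (by simp)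

theorem ZZ_ne_top (hVc : Continuous V) {F : S × ℝ → ℝ} (hF : Continuous F) (hF0 : ∀ x, 0 < F x)
    {T r r' σ : ℝ} (hr : σ ≤ r) (hr' : 0 ≤ r') :
    ZZ μ K σ (mE F T r') (mE G T r) ≠ ⊤ := by
  have := continuous_mn hF T r'
  refine ne_top_of_le_ne_top (lintegral_cont_ne_top (μ := μ)
    (m := fun a => mn F T r' a * V (a, T)) (by fun_prop)) ?_
  refine ZZ_le hG hV (fun a => ⟨T, by simpa using hr, ?_⟩) (meas_mE hF T r')
  rw [ENNReal.ofReal_mul (mn_pos hF hF0 T hr' a).le]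

theorem ZZ_le_En {F : S × ℝ → ℝ} (hF : Continuous F) (hF0 : ∀ x, 0 < F x)
    {T r σ : ℝ} (hσ : 0 ≤ σ) (hr : σ ≤ r / 2) :
    ENNReal.ofReal r * ZZ μ K σ (mE F T r) (mE G T r) ≤
      En μ (fun x => F x * V x) (Icc (T - r) (T + r)) := by
  have h1 := (continuous_mn hG T r).measurable
  have h1' := (continuous_mn hF T r).measurable
  have h2 := K.meas_kbar σ
  unfold ZZ En
  rw [lintegral_prod _ (Measurable.aemeasurable (by fun_prop)), ← lintegral_const_mul' _ _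
    ENNReal.ofReal_ne_top]
  refine lintegral_mono fun a => ?_
  have h3 : Measurable fun b => kbar (K.k a b) σ := h2.comp (f := fun b => (a, b)) (by fun_prop)
  simp only [mul_assoc]
  rw [lintegral_const_mul _ (by fun_prop)]
  refine le_trans ?_ (lintegral_mono_set (s := Icc (T - r / 2) (T + r / 2))
    (Icc_subset_Icc (by linarith) (by linarith)))
  rw [mul_comm, show r = T + r / 2 - (T - r / 2) by ring, ← Real.volume_Icc, ← setLIntegral_const,
    show T + r / 2 - (T - r / 2) = r by ring]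
  refine setLIntegral_mono' measurableSet_Icc fun s hs => ?_
  have hs' : |s - T| ≤ r / 2 := abs_le.2 ⟨by linarith [hs.1], by linarith [hs.2]⟩
  rw [ENNReal.ofReal_mul (hF0 _).le]
  exact mul_le_mul' (ENNReal.ofReal_le_ofReal (mn_le hF a (by linarith)))
    (kbar_le_pot hG hV (by linarith) a)

theorem ZZ_le_gain (hVc : Continuous V) (hV0 : ∀ x, 0 < V x) {p γ T ρ ρ₂ σ : ℝ} (hp : 0 < p)
    (hσ : 0 ≤ σ) (hρ : 0 ≤ ρ) (hρ₂ : ρ + σ ≤ ρ₂) :
    Real.exp (-(|γ| / p * ρ)) * (ZZ μ K σ (mE (dens p γ V) T ρ₂) (mE G T ρ₂)).toReal ≤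
      ∫ a, mn (dens p γ V) T ρ a * (mn (dens p γ V) T ρ a ^ (1 / p) * Real.exp (-(γ / p) * T)) ∂μ := by
  have hF : Continuous (dens p γ V) := continuous_dens hVc hV0
  have hF0 : ∀ x, 0 < dens p γ V x := dens_pos hV0
  have hm := continuous_mn hF T ρ
  have hm0 := mn_pos hF hF0 T hρ
  have hc : Continuous fun a => mn (dens p γ V) T ρ a *
      (mn (dens p γ V) T ρ a ^ (1 / p) * Real.exp (-(γ / p) * T)) :=
    hm.mul ((hm.rpow_const fun _ => Or.inr (by positivity)).mul continuous_const)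
  have hc0 : ∀ a, 0 ≤ mn (dens p γ V) T ρ a *
      (mn (dens p γ V) T ρ a ^ (1 / p) * Real.exp (-(γ / p) * T)) := fun a =>
    mul_nonneg (hm0 a).le (mul_nonneg (Real.rpow_nonneg (hm0 a).le _) (Real.exp_pos _).le)
  have h := ZZ_le hG hV (T := T) (r := ρ₂) (σ := σ) (m := mE (dens p γ V) T ρ₂)
    (W := fun a => ENNReal.ofReal (Real.exp (|γ| / p * ρ) * (mn (dens p γ V) T ρ a *
      (mn (dens p γ V) T ρ a ^ (1 / p) * Real.exp (-(γ / p) * T))))) (fun a => by
      obtain ⟨s, hs, h⟩ := exists_mn hF T hρ a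
      refine ⟨s, by linarith, ?_⟩
      rw [← ENNReal.ofReal_mul (mn_pos hF hF0 T (by linarith) a).le]
      refine ENNReal.ofReal_le_ofReal ?_
      have h1 : mn (dens p γ V) T ρ a ^ (1 / p) = Real.exp (γ / p * s) * V (a, s) := by
        rw [← h, dens, Real.mul_rpow (Real.exp_pos _).le (Real.rpow_pos_of_pos (hV0 _) _).le,
          ← Real.rpow_mul (hV0 _).le, ← Real.exp_mul, mul_one_div_cancel hp.ne', Real.rpow_one]
        congr 2; ring
      have h2 : 1 ≤ Real.exp (|γ| / p * ρ) * (Real.exp (γ / p * s) * Real.exp (-(γ / p) * T)) := by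
        rw [← Real.exp_add, ← Real.exp_add]
        refine Real.one_le_exp ?_
        have : |γ / p * (s - T)| ≤ |γ| / p * ρ := by
          rw [abs_mul, abs_div, abs_of_pos hp]; gcongr
        have := neg_abs_le (γ / p * (s - T))
        linarith
      rw [h1]
      have h3 := mn_anti hF T hρ (show ρ ≤ ρ₂ by linarith) a
      have h4 := hV0 (a, s)
      calc mn (dens p γ V) T ρ₂ a * V (a, s) ≤ mn (dens p γ V) T ρ a * V (a, s) * 1 := by
            rw [mul_one]; gcongr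
        _ ≤ mn (dens p γ V) T ρ a * V (a, s) *
            (Real.exp (|γ| / p * ρ) * (Real.exp (γ / p * s) * Real.exp (-(γ / p) * T))) :=
            mul_le_mul_of_nonneg_left h2 (mul_pos (hm0 a) h4).le
        _ = _ := by ring) (meas_mE hF T ρ₂)
  rw [← ofReal_integral_eq_lintegral_ofReal ((integrable_cont μ hc).const_mul _)
    (Eventually.of_forall fun a => mul_nonneg (Real.exp_pos _).le (hc0 a)), integral_const_mul] at h
  have h' := ENNReal.toReal_le_of_le_ofReal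
    (mul_nonneg (Real.exp_pos _).le (integral_nonneg hc0)) h
  rw [Real.exp_neg, inv_mul_le_iff₀ (Real.exp_pos _)]
  exact h'

end pot

theorem int_mE_le (hν : 0 ≤ ν) {F : S × ℝ → ℝ} (hF : Continuous F) {T r ρ : ℝ}
    (hr1 : r ≤ 1) (hρ : r ≤ ρ) :
    ENNReal.ofReal (2 * r * Real.exp (-ν)) * ∫⁻ a, mE F T ρ a ∂μ ≤
      Psi μ ν T (fun y => ENNReal.ofReal (F y)) := by
  rw [← lintegral_const_mul _ (meas_mE hF T ρ)]
  refine lintegral_mono fun a => ?_
  unfold psi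
  refine le_trans ?_ (setLIntegral_le_lintegral (Icc (T - r) (T + r)) _)
  rw [ENNReal.ofReal_mul' (Real.exp_pos _).le, mul_assoc, mul_comm,
    show 2 * r = T + r - (T - r) by ring, ← Real.volume_Icc, ← setLIntegral_const]
  refine setLIntegral_mono' measurableSet_Icc fun s hs => ?_
  have hs' : |s - T| ≤ r := abs_le.2 ⟨by linarith [hs.1], by linarith [hs.2]⟩
  refine mul_le_mul' (ENNReal.ofReal_le_ofReal (Real.exp_le_exp.2 ?_))
    (ENNReal.ofReal_le_ofReal (mn_le hF a (by linarith)))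
  rw [abs_sub_comm] at hs'
  nlinarith [abs_nonneg (T - s)]

theorem main_ineq (hμ : μ ≠ 0) (hν : 0 < ν) {p q γ₁ γ₂ : ℝ} {U V : S × ℝ → ℝ}
    (hV : Half μ K q γ₂ U V) (hU : Half μ K p γ₁ V U)
    {T ρ₀ ρ ρ₂ T₀ σ MF MG MU MV : ℝ} (hσ : 0 < σ) (hρ₀ : σ ≤ ρ₀) (hρ : ρ₀ + σ < ρ) (hρ1 : ρ < 1)
    (hρ₂ : ρ + σ ≤ ρ₂) (hT₀ : T₀ < T - ρ)
    (hMF0 : 0 ≤ MF) (hMG0 : 0 ≤ MG) (hMU0 : 0 ≤ MU) (hMV0 : 0 ≤ MV)
    (hMF : ∀ a s, s ≤ T₀ → dens p γ₁ V (a, s) ≤ MF) (hMG : ∀ a s, s ≤ T₀ → dens q γ₂ U (a, s) ≤ MG)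
    (hMU : ∀ a s, s ≤ T₀ + 1 → U (a, s) ≤ MU) (hMV : ∀ a s, s ≤ T₀ + 1 → V (a, s) ≤ MV) :
    γ₁ / (p + 1) * (En μ (fun x => dens p γ₁ V x * V x) (Ioc T₀ T)).toReal
      + γ₂ / (q + 1) * (En μ (fun x => dens q γ₂ U x * U x) (Ioc T₀ T)).toReal
      + (p / (p + 1) * Real.exp (-(|γ₁| / p * ρ)) + q / (q + 1) * Real.exp (-(|γ₂| / q * ρ))) *
        (ZZ μ K σ (mE (dens p γ₁ V) T ρ₂) (mE (dens q γ₂ U) T ρ₂)).toReal
      + (ZZ μ K σ (mE (dens p γ₁ V) T ρ) (mE (dens q γ₂ U) T ρ)).toReal ≤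
    2 * (ZZ μ K σ (mE (dens p γ₁ V) T ρ₀) (mE (dens q γ₂ U) T ρ₀)).toReal
      + K.C₀ / σ ^ K.N * Real.exp ν *
        (3 * ((∫⁻ a, mE (dens p γ₁ V) T ρ a ∂μ).toReal *
            (Psi μ ν T (fun y => ENNReal.ofReal (dens q γ₂ U y))).toReal)
          + 4 * ((∫⁻ a, mE (dens q γ₂ U) T ρ a ∂μ).toReal *
            (Psi μ ν T (fun y => ENNReal.ofReal (dens p γ₁ V y))).toReal))
      + (MG * MU + MF * MV) * (μ univ).toReal
      + |γ₁| / (p + 1) * (En μ (fun x => dens p γ₁ V x * V x) (Icc (T - ρ) (T + ρ))).toReal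
      + |γ₂| / (q + 1) * (En μ (fun x => dens q γ₂ U x * U x) (Icc (T - ρ) (T + ρ))).toReal := by
  set F := dens p γ₁ V with hFdef
  set G := dens q γ₂ U with hGdef
  have hp := hU.q_pos
  have hq := hV.q_pos
  have hF : Continuous F := continuous_dens hV.cont hV.pos
  have hG : Continuous G := continuous_dens hU.cont hU.pos
  have hF0 : ∀ x, 0 < F x := dens_pos hV.pos
  have hG0 : ∀ x, 0 < G x := dens_pos hU.pos
  have hρ' : 0 ≤ ρ := by linarith
  obtain ⟨cF⟩ := exists_cut hF T hρ'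
  obtain ⟨cG⟩ := exists_cut hG T hρ'
  obtain ⟨V', hV'c, hVd⟩ := hV.diff
  obtain ⟨U', hU'c, hUd⟩ := hU.diff
  have hmF := continuous_mn hF T ρ
  have hmG := continuous_mn hG T ρ
  have hVc := hV.cont
  have hUc := hU.cont
  have d1 := hasDerivAt_shift (μ.prod volume) measurable_fst measurable_snd
    (cF.integrable_Fm μ hF hρ' hT₀) (cF.Fm_supp hρ') hVc hV'c hVd
  have d2 := hasDerivAt_shift (μ.prod volume) measurable_fst measurable_snd
    (cG.integrable_Fm μ hG hρ' hT₀) (cG.Fm_supp hρ') hUc hU'c hUd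
  have d3 := hasDerivAt_shift μ (α := id) (β := fun _ => T) measurable_id measurable_const
    (c := T) (d := T) (integrable_cont μ hmF) (fun x hx => absurd ⟨le_rfl, le_rfl⟩ hx)
    (continuous_prim hVc T) hVc (hasDerivAt_prim hVc T)
  have d4 := hasDerivAt_shift μ (α := id) (β := fun _ => T) measurable_id measurable_const
    (c := T) (d := T) (integrable_cont μ hmG) (fun x hx => absurd ⟨le_rfl, le_rfl⟩ hx)
    (continuous_prim hUc T) hUc (hasDerivAt_prim hUc T)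
  have d := (d1.sub d3).add (d2.sub d4)
  have f1 := ZZ_ne_top hG hV.rep' hVc hF hF0 (T := T) (r := ρ₀) (r' := ρ₀) (σ := σ) hρ₀
    (by linarith)
  have f2 := ZZ_ne_top hG hV.rep' hVc hF hF0 (T := T) (r := ρ) (r' := ρ) (σ := σ) (by linarith) hρ'
  have f3 : ∫⁻ a, mE F T ρ a ∂μ ≠ ⊤ := lintegral_cont_ne_top hmF
  have f4 : ∫⁻ a, mE G T ρ a ∂μ ≠ ⊤ := lintegral_cont_ne_top hmG
  have f5 := Psi_ne_top hG hV.rep' hμ T
  have f6 := Psi_ne_top hF hU.rep' hμ T
  have f7 : μ univ ≠ ⊤ := measure_ne_top _ _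
  have hC : 0 ≤ K.C₀ / σ ^ K.N * Real.exp ν :=
    mul_nonneg (div_nonneg K.C₀_pos.le (by positivity)) (Real.exp_pos _).le
  have key := neg_le_of_symm_diff (e₀ := min (ρ - ρ₀ - σ) (1 - ρ))
    (B := 2 * (ZZ μ K σ (mE F T ρ₀) (mE G T ρ₀)).toReal
      + K.C₀ / σ ^ K.N * Real.exp ν *
        (3 * ((∫⁻ a, mE F T ρ a ∂μ).toReal *
            (Psi μ ν T (fun y => ENNReal.ofReal (G y))).toReal)
          + 4 * ((∫⁻ a, mE G T ρ a ∂μ).toReal *
            (Psi μ ν T (fun y => ENNReal.ofReal (F y))).toReal))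
      + (MG * MU + MF * MV) * (μ univ).toReal - (ZZ μ K σ (mE F T ρ) (mE G T ρ)).toReal)
    d (lt_min (by linarith) (by linarith)) (fun e he he' => by
      have he1 := he'.trans_le (min_le_left _ _)
      have he2 := he'.trans_le (min_le_right _ _)
      have g := global_ineq μ K hν hF hG hF0 hG0 hV.rep' hU.rep' he hσ (ρ₀ := ρ₀) (by linarith)
        (by linarith) (by linarith) hT₀ hMF hMG cF cG
      have g2 := g.trans (add_le_add (add_le_add le_rfl (mul_le_mul_right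
        (Win_one_le μ (by linarith) hMU) _)) (mul_le_mul_right (Win_one_le μ (by linarith) hMV) _))
      have wF := Win_eq μ hmF (fun a => (mn_pos hF hF0 T hρ' a).le) hVc (fun x => (hV.pos x).le) T
        he.le
      have wG := Win_eq μ hmG (fun a => (mn_pos hG hG0 T hρ' a).le) hUc (fun x => (hU.pos x).le) T
        he.le
      have lF := Lam_eq μ hF hVc (fun x => (hV.pos x).le) hρ' hT₀ cF
      have lG := Lam_eq μ hG hUc (fun x => (hU.pos x).le) hρ' hT₀ cG
      have nF : ∀ τ, 0 ≤ ∫ x, (cF.Fm T₀ x).toReal * V (x.1, x.2 + τ) ∂(μ.prod volume) := fun τ =>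
        integral_nonneg fun x => mul_nonneg ENNReal.toReal_nonneg (hV.pos _).le
      have nG : ∀ τ, 0 ≤ ∫ x, (cG.Fm T₀ x).toReal * U (x.1, x.2 + τ) ∂(μ.prod volume) := fun τ =>
        integral_nonneg fun x => mul_nonneg ENNReal.toReal_nonneg (hU.pos _).le
      rw [wF, wG, lF, lF, lG, lG] at g2
      have g3 := ENNReal.toReal_mono (by finiteness) g2
      simp (disch := finiteness) only [ENNReal.toReal_add, ENNReal.toReal_mul,
        ENNReal.toReal_ofNat] at g3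
      rw [ENNReal.toReal_ofReal (nF _), ENNReal.toReal_ofReal (nF _), ENNReal.toReal_ofReal (nG _),
        ENNReal.toReal_ofReal (nG _), ENNReal.toReal_ofReal hC, ENNReal.toReal_ofReal hMF0,
        ENNReal.toReal_ofReal hMG0, ENNReal.toReal_ofReal hMU0, ENNReal.toReal_ofReal hMV0,
        ENNReal.toReal_ofReal (show 0 ≤ 2 * e by linarith), ENNReal.toReal_ofReal',
        ENNReal.toReal_ofReal'] at g3
      have m1 := le_max_left ((∫ a, mn F T ρ a * prim V T (a, T + e) ∂μ) -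
        ∫ a, mn F T ρ a * prim V T (a, T + -e) ∂μ) 0
      have m2 := le_max_left ((∫ a, mn G T ρ a * prim U T (a, T + e) ∂μ) -
        ∫ a, mn G T ρ a * prim U T (a, T + -e) ∂μ) 0
      simp only [Pi.add_apply, Pi.sub_apply, id]
      linarith)
  have l1 := level_int μ hVc hV'c hV.pos hVd hp hρ' hT₀ (f := F) (γ := γ₁) (fun _ => rfl) cF
  have l2 := level_int μ hUc hU'c hU.pos hUd hq hρ' hT₀ (f := G) (γ := γ₂) (fun _ => rfl) cG
  have z1 := ZZ_le_gain hG hV.rep' hVc hV.pos (γ := γ₁) (T := T) hp hσ.le hρ' hρ₂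
  have z2 := ZZ_le_gain hF hU.rep' hUc hU.pos (γ := γ₂) (T := T) hq hσ.le hρ' hρ₂
  rw [ZZ_comm] at z2
  have z1' := mul_le_mul_of_nonneg_left z1 (show 0 ≤ p / (p + 1) by positivity)
  have z2' := mul_le_mul_of_nonneg_left z2 (show 0 ≤ q / (q + 1) by positivity)
  simp only [id, ← hFdef, ← hGdef] at key z1' z2'
  linarith

end Crest.Agent.R77
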