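import Crest.Agent.R77.Defs

/-!
# One-dimensional lemmas for an even unimodal kernel
-/

set_option autoImplicit false

open MeasureTheory Set
open scoped ENNReal

namespace Crest.Agent.R77

/-- `k` is even and decreasing in `|z|`. -/
def Unimodal (k : ℝ → ℝ≥0∞) : Prop := ∀ z z', |z| ≤ |z'| → k z' ≤ k z

/-- `b` is symmetric decreasing about `T`. -/
def SymDec (T : ℝ) (b : ℝ → ℝ≥0∞) : Prop := ∀ s s', |s - T| ≤ |s' - T| → b s' ≤ b s

/-- convolution -/
noncomputable def conv (k b : ℝ → ℝ≥0∞) (s : ℝ) : ℝ≥0∞ := ∫⁻ t, k (s - t) * b t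

/-- shifted pairing -/
noncomputable def pp (k : ℝ → ℝ≥0∞) (τ : ℝ) (a b : ℝ → ℝ≥0∞) : ℝ≥0∞ :=
  ∫⁻ s, a s * conv k b (s + τ)

/-- window integral of the convolution -/
noncomputable def ww (k : ℝ → ℝ≥0∞) (e x : ℝ) (b : ℝ → ℝ≥0∞) : ℝ≥0∞ :=
  ∫⁻ s in Ioo (x - e) (x + e), conv k b s

variable {k : ℝ → ℝ≥0∞}

theorem Unimodal.even (hk : Unimodal k) (z : ℝ) : k (-z) = k z :=
  le_antisymm (hk _ _ (by simp)) (hk _ _ (by simp))

theorem Unimodal.sub_comm (hk : Unimodal k) (x y : ℝ) : k (x - y) = k (y - x) := by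
  rw [← hk.even, neg_sub]

theorem SymDec.eq {T : ℝ} {b : ℝ → ℝ≥0∞} (hb : SymDec T b) {s s' : ℝ} (h : |s - T| = |s' - T|) :
    b s = b s' := le_antisymm (hb _ _ h.ge) (hb _ _ h.le)

theorem measurable_conv (hk : Measurable k) {b : ℝ → ℝ≥0∞} (hb : Measurable b) :
    Measurable (conv k b) := by
  unfold conv
  exact Measurable.lintegral_prod_right' (f := fun x : ℝ × ℝ => k (x.1 - x.2) * b x.2)
    (by fun_prop)

theorem conv_add (hk : Measurable k) {a b : ℝ → ℝ≥0∞} (ha : Measurable a) (s : ℝ) :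
    conv k (fun t => a t + b t) s = conv k a s + conv k b s := by
  unfold conv
  simp_rw [mul_add]
  rw [lintegral_add_left (by fun_prop)]

theorem conv_const_mul (hk : Measurable k) {a : ℝ → ℝ≥0∞} (ha : Measurable a) (c : ℝ≥0∞) (s : ℝ) :
    conv k (fun t => c * a t) s = c * conv k a s := by
  unfold conv
  rw [← lintegral_const_mul _ (by fun_prop)]
  congr 1; ext t; ring

theorem conv_mono {a b : ℝ → ℝ≥0∞} (h : ∀ t, a t ≤ b t) (s : ℝ) : conv k a s ≤ conv k b s :=
  lintegral_mono fun t => mul_le_mul_right (h t) _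

theorem ww_add (hk : Measurable k) {a b : ℝ → ℝ≥0∞} (ha : Measurable a) (e x : ℝ) :
    ww k e x (fun t => a t + b t) = ww k e x a + ww k e x b := by
  unfold ww
  simp_rw [conv_add hk ha]
  rw [lintegral_add_left (measurable_conv hk ha)]

theorem ww_mono {a b : ℝ → ℝ≥0∞} (h : ∀ t, a t ≤ b t) (e x : ℝ) : ww k e x a ≤ ww k e x b :=
  lintegral_mono fun s => conv_mono h s

theorem pp_add_left (hk : Measurable k) {a a' b : ℝ → ℝ≥0∞} (ha : Measurable a)
    (hb : Measurable b) (τ : ℝ) :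
    pp k τ (fun t => a t + a' t) b = pp k τ a b + pp k τ a' b := by
  unfold pp
  simp_rw [add_mul]
  have := measurable_conv hk hb
  rw [lintegral_add_left (by fun_prop)]

theorem pp_add_right (hk : Measurable k) {a b b' : ℝ → ℝ≥0∞} (ha : Measurable a)
    (hb : Measurable b) (τ : ℝ) :
    pp k τ a (fun t => b t + b' t) = pp k τ a b + pp k τ a b' := by
  unfold pp
  simp_rw [conv_add hk hb, mul_add]
  have := measurable_conv hk hb
  rw [lintegral_add_left (by fun_prop)]

theorem pp_const_mul_left (hk : Measurable k) {a b : ℝ → ℝ≥0∞} (ha : Measurable a)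
    (hb : Measurable b) (c : ℝ≥0∞) (τ : ℝ) :
    pp k τ (fun t => c * a t) b = c * pp k τ a b := by
  unfold pp
  have := measurable_conv hk hb
  rw [← lintegral_const_mul _ (by fun_prop)]
  congr 1; ext t; ring

theorem pp_swap (hk : Measurable k) (hu : Unimodal k) {a b : ℝ → ℝ≥0∞} (ha : Measurable a)
    (hb : Measurable b) (τ : ℝ) : pp k τ a b = pp k (-τ) b a := by
  unfold pp conv
  have h1 : ∀ s, a s * ∫⁻ t, k (s + τ - t) * b t = ∫⁻ t, a s * (k (s + τ - t) * b t) := fun s => by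
    rw [lintegral_const_mul _ (by fun_prop)]
  have h2 : ∀ t, b t * ∫⁻ s, k (t + -τ - s) * a s = ∫⁻ s, a s * (k (s + τ - t) * b t) := fun t => by
    rw [← lintegral_const_mul _ (by fun_prop)]
    congr 1; ext s
    rw [hu.sub_comm (s + τ) t, show t + -τ - s = t - (s + τ) by ring]; ring
  simp_rw [h1, h2]
  exact lintegral_lintegral_swap (by fun_prop)

theorem pp_const_mul_right (hk : Measurable k) (hu : Unimodal k) {a b : ℝ → ℝ≥0∞}
    (ha : Measurable a) (hb : Measurable b) (c : ℝ≥0∞) (τ : ℝ) :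
    pp k τ a (fun t => c * b t) = c * pp k τ a b := by
  rw [pp_swap hk hu ha (by fun_prop), pp_const_mul_left hk hb ha, ← pp_swap hk hu ha hb]

theorem rearr {x y u v : ℝ≥0∞} (h : (x ≤ y ∧ u ≤ v) ∨ (y ≤ x ∧ v ≤ u)) :
    x * v + y * u ≤ x * u + y * v := by
  have key : ∀ {x y u v : ℝ≥0∞}, x ≤ y → u ≤ v → x * v + y * u ≤ x * u + y * v := by
    intro x y u v h1 h2
    obtain ⟨d, rfl⟩ := exists_add_of_le h1
    obtain ⟨w, rfl⟩ := exists_add_of_le h2
    calc x * (u + w) + (x + d) * u ≤ x * (u + w) + (x + d) * u + d * w := le_self_add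
      _ = x * u + (x + d) * (u + w) := by ring
  rcases h with ⟨h1, h2⟩ | ⟨h1, h2⟩
  · exact key h1 h2
  · have := key h1 h2
    calc x * v + y * u = y * u + x * v := add_comm _ _
      _ ≤ y * v + x * u := this
      _ = _ := add_comm _ _

/-- The convolution of two symmetric decreasing functions is symmetric decreasing. -/
theorem conv_symDec (hk : Measurable k) (hu : Unimodal k) {T : ℝ} {b : ℝ → ℝ≥0∞}
    (hb : Measurable b) (hs : SymDec T b) : SymDec T (conv k b) := by
  intro x y hxy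
  -- reflection `t ↦ x + y - t`
  have hrefl : ∀ g : ℝ → ℝ≥0∞, ∫⁻ t, g (x + y - t) = ∫⁻ t, g t := fun g =>
    lintegral_sub_left_eq_self g (x + y)
  have e1 : conv k b x = ∫⁻ t, k (y - t) * b (x + y - t) := by
    unfold conv
    rw [← hrefl]
    congr 1; ext t
    rw [show x - (x + y - t) = -(y - t) by ring, hu.even]
  have e2 : conv k b y = ∫⁻ t, k (x - t) * b (x + y - t) := by
    unfold conv
    rw [← hrefl]
    congr 1; ext t
    rw [show y - (x + y - t) = -(x - t) by ring, hu.even]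
  have hxy2 : (x - T) ^ 2 ≤ (y - T) ^ 2 := sq_le_sq.2 hxy
  have key : conv k b y + conv k b y ≤ conv k b x + conv k b x := by
    calc conv k b y + conv k b y
        = (∫⁻ t, k (x - t) * b (x + y - t)) + ∫⁻ t, k (y - t) * b t := by
          conv_lhs => lhs; rw [e2]
          rfl
      _ = ∫⁻ t, (k (x - t) * b (x + y - t) + k (y - t) * b t) := by
          rw [lintegral_add_left (by fun_prop)]
      _ ≤ ∫⁻ t, (k (x - t) * b t + k (y - t) * b (x + y - t)) := by
          refine lintegral_mono fun t => rearr ?_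
          rcases eq_or_ne x y with hx | hx
          · subst hx
            rcases le_total (b t) (b (x + x - t)) with h | h
            · exact Or.inl ⟨le_rfl, h⟩
            · exact Or.inr ⟨le_rfl, h⟩
          rcases eq_or_ne (x + y - T) T with hc | hc
          · have : b t = b (x + y - t) := hs.eq (by
              rw [show x + y - t - T = -(t - T) by linarith, abs_neg])
            rcases le_total (k (x - t)) (k (y - t)) with h | h
            · exact Or.inl ⟨h, this.le⟩
            · exact Or.inr ⟨h, this.ge⟩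
          -- generic case
          have hcd : 0 < (y - x) * (x + y - 2 * T) := by
            have h0 : 0 ≤ (y - x) * (x + y - 2 * T) := by nlinarith
            refine lt_of_le_of_ne h0 (Ne.symm (mul_ne_zero (sub_ne_zero.2 hx.symm) ?_))
            intro h; apply hc; linarith
          rcases le_total 0 ((y - x) * (2 * t - x - y)) with h | h
          · refine Or.inl ⟨hu _ _ (sq_le_sq.1 (by nlinarith)), hs _ _ (sq_le_sq.1 ?_)⟩
            have : 0 ≤ (x + y - 2 * T) * (2 * t - x - y) := by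
              by_contra hneg
              push Not at hneg
              have h3 := mul_pos_of_neg_of_neg hneg (neg_lt_zero.2 hcd)
              have h4 : 0 ≤ (x + y - 2 * T) ^ 2 * ((y - x) * (2 * t - x - y)) :=
                mul_nonneg (sq_nonneg _) h
              nlinarith
            nlinarith
          · refine Or.inr ⟨hu _ _ (sq_le_sq.1 (by nlinarith)), hs _ _ (sq_le_sq.1 ?_)⟩
            have : (x + y - 2 * T) * (2 * t - x - y) ≤ 0 := by
              by_contra hneg
              push Not at hneg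
              have h3 := mul_pos hneg hcd
              have h4 : (x + y - 2 * T) ^ 2 * ((y - x) * (2 * t - x - y)) ≤ 0 :=
                mul_nonpos_of_nonneg_of_nonpos (sq_nonneg _) h
              nlinarith
            nlinarith
      _ = conv k b x + conv k b x := by
          rw [lintegral_add_left (by fun_prop)]
          conv_rhs => rhs; rw [e1]
          rfl
  rw [← two_mul, ← two_mul] at key
  exact (ENNReal.mul_le_mul_iff_right (by norm_num) (by norm_num)).1 key

theorem pp_LR (hu : Unimodal k) {T e : ℝ} (he : 0 ≤ e) {a b : ℝ → ℝ≥0∞}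
    (ha : ∀ s, T < s → a s = 0) (hb : ∀ t, t < T → b t = 0) : pp k (-e) a b ≤ pp k e a b := by
  refine lintegral_mono fun s => ?_
  rcases lt_or_ge T s with h | h
  · simp [ha s h]
  refine mul_le_mul_right (lintegral_mono fun t => ?_) _
  rcases lt_or_ge t T with h' | h'
  · simp [hb t h']
  refine mul_le_mul_left (hu _ _ (sq_le_sq.1 ?_)) _
  nlinarith

theorem pp_LS (hk : Measurable k) (hu : Unimodal k) {T e : ℝ} (he : 0 ≤ e) {a b : ℝ → ℝ≥0∞}
    (ha : ∀ s, T < s → a s = 0) (hb : Measurable b) (hs : SymDec T b) :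
    pp k (-e) a b ≤ pp k e a b := by
  refine lintegral_mono fun s => ?_
  rcases lt_or_ge T s with h | h
  · simp [ha s h]
  refine mul_le_mul_right (conv_symDec hk hu hb hs _ _ (sq_le_sq.1 ?_)) _
  nlinarith

theorem pp_SR (hk : Measurable k) (hu : Unimodal k) {T e : ℝ} (he : 0 ≤ e) {a b : ℝ → ℝ≥0∞}
    (ha : Measurable a) (hs : SymDec T a) (hb : Measurable b) (hb0 : ∀ t, t < T → b t = 0) :
    pp k (-e) a b ≤ pp k e a b := by
  rw [pp_swap hk hu ha hb, pp_swap hk hu ha hb e, neg_neg]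
  refine lintegral_mono fun s => ?_
  rcases lt_or_ge s T with h | h
  · simp [hb0 s h]
  refine mul_le_mul_right (conv_symDec hk hu ha hs _ _ (sq_le_sq.1 ?_)) _
  nlinarith

theorem pp_SS (hk : Measurable k) (hu : Unimodal k) {T e : ℝ} {a b : ℝ → ℝ≥0∞}
    (hsa : SymDec T a) (hb : Measurable b) (hs : SymDec T b) :
    pp k (-e) a b = pp k e a b := by
  unfold pp
  rw [← lintegral_sub_left_eq_self _ (2 * T)]
  congr 1; ext s
  rw [hsa.eq (s := 2 * T - s) (s' := s) (by rw [show 2 * T - s - T = -(s - T) by ring, abs_neg]),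
    (conv_symDec hk hu hb hs).eq (s := 2 * T - s + -e) (s' := s + e)
      (by rw [show 2 * T - s + -e - T = -(s + e - T) by ring, abs_neg])]

/-- left-leaning against right-leaning -/
theorem pp_lean (hk : Measurable k) (hu : Unimodal k) {T e : ℝ} (he : 0 ≤ e)
    {aL aS bR bS : ℝ → ℝ≥0∞} (haL : Measurable aL) (haS : Measurable aS) (hbR : Measurable bR)
    (hbS : Measurable bS) (hL : ∀ s, T < s → aL s = 0) (hS : SymDec T aS)
    (hR : ∀ t, t < T → bR t = 0) (hS' : SymDec T bS) :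
    pp k (-e) (fun s => aL s + aS s) (fun s => bR s + bS s) ≤
      pp k e (fun s => aL s + aS s) (fun s => bR s + bS s) := by
  have hb : Measurable fun s => bR s + bS s := by fun_prop
  rw [pp_add_left hk haL hb, pp_add_left hk haL hb, pp_add_right hk haL hbR,
    pp_add_right hk haS hbR, pp_add_right hk haL hbR, pp_add_right hk haS hbR]
  exact add_le_add (add_le_add (pp_LR hu he hL hR) (pp_LS hk hu he hL hbS hS'))
    (add_le_add (pp_SR hk hu he haS hS hbR hR) (pp_SS hk hu hS hbS hS').le)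

theorem pp_indicator (c d τ : ℝ) (b : ℝ → ℝ≥0∞) :
    pp k τ ((Ioo c d).indicator 1) b = ∫⁻ s in Ioo (c + τ) (d + τ), conv k b s := by
  unfold pp
  rw [← lintegral_indicator measurableSet_Ioo,
    ← lintegral_add_right_eq_self ((Ioo (c + τ) (d + τ)).indicator fun s => conv k b s) τ]
  congr 1; ext s
  by_cases h : s ∈ Ioo c d
  · have : s + τ ∈ Ioo (c + τ) (d + τ) := ⟨by linarith [h.1], by linarith [h.2]⟩
    simp [h, this]
  · have : s + τ ∉ Ioo (c + τ) (d + τ) := fun h' => h ⟨by linarith [h'.1], by linarith [h'.2]⟩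
    simp [h, this]

theorem lintegral_Ioo_add (g : ℝ → ℝ≥0∞) {x y z : ℝ} (hxy : x ≤ y) (hyz : y ≤ z) :
    (∫⁻ s in Ioo x y, g s) + ∫⁻ s in Ioo y z, g s = ∫⁻ s in Ioo x z, g s := by
  rw [← setLIntegral_congr (Ioo_ae_eq_Ioc (μ := volume) (a := x) (b := y)).symm,
    ← setLIntegral_congr (Ioo_ae_eq_Ioc (μ := volume) (a := y) (b := z)).symm,
    ← setLIntegral_congr (Ioo_ae_eq_Ioc (μ := volume) (a := x) (b := z)).symm,
    ← lintegral_union measurableSet_Ioc (Ioc_disjoint_Ioc_of_le le_rfl), Ioc_union_Ioc_eq_Ioc hxy hyz]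

/-- telescoping -/
theorem pp_telescope {c d e : ℝ} (hcd : c ≤ d) (he : 0 ≤ e) (b : ℝ → ℝ≥0∞) :
    pp k (-e) ((Ioo c d).indicator 1) b + ww k e d b =
      pp k e ((Ioo c d).indicator 1) b + ww k e c b := by
  rw [pp_indicator, pp_indicator, ww, ww, ← sub_eq_add_neg, ← sub_eq_add_neg,
    lintegral_Ioo_add _ (by linarith) (by linarith),
    add_comm (∫⁻ s in Ioo (c + e) (d + e), conv k b s),
    lintegral_Ioo_add _ (by linarith) (by linarith)]

/-- The structure of the left part `fm` and right part `fp` of a profile cut near `T`. -/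
def Split (T ρ : ℝ) (m : ℝ≥0∞) (fm fp : ℝ → ℝ≥0∞) : Prop :=
  ∃ aS aS' : ℝ → ℝ≥0∞, Measurable aS ∧ Measurable aS' ∧ SymDec T aS ∧ SymDec T aS' ∧
    (∀ s, aS s + m * (Ioo (T - ρ) T).indicator 1 s ≤ fm s) ∧ (∀ s, T < s → fm s ≤ aS s) ∧
    (∀ s, aS' s + m * (Ioo T (T + ρ)).indicator 1 s ≤ fp s) ∧ (∀ s, s < T → fp s ≤ aS' s)

theorem Split.decomp {T ρ : ℝ} {m : ℝ≥0∞} {fm fp : ℝ → ℝ≥0∞} (h : Split T ρ m fm fp)
    (hm : Measurable fm) (hp : Measurable fp) :
    ∃ aL aS aR aS' : ℝ → ℝ≥0∞, Measurable aL ∧ Measurable aS ∧ Measurable aR ∧ Measurable aS' ∧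
      SymDec T aS ∧ SymDec T aS' ∧ (∀ s, T < s → aL s = 0) ∧ (∀ s, s < T → aR s = 0) ∧
      (fm = fun s => (aL s + aS s) + m * (Ioo (T - ρ) T).indicator 1 s) ∧
      (fp = fun s => (aR s + aS' s) + m * (Ioo T (T + ρ)).indicator 1 s) := by
  obtain ⟨aS, aS', h1, h2, h3, h4, h5, h6, h7, h8⟩ := h
  have i1 : Measurable ((Ioo (T - ρ) T).indicator (1 : ℝ → ℝ≥0∞)) :=
    measurable_one.indicator measurableSet_Ioo
  have i2 : Measurable ((Ioo T (T + ρ)).indicator (1 : ℝ → ℝ≥0∞)) :=
    measurable_one.indicator measurableSet_Ioo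
  refine ⟨fun s => fm s - (aS s + m * (Ioo (T - ρ) T).indicator 1 s), aS,
    fun s => fp s - (aS' s + m * (Ioo T (T + ρ)).indicator 1 s), aS', by fun_prop, h1, by fun_prop,
    h2, h3, h4, fun s hs => tsub_eq_zero_of_le ((h6 s hs).trans le_self_add),
    fun s hs => tsub_eq_zero_of_le ((h8 s hs).trans le_self_add), ?_, ?_⟩
  · ext s; rw [add_assoc, tsub_add_cancel_of_le (h5 s)]
  · ext s; rw [add_assoc, tsub_add_cancel_of_le (h7 s)]

/-- The force across the cut, for one pair of rays. -/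
theorem pair_ineq (hk : Measurable k) (hu : Unimodal k) {T ρ e : ℝ} (hρ : 0 ≤ ρ) (he : 0 ≤ e)
    {m m' : ℝ≥0∞} {fm fp gm gp : ℝ → ℝ≥0∞} (hf : Split T ρ m fm fp) (hg : Split T ρ m' gm gp)
    (hfm : Measurable fm) (hfp : Measurable fp) (hgm : Measurable gm) (hgp : Measurable gp) :
    pp k (-e) fm gp + pp k e fp gm + m * (ww k e T gm + ww k e T gp)
        + m' * (ww k e T fm + ww k e T fp) ≤
      pp k e fm gp + pp k (-e) fp gm + m * (ww k e (T - ρ) gp + ww k e (T + ρ) gm)
        + m' * (ww k e (T + ρ) fm + ww k e (T - ρ) fp)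
        + m' * ww k e T (fun s => m * (Ioo (T - ρ) (T + ρ)).indicator 1 s) := by
  obtain ⟨aL, aS, aR, aS', m1, m2, m3, m4, s1, s2, z1, z2, efm, efp⟩ := hf.decomp hfm hfp
  obtain ⟨bL, bS, bR, bS', n1, n2, n3, n4, t1, t2, y1, y2, egm, egp⟩ := hg.decomp hgm hgp
  have i1 : Measurable ((Ioo (T - ρ) T).indicator (1 : ℝ → ℝ≥0∞)) :=
    measurable_one.indicator measurableSet_Ioo
  have i2 : Measurable ((Ioo T (T + ρ)).indicator (1 : ℝ → ℝ≥0∞)) :=
    measurable_one.indicator measurableSet_Ioo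
  set a₁ : ℝ → ℝ≥0∞ := fun s => aL s + aS s with ha₁
  set a₂ : ℝ → ℝ≥0∞ := fun s => aR s + aS' s with ha₂
  set b₁ : ℝ → ℝ≥0∞ := fun s => bL s + bS s with hb₁
  set b₂ : ℝ → ℝ≥0∞ := fun s => bR s + bS' s with hb₂
  have ma₁ : Measurable a₁ := by fun_prop
  have ma₂ : Measurable a₂ := by fun_prop
  have mb₁ : Measurable b₁ := by fun_prop
  have mb₂ : Measurable b₂ := by fun_prop
  have efm' : fm = fun s => a₁ s + m * (Ioo (T - ρ) T).indicator 1 s := efm
  have efp' : fp = fun s => a₂ s + m * (Ioo T (T + ρ)).indicator 1 s := efp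
  have egm' : gm = fun s => b₁ s + m' * (Ioo (T - ρ) T).indicator 1 s := egm
  have egp' : gp = fun s => b₂ s + m' * (Ioo T (T + ρ)).indicator 1 s := egp
  -- expansions
  have x1 : ∀ τ, pp k τ fm gp = pp k τ a₁ b₂ + m' * pp k (-τ) ((Ioo T (T + ρ)).indicator 1) a₁
      + m * pp k τ ((Ioo (T - ρ) T).indicator 1) gp := fun τ => by
    conv_lhs => rw [efm', pp_add_left hk ma₁ hgp, pp_const_mul_left hk i1 hgp]
    congr 1
    rw [egp', pp_add_right hk ma₁ mb₂, pp_const_mul_right hk hu ma₁ i2, pp_swap hk hu ma₁ i2]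
  have x2 : ∀ τ, pp k τ fp gm = pp k τ a₂ b₁ + m' * pp k (-τ) ((Ioo (T - ρ) T).indicator 1) a₂
      + m * pp k τ ((Ioo T (T + ρ)).indicator 1) gm := fun τ => by
    conv_lhs => rw [efp', pp_add_left hk ma₂ hgm, pp_const_mul_left hk i2 hgm]
    congr 1
    rw [egm', pp_add_right hk ma₂ mb₁, pp_const_mul_right hk hu ma₂ i1, pp_swap hk hu ma₂ i1]
  have k1 : pp k (-e) a₁ b₂ ≤ pp k e a₁ b₂ := pp_lean hk hu he m1 m2 n3 n4 z1 s1 y2 t2
  have k2 : pp k e a₂ b₁ ≤ pp k (-e) a₂ b₁ := by
    rw [pp_swap hk hu ma₂ mb₁, pp_swap hk hu ma₂ mb₁ (-e), neg_neg]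
    exact pp_lean hk hu he n1 n2 m3 m4 y1 t1 z2 s2
  have k3 := pp_telescope (k := k) (c := T - ρ) (d := T) (by linarith) he gp
  have k4 := pp_telescope (k := k) (c := T) (d := T + ρ) (by linarith) he gm
  have k5 := pp_telescope (k := k) (c := T) (d := T + ρ) (by linarith) he a₁
  have k6 := pp_telescope (k := k) (c := T - ρ) (d := T) (by linarith) he a₂
  have l1 : ww k e (T + ρ) a₁ ≤ ww k e (T + ρ) fm := ww_mono (fun t => by
    rw [efm']; exact le_self_add) _ _
  have l2 : ww k e (T - ρ) a₂ ≤ ww k e (T - ρ) fp := ww_mono (fun t => by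
    rw [efp']; exact le_self_add) _ _
  have l3 : ww k e T fm + ww k e T fp ≤ ww k e T a₁ + ww k e T a₂ +
      ww k e T (fun s => m * (Ioo (T - ρ) (T + ρ)).indicator 1 s) := by
    rw [← ww_add hk hfm, ← ww_add hk ma₁, ← ww_add hk (by fun_prop)]
    refine ww_mono (fun t => ?_) _ _
    rw [efm', efp']
    have : (Ioo (T - ρ) T).indicator (1 : ℝ → ℝ≥0∞) t + (Ioo T (T + ρ)).indicator 1 t ≤
        (Ioo (T - ρ) (T + ρ)).indicator 1 t := by
      by_cases h1 : t ∈ Ioo (T - ρ) T
      · have h2 : t ∉ Ioo T (T + ρ) := fun h => absurd h.1 (not_lt.2 h1.2.le)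
        have h3 : t ∈ Ioo (T - ρ) (T + ρ) := ⟨h1.1, by linarith [h1.2]⟩
        simp [h1, h2, h3]
      · by_cases h2 : t ∈ Ioo T (T + ρ)
        · have h3 : t ∈ Ioo (T - ρ) (T + ρ) := ⟨by linarith [h2.1], h2.2⟩
          simp [h1, h2, h3]
        · simp [h1, h2]
    calc _ = a₁ t + a₂ t + m * ((Ioo (T - ρ) T).indicator (1 : ℝ → ℝ≥0∞) t
          + (Ioo T (T + ρ)).indicator 1 t) := by ring
      _ ≤ _ := by gcongr
  rw [x1, x1, x2, x2, neg_neg]
  set P1 := pp k e ((Ioo T (T + ρ)).indicator 1) a₁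
  set P1' := pp k (-e) ((Ioo T (T + ρ)).indicator 1) a₁
  set P2 := pp k e ((Ioo (T - ρ) T).indicator 1) gp
  set P2' := pp k (-e) ((Ioo (T - ρ) T).indicator 1) gp
  set P3 := pp k e ((Ioo (T - ρ) T).indicator 1) a₂
  set P3' := pp k (-e) ((Ioo (T - ρ) T).indicator 1) a₂
  set P4 := pp k e ((Ioo T (T + ρ)).indicator 1) gm
  set P4' := pp k (-e) ((Ioo T (T + ρ)).indicator 1) gm
  set W := ww k e T (fun s => m * (Ioo (T - ρ) (T + ρ)).indicator 1 s)
  calc pp k (-e) a₁ b₂ + m' * P1 + m * P2' + (pp k e a₂ b₁ + m' * P3' + m * P4)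
        + m * (ww k e T gm + ww k e T gp) + m' * (ww k e T fm + ww k e T fp)
      ≤ pp k e a₁ b₂ + m' * P1 + m * P2' + (pp k (-e) a₂ b₁ + m' * P3' + m * P4)
        + m * (ww k e T gm + ww k e T gp) + m' * (ww k e T a₁ + ww k e T a₂ + W) := by gcongr
    _ = pp k e a₁ b₂ + pp k (-e) a₂ b₁ + m' * (P1 + ww k e T a₁) + m * (P2' + ww k e T gp)
        + m' * (P3' + ww k e T a₂) + m * (P4 + ww k e T gm) + m' * W := by ring
    _ = pp k e a₁ b₂ + pp k (-e) a₂ b₁ + m' * (P1' + ww k e (T + ρ) a₁)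
        + m * (P2 + ww k e (T - ρ) gp) + m' * (P3 + ww k e (T - ρ) a₂)
        + m * (P4' + ww k e (T + ρ) gm) + m' * W := by rw [k3, k4, k5, k6]
    _ ≤ pp k e a₁ b₂ + pp k (-e) a₂ b₁ + m' * (P1' + ww k e (T + ρ) fm)
        + m * (P2 + ww k e (T - ρ) gp) + m' * (P3 + ww k e (T - ρ) fp)
        + m * (P4' + ww k e (T + ρ) gm) + m' * W := by gcongr
    _ = _ := by ring

/-- The error made at the far left cut. -/
theorem pp_left (hk : Measurable k) (hu : Unimodal k) {T₀ e : ℝ} (he : 0 < e)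
    (hfin : ∫⁻ z in Ici e, k z ≠ ⊤) {a b : ℝ → ℝ≥0∞} (ha : Measurable a) (hb : Measurable b)
    {M : ℝ≥0∞} (ha0 : ∀ s, s ≤ T₀ → a s = 0) (hb0 : ∀ t, T₀ < t → b t = 0) (hbM : ∀ t, b t ≤ M) :
    pp k (-e) a b ≤ pp k e a b + M * ww k e T₀ a := by
  have key : ∀ s, T₀ < s → conv k b (s + -e) ≤ conv k b (s + e) +
      M * ∫⁻ t in Ioo (T₀ - e) (T₀ + e), k (t - s) := by
    intro s hs
    have hfin' : ∫⁻ t in Iic T₀, k (s + e - t) ≠ ⊤ := by
      refine ne_top_of_le_ne_top hfin ?_
      rw [← lintegral_indicator measurableSet_Iic, ← lintegral_indicator measurableSet_Ici,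
        ← lintegral_sub_left_eq_self ((Ici e).indicator fun z => k z) (s + e)]
      refine lintegral_mono fun t => ?_
      by_cases ht : t ∈ Iic T₀
      · have : s + e - t ∈ Ici e := by
          simp only [mem_Iic] at ht; simp only [mem_Ici]; linarith
        simp [ht, this]
      · simp [ht]
    have hle : ∀ t ∈ Iic T₀, k (s + e - t) ≤ k (s + -e - t) := fun t ht =>
      hu _ _ (sq_le_sq.1 (by simp only [mem_Iic] at ht; nlinarith))
    have h1 : ∫⁻ t in Iic T₀, k (s + -e - t) ≤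
        (∫⁻ t in Iic T₀, k (s + e - t)) + ∫⁻ t in Ioo (T₀ - e) (T₀ + e), k (t - s) := by
      have e1 : ∫⁻ t in Iic T₀, k (s + -e - t) = ∫⁻ t in Iic (T₀ + e), k (t - s) := by
        rw [← lintegral_indicator measurableSet_Iic, ← lintegral_indicator measurableSet_Iic,
          ← lintegral_add_right_eq_self ((Iic (T₀ + e)).indicator fun t => k (t - s)) e]
        congr 1; ext t
        by_cases ht : t ∈ Iic T₀
        · have : t + e ∈ Iic (T₀ + e) := by simpa using ht
          simp only [indicator_of_mem ht, indicator_of_mem this]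
          rw [hu.sub_comm]; congr 1; ring
        · have : t + e ∉ Iic (T₀ + e) := by simpa using ht
          simp only [indicator_of_notMem ht, indicator_of_notMem this]
      have e2 : ∫⁻ t in Iic T₀, k (s + e - t) = ∫⁻ t in Iic (T₀ - e), k (t - s) := by
        rw [← lintegral_indicator measurableSet_Iic, ← lintegral_indicator measurableSet_Iic,
          ← lintegral_sub_right_eq_self ((Iic (T₀ - e)).indicator fun t => k (t - s)) e]
        congr 1; ext t
        by_cases ht : t ∈ Iic T₀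
        · have : t - e ∈ Iic (T₀ - e) := by simpa using ht
          simp only [indicator_of_mem ht, indicator_of_mem this]
          rw [hu.sub_comm]; congr 1; ring
        · have : t - e ∉ Iic (T₀ - e) := by simpa using ht
          simp only [indicator_of_notMem ht, indicator_of_notMem this]
      rw [e1, e2, setLIntegral_congr (Ioo_ae_eq_Ioc (μ := volume) (a := T₀ - e) (b := T₀ + e)),
        ← lintegral_union measurableSet_Ioc (Iic_disjoint_Ioc le_rfl),
        Iic_union_Ioc_eq_Iic (by linarith)]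
    have h2 : ∫⁻ t in Iic T₀, (k (s + -e - t) - k (s + e - t)) ≤
        ∫⁻ t in Ioo (T₀ - e) (T₀ + e), k (t - s) := by
      rw [lintegral_sub (by fun_prop) hfin'
        ((ae_restrict_iff' measurableSet_Iic).2 (Filter.Eventually.of_forall hle))]
      exact tsub_le_iff_left.2 h1
    calc conv k b (s + -e) ≤ ∫⁻ t, (k (s + e - t) * b t +
          M * (Iic T₀).indicator (fun t => k (s + -e - t) - k (s + e - t)) t) := by
          refine lintegral_mono fun t => ?_
          by_cases ht : t ∈ Iic T₀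
          · simp only [indicator_of_mem ht]
            calc k (s + -e - t) * b t = (k (s + e - t) + (k (s + -e - t) - k (s + e - t))) * b t := by
                  rw [add_tsub_cancel_of_le (hle t ht)]
              _ = k (s + e - t) * b t + b t * (k (s + -e - t) - k (s + e - t)) := by ring
              _ ≤ _ := by gcongr; exact hbM t
          · simp [hb0 t (by simpa using ht)]
      _ = conv k b (s + e) + M * ∫⁻ t in Iic T₀, (k (s + -e - t) - k (s + e - t)) := by
          rw [lintegral_add_left (by fun_prop), lintegral_const_mul _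
            (Measurable.indicator (by fun_prop) measurableSet_Iic),
            lintegral_indicator measurableSet_Iic]
          rfl
      _ ≤ _ := by gcongr
  have hw : ww k e T₀ a = ∫⁻ s, a s * ∫⁻ t in Ioo (T₀ - e) (T₀ + e), k (t - s) := by
    unfold ww conv
    rw [lintegral_lintegral_swap (by fun_prop)]
    congr 1; ext s
    rw [← lintegral_const_mul _ (by fun_prop)]
    congr 1; ext t; ring
  have hm : Measurable fun s => ∫⁻ t in Ioo (T₀ - e) (T₀ + e), k (t - s) :=
    Measurable.lintegral_prod_right' (f := fun x : ℝ × ℝ => k (x.2 - x.1)) (by fun_prop)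
  have hc := measurable_conv hk hb
  rw [hw, ← lintegral_const_mul _ (by fun_prop), pp, pp, ← lintegral_add_left (by fun_prop)]
  refine lintegral_mono fun s => ?_
  rcases le_or_gt s T₀ with h | h
  · simp [ha0 s h]
  · calc a s * conv k b (s + -e) ≤ a s * (conv k b (s + e) +
          M * ∫⁻ t in Ioo (T₀ - e) (T₀ + e), k (t - s)) := mul_le_mul_right (key s h) _
      _ = _ := by ring

/-- near mass of the kernel -/
noncomputable def kbar (k : ℝ → ℝ≥0∞) (σ : ℝ) : ℝ≥0∞ := ∫⁻ z in Ioo (-σ) σ, k z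

/-- exponentially weighted mass around `T` -/
noncomputable def psi (ν T : ℝ) (b : ℝ → ℝ≥0∞) : ℝ≥0∞ :=
  ∫⁻ t, ENNReal.ofReal (Real.exp (-(ν * |T - t|))) * b t

theorem kbar_eq (k : ℝ → ℝ≥0∞) (σ s : ℝ) :
    kbar k σ = ∫⁻ t, (Ioo (s - σ) (s + σ)).indicator (fun t => k (s - t)) t := by
  rw [kbar, ← lintegral_indicator measurableSet_Ioo, ← lintegral_sub_left_eq_self _ s]
  congr 1; ext t
  by_cases ht : t ∈ Ioo (s - σ) (s + σ)
  · have : s - t ∈ Ioo (-σ) σ := ⟨by linarith [ht.2], by linarith [ht.1]⟩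
    simp only [indicator_of_mem ht, indicator_of_mem this]
  · have : s - t ∉ Ioo (-σ) σ := fun h => ht ⟨by linarith [h.2], by linarith [h.1]⟩
    simp only [indicator_of_notMem ht, indicator_of_notMem this]

theorem le_conv (hk : Measurable k) {b : ℝ → ℝ≥0∞} {σ s : ℝ} {D : ℝ≥0∞}
    (hD : ∀ t, |s - t| < σ → D ≤ b t) : D * kbar k σ ≤ conv k b s := by
  rw [kbar_eq k σ s, ← lintegral_const_mul _ (Measurable.indicator (by fun_prop) measurableSet_Ioo)]
  refine lintegral_mono fun t => ?_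
  by_cases ht : t ∈ Ioo (s - σ) (s + σ)
  · simp only [indicator_of_mem ht]
    rw [mul_comm]
    exact mul_le_mul_right (hD t (abs_lt.2 ⟨by linarith [ht.2], by linarith [ht.1]⟩)) _
  · simp [ht]

theorem conv_le (hk : Measurable k) {b : ℝ → ℝ≥0∞} (hb : Measurable b) {σ s T ν C : ℝ}
    (hν : 0 ≤ ν) (hC : 0 ≤ C) {D : ℝ≥0∞} (hD : ∀ t, |s - t| < σ → b t ≤ D)
    (hfar : ∀ z, σ ≤ |z| → k z ≤ ENNReal.ofReal (C * Real.exp (-(ν * |z|)))) (hs : |s - T| ≤ 1) :
    conv k b s ≤ D * kbar k σ + ENNReal.ofReal (C * Real.exp ν) * psi ν T b := by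
  rw [kbar_eq k σ s, ← lintegral_const_mul _ (Measurable.indicator (by fun_prop) measurableSet_Ioo),
    psi, ← lintegral_const_mul _ (by fun_prop), ← lintegral_add_right _ (by fun_prop)]
  refine lintegral_mono fun t => ?_
  by_cases ht : t ∈ Ioo (s - σ) (s + σ)
  · simp only [indicator_of_mem ht]
    refine le_trans ?_ le_self_add
    rw [mul_comm]
    exact mul_le_mul_left (hD t (abs_lt.2 ⟨by linarith [ht.2], by linarith [ht.1]⟩)) _
  · refine le_trans ?_ le_add_self
    rw [← mul_assoc, ← ENNReal.ofReal_mul (by positivity)]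
    refine mul_le_mul_left ((hfar _ ?_).trans (ENNReal.ofReal_le_ofReal ?_)) _
    · by_contra h
      push Not at h
      exact ht ⟨by linarith [(abs_lt.1 h).2], by linarith [(abs_lt.1 h).1]⟩
    · rw [mul_assoc, ← Real.exp_add]
      refine mul_le_mul_of_nonneg_left (Real.exp_le_exp.2 ?_) hC
      have : |T - t| ≤ 1 + |s - t| := by
        calc |T - t| = |(s - t) - (s - T)| := by congr 1; ring
          _ ≤ |s - t| + |s - T| := abs_sub _ _
          _ ≤ _ := by linarith
      nlinarith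

theorem ww_le (hk : Measurable k) {b : ℝ → ℝ≥0∞} (hb : Measurable b) {σ e x T ν C : ℝ}
    (hν : 0 ≤ ν) (hC : 0 ≤ C) {D : ℝ≥0∞} (hD : ∀ t, |x - t| < σ + e → b t ≤ D)
    (hfar : ∀ z, σ ≤ |z| → k z ≤ ENNReal.ofReal (C * Real.exp (-(ν * |z|))))
    (hx : |x - T| + e ≤ 1) :
    ww k e x b ≤ ENNReal.ofReal (2 * e) *
      (D * kbar k σ + ENNReal.ofReal (C * Real.exp ν) * psi ν T b) := by
  unfold ww
  calc ∫⁻ s in Ioo (x - e) (x + e), conv k b s
      ≤ ∫⁻ _ in Ioo (x - e) (x + e),
        (D * kbar k σ + ENNReal.ofReal (C * Real.exp ν) * psi ν T b) := by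
        refine setLIntegral_mono measurable_const fun s hs => conv_le hk hb hν hC ?_ hfar ?_
        · intro t ht
          refine hD t ?_
          have := abs_lt.1 ht
          exact abs_lt.2 ⟨by linarith [hs.2], by linarith [hs.1]⟩
        · have := abs_le.1 (show |x - T| ≤ 1 - e by linarith)
          exact abs_le.2 ⟨by linarith [hs.1], by linarith [hs.2]⟩
    _ = _ := by
        rw [setLIntegral_const, Real.volume_Ioo, mul_comm]
        congr 2; ring

end Crest.Agent.R77
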