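import Crest.Agent.R77.OneD

/-!
# The full inequality for one pair of rays
-/

set_option autoImplicit false

open MeasureTheory Set
open scoped ENNReal

namespace Crest.Agent.R77

/-- Everything the pair inequality needs to know about one ray. -/
structure Ray (T ρ ρ₀ T₀ : ℝ) (m D M : ℝ≥0∞) (f fm fp f0 : ℝ → ℝ≥0∞) : Prop where
  mf : Measurable f
  mm : Measurable fm
  mp : Measurable fp
  m0 : Measurable f0
  sum : f = fun s => fm s + fp s + f0 s
  split : Split T ρ m fm fp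
  fm_left : ∀ s, s ≤ T₀ → fm s = 0
  f0_right : ∀ s, T₀ < s → f0 s = 0
  f0_le : ∀ s, f0 s ≤ M
  fm_le : ∀ s, T + ρ₀ ≤ s → fm s ≤ D
  fp_le : ∀ s, s < T - ρ₀ → fp s ≤ D
  m_le : ∀ s, |s - T| ≤ ρ → m ≤ f s

theorem psi_mono {ν T : ℝ} {a b : ℝ → ℝ≥0∞} (h : ∀ t, a t ≤ b t) : psi ν T a ≤ psi ν T b :=
  lintegral_mono fun t => mul_le_mul_right (h t) _

theorem lintegral_Ici_ne_top {k : ℝ → ℝ≥0∞} {ν C e : ℝ} (hν : 0 < ν) (he : 0 < e)
    (hfar : ∀ z, e ≤ |z| → k z ≤ ENNReal.ofReal (C * Real.exp (-(ν * |z|)))) :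
    ∫⁻ z in Ici e, k z ≠ ⊤ := by
  have hi : IntegrableOn (fun z => C * Real.exp (-ν * z)) (Ici e) :=
    ((integrableOn_Ici_iff_integrableOn_Ioi (by simp)).2
      (exp_neg_integrableOn_Ioi e hν)).const_mul C
  refine ne_top_of_le_ne_top hi.setLIntegral_lt_top.ne ?_
  refine setLIntegral_mono' measurableSet_Ici fun z hz => ?_
  have hz' : |z| = z := abs_of_pos (he.trans_le hz)
  have := hfar z (by rw [hz']; exact hz)
  rwa [hz', ← neg_mul] at this

theorem pair_full {k : ℝ → ℝ≥0∞} (hk : Measurable k) (hu : Unimodal k)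
    {T ρ ρ₀ T₀ σ e ν C : ℝ} (hν : 0 ≤ ν) (hC : 0 ≤ C) (he : 0 < e) (hσ : 0 < σ) (hρ₀ : 0 ≤ ρ₀)
    (hρ : ρ₀ + σ + e ≤ ρ) (hρ1 : ρ + e ≤ 1) (hT₀ : T₀ < T - ρ)
    (hfar : ∀ z, σ ≤ |z| → k z ≤ ENNReal.ofReal (C * Real.exp (-(ν * |z|))))
    (hfin : ∫⁻ z in Ici e, k z ≠ ⊤)
    {m D M m' D' M' : ℝ≥0∞} {f fm fp f0 g gm gp g0 : ℝ → ℝ≥0∞}
    (hf : Ray T ρ ρ₀ T₀ m D M f fm fp f0) (hg : Ray T ρ ρ₀ T₀ m' D' M' g gm gp g0) :
    pp k (-e) fm g + pp k e f gm + m * ww k e T g + m' * ww k e T f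
        + ENNReal.ofReal (2 * e) * (m * m' * kbar k σ) ≤
      pp k e fm g + pp k (-e) f gm
        + ENNReal.ofReal (2 * e) * (2 * ((m + D) * (m' + D') * kbar k σ)
          + ENNReal.ofReal (C * Real.exp ν) * (3 * (m * psi ν T g) + 4 * (m' * psi ν T f)))
        + M' * ww k e T₀ f + M * ww k e T₀ g := by
  have hρ' : 0 ≤ ρ := by linarith
  have mfm := hf.mm
  have mfp := hf.mp
  have mf0 := hf.m0
  have mgm := hg.mm
  have mgp := hg.mp
  have mg0 := hg.m0
  have fm_f : ∀ s, fm s ≤ f s := fun s => by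
    rw [hf.sum]; exact le_add_right le_self_add
  have fp_f : ∀ s, fp s ≤ f s := fun s => by rw [hf.sum]; exact le_add_right le_add_self
  have f0_f : ∀ s, f0 s ≤ f s := fun s => by rw [hf.sum]; exact le_add_self
  have gm_g : ∀ s, gm s ≤ g s := fun s => by
    rw [hg.sum]; exact le_add_right le_self_add
  have gp_g : ∀ s, gp s ≤ g s := fun s => by rw [hg.sum]; exact le_add_right le_add_self
  have g0_g : ∀ s, g0 s ≤ g s := fun s => by rw [hg.sum]; exact le_add_self
  have x1 : ∀ τ, pp k τ fm g = pp k τ fm gm + pp k τ fm gp + pp k τ fm g0 := fun τ => by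
    rw [hg.sum, pp_add_right hk mfm (by fun_prop), pp_add_right hk mfm mgm]
  have x2 : ∀ τ, pp k τ f gm = pp k τ fm gm + pp k τ fp gm + pp k τ f0 gm := fun τ => by
    rw [hf.sum, pp_add_left hk (by fun_prop) mgm, pp_add_left hk mfm mgm]
  have x3 : ww k e T g = ww k e T gm + ww k e T gp + ww k e T g0 := by
    rw [hg.sum, ww_add hk (by fun_prop), ww_add hk mgm]
  have x4 : ww k e T f = ww k e T fm + ww k e T fp + ww k e T f0 := by
    rw [hf.sum, ww_add hk (by fun_prop), ww_add hk mfm]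
  have k0 := pair_ineq hk hu hρ' he.le hf.split hg.split mfm mfp mgm mgp
  have k1 : pp k (-e) fm g0 ≤ pp k e fm g0 + M' * ww k e T₀ f :=
    (pp_left hk hu he hfin mfm mg0 hf.fm_left hg.f0_right hg.f0_le).trans
      (by gcongr; exact ww_mono fm_f _ _)
  have k2 : pp k e f0 gm ≤ pp k (-e) f0 gm + M * ww k e T₀ g := by
    rw [pp_swap hk hu mf0 mgm, pp_swap hk hu mf0 mgm (-e), neg_neg]
    exact (pp_left hk hu he hfin mgm mf0 hg.fm_left hf.f0_right hf.f0_le).trans
      (by gcongr; exact ww_mono gm_g _ _)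
  set E := ENNReal.ofReal (2 * e)
  set c := ENNReal.ofReal (C * Real.exp ν)
  have gen : ∀ {b b' : ℝ → ℝ≥0∞} {x : ℝ} {X : ℝ≥0∞}, Measurable b → (∀ t, b t ≤ b' t) →
      |x - T| ≤ ρ → (∀ t, |x - t| < σ + e → b t ≤ X) →
      ww k e x b ≤ E * (X * kbar k σ + c * psi ν T b') := by
    intro b b' x X hb hbb hx hX
    refine (ww_le hk hb hν hC hX hfar (by linarith)).trans ?_
    gcongr
    exact psi_mono hbb
  have hT : |T - T| ≤ ρ := by simpa using hρ'
  have hT1 : |T - ρ - T| ≤ ρ := by rw [show T - ρ - T = -ρ by ring, abs_neg, abs_of_nonneg hρ']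
  have hT2 : |T + ρ - T| ≤ ρ := by rw [show T + ρ - T = ρ by ring, abs_of_nonneg hρ']
  have w1 : ww k e T g0 ≤ E * (0 * kbar k σ + c * psi ν T g) :=
    gen mg0 g0_g hT fun t ht => (hg.f0_right t (by linarith [(abs_lt.1 ht).2])).le
  have w2 : ww k e T f0 ≤ E * (0 * kbar k σ + c * psi ν T f) :=
    gen mf0 f0_f hT fun t ht => (hf.f0_right t (by linarith [(abs_lt.1 ht).2])).le
  have w3 : ww k e (T - ρ) gp ≤ E * (D' * kbar k σ + c * psi ν T g) :=
    gen mgp gp_g hT1 fun t ht => hg.fp_le t (by linarith [(abs_lt.1 ht).1])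
  have w4 : ww k e (T + ρ) gm ≤ E * (D' * kbar k σ + c * psi ν T g) :=
    gen mgm gm_g hT2 fun t ht => hg.fm_le t (by linarith [(abs_lt.1 ht).2])
  have w5 : ww k e (T - ρ) fp ≤ E * (D * kbar k σ + c * psi ν T f) :=
    gen mfp fp_f hT1 fun t ht => hf.fp_le t (by linarith [(abs_lt.1 ht).1])
  have w6 : ww k e (T + ρ) fm ≤ E * (D * kbar k σ + c * psi ν T f) :=
    gen mfm fm_f hT2 fun t ht => hf.fm_le t (by linarith [(abs_lt.1 ht).2])
  have w7 : ww k e T (fun s => m * (Ioo (T - ρ) (T + ρ)).indicator 1 s) ≤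
      E * (m * kbar k σ + c * psi ν T f) := by
    refine gen (measurable_const.mul (measurable_one.indicator measurableSet_Ioo)) ?_ hT ?_
    · intro t
      by_cases ht : t ∈ Ioo (T - ρ) (T + ρ)
      · simp only [indicator_of_mem ht, Pi.one_apply, mul_one]
        exact hf.m_le t (abs_le.2 ⟨by linarith [ht.1], by linarith [ht.2]⟩)
      · simp [ht]
    · intro t _
      by_cases ht : t ∈ Ioo (T - ρ) (T + ρ) <;> simp [ht]
  rw [x1, x1, x2, x2, x3, x4]
  set kb := kbar k σ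
  set pf := psi ν T f
  set pg := psi ν T g
  calc pp k (-e) fm gm + pp k (-e) fm gp + pp k (-e) fm g0
        + (pp k e fm gm + pp k e fp gm + pp k e f0 gm)
        + m * (ww k e T gm + ww k e T gp + ww k e T g0)
        + m' * (ww k e T fm + ww k e T fp + ww k e T f0) + E * (m * m' * kb)
      = (pp k (-e) fm gp + pp k e fp gm + m * (ww k e T gm + ww k e T gp)
          + m' * (ww k e T fm + ww k e T fp))
        + pp k (-e) fm g0 + pp k e f0 gm + m * ww k e T g0 + m' * ww k e T f0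
        + (pp k (-e) fm gm + pp k e fm gm + E * (m * m' * kb)) := by ring
    _ ≤ (pp k e fm gp + pp k (-e) fp gm
          + m * (E * (D' * kb + c * pg) + E * (D' * kb + c * pg))
          + m' * (E * (D * kb + c * pf) + E * (D * kb + c * pf))
          + m' * (E * (m * kb + c * pf)))
        + (pp k e fm g0 + M' * ww k e T₀ f) + (pp k (-e) f0 gm + M * ww k e T₀ g)
        + m * (E * (0 * kb + c * pg)) + m' * (E * (0 * kb + c * pf))
        + (pp k (-e) fm gm + pp k e fm gm + E * (m * m' * kb)) := by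
        have k0' := k0.trans (add_le_add (add_le_add (add_le_add le_rfl
          (mul_le_mul_right (add_le_add w3 w4) m)) (mul_le_mul_right (add_le_add w6 w5) m'))
          (mul_le_mul_right w7 m'))
        exact add_le_add (add_le_add (add_le_add (add_le_add (add_le_add k0' k1) k2)
          (mul_le_mul_right w1 m)) (mul_le_mul_right w2 m')) le_rfl
    _ ≤ (pp k e fm gp + pp k (-e) fp gm
          + m * (E * (D' * kb + c * pg) + E * (D' * kb + c * pg))
          + m' * (E * (D * kb + c * pf) + E * (D * kb + c * pf))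
          + m' * (E * (m * kb + c * pf)))
        + (pp k e fm g0 + M' * ww k e T₀ f) + (pp k (-e) f0 gm + M * ww k e T₀ g)
        + m * (E * (0 * kb + c * pg)) + m' * (E * (0 * kb + c * pf))
        + (pp k (-e) fm gm + pp k e fm gm + E * (m * m' * kb)) + E * (2 * (D * D' * kb)) :=
        le_self_add
    _ = _ := by ring

end Crest.Agent.R77
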