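import Mathlib

/-! Polar coordinates `y = e^s • θ` for lower Lebesgue integrals on Euclidean space. -/

set_option autoImplicit false

open MeasureTheory Metric Set
open scoped ENNReal

namespace Crest.Agent.R77

theorem lintegral_volumeIoiPow_exp (m : ℕ) (g : ℝ → ℝ≥0∞) (hg : Measurable g) :
    ∫⁻ r : Ioi (0 : ℝ), g r ∂(Measure.volumeIoiPow m) =
      ∫⁻ s : ℝ, g (Real.exp s) * ENNReal.ofReal (Real.exp (((m : ℝ) + 1) * s)) := by
  rw [Measure.volumeIoiPow, lintegral_withDensity_eq_lintegral_mul _ (by fun_prop) (by fun_prop)]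
  have h1 := lintegral_subtype_comap (μ := volume) (measurableSet_Ioi (a := (0 : ℝ)))
    (fun r : ℝ => ENNReal.ofReal (r ^ m) * g r)
  simp only [Pi.mul_apply]
  rw [h1, ← Real.range_exp, ← image_univ,
    lintegral_image_eq_lintegral_abs_deriv_mul MeasurableSet.univ
      (fun x _ => (Real.hasDerivAt_exp x).hasDerivWithinAt) Real.exp_injective.injOn,
    Measure.restrict_univ]
  refine lintegral_congr fun s => ?_
  rw [abs_of_pos (Real.exp_pos s), ← mul_assoc, ← ENNReal.ofReal_mul (Real.exp_pos s).le, mul_comm,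
    ← Real.exp_nat_mul, ← Real.exp_add]
  congr 3
  ring

theorem lintegral_polar {n : ℕ} (hn : 1 ≤ n) (f : EuclideanSpace ℝ (Fin n) → ℝ≥0∞)
    (hf : Measurable f) :
    ∫⁻ y, f y = ∫⁻ θ : sphere (0 : EuclideanSpace ℝ (Fin n)) 1,
      (∫⁻ s : ℝ, f (Real.exp s • (θ : EuclideanSpace ℝ (Fin n))) *
        ENNReal.ofReal (Real.exp (n * s))) ∂(volume : Measure (EuclideanSpace ℝ (Fin n))).toSphere := by
  have : Nonempty (Fin n) := ⟨⟨0, hn⟩⟩
  let E := EuclideanSpace ℝ (Fin n)
  have hdim : Module.finrank ℝ E = n := finrank_euclideanSpace_fin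
  have hmeas : Measurable fun x : sphere (0 : E) 1 × Ioi (0 : ℝ) => f ((x.2 : ℝ) • (x.1 : E)) :=
    hf.comp (show Measurable fun x : sphere (0 : E) 1 × Ioi (0 : ℝ) => (x.2 : ℝ) • (x.1 : E) by
      fun_prop)
  calc ∫⁻ y, f y = ∫⁻ y : ({0}ᶜ : Set E), f y ∂(Measure.comap Subtype.val volume) := by
        rw [lintegral_subtype_comap (measurableSet_singleton _).compl, restrict_compl_singleton]
    _ = ∫⁻ x : sphere (0 : E) 1 × Ioi (0 : ℝ), f ((x.2 : ℝ) • (x.1 : E))
          ∂((volume : Measure E).toSphere.prod (Measure.volumeIoiPow (Module.finrank ℝ E - 1))) := by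
        rw [← (Measure.measurePreserving_homeomorphUnitSphereProd
          (volume : Measure E)).lintegral_comp hmeas]
        refine lintegral_congr fun y => ?_
        have : y.1 ≠ 0 := y.2
        simp [smul_smul, norm_ne_zero_iff.2 this]
    _ = _ := by
        rw [lintegral_prod _ hmeas.aemeasurable]
        refine lintegral_congr fun θ => ?_
        rw [lintegral_volumeIoiPow_exp _ (fun r => f (r • (θ : E))) (hf.comp (by fun_prop)), hdim,
          Nat.cast_pred hn, sub_add_cancel]

end Crest.Agent.R77
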