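import Crest.Agent.R77.Defs
import Crest.Agent.R77.Polar

/-! Reduction of the case `n ≥ 3` to the cylinder theorem. -/

set_option autoImplicit false

open MeasureTheory Laplacian InnerProductSpace Metric Set
open scoped ENNReal

namespace Crest.Agent.R77

namespace Reduce

/-- Euclidean space. -/
abbrev E (n : ℕ) : Type := EuclideanSpace ℝ (Fin n)

/-- The unit sphere. -/
abbrev S (n : ℕ) : Type := sphere (0 : E n) 1

/-- `2 cosh z - 2 ⟪a, b⟫`. -/
noncomputable def D {n : ℕ} (a b : S n) (z : ℝ) : ℝ := 2 * Real.cosh z - 2 * inner ℝ (a : E n) b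

theorem abs_inner_le {n : ℕ} (a b : S n) : |inner ℝ (a : E n) (b : E n)| ≤ 1 := by
  have := abs_real_inner_le_norm (a : E n) (b : E n)
  simpa using this

theorem cosh_eq_abs (z : ℝ) : 2 * Real.cosh z = Real.exp |z| + Real.exp (-|z|) := by
  rw [← Real.cosh_abs, Real.cosh_eq]
  ring

theorem D_le {n : ℕ} (a b : S n) (z : ℝ) : D a b z ≤ 4 * Real.exp |z| := by
  have h1 := (abs_le.1 (abs_inner_le a b)).1
  have h2 : 1 ≤ Real.exp |z| := Real.one_le_exp (abs_nonneg z)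
  have h3 : Real.exp (-|z|) ≤ 1 := Real.exp_le_one_iff.2 (neg_nonpos.2 (abs_nonneg z))
  rw [D, cosh_eq_abs]
  linarith

theorem le_D {n : ℕ} (a b : S n) {σ z : ℝ} (h0 : 0 < σ) (h1 : σ ≤ 1) (hz : σ ≤ |z|) :
    (σ / 2) ^ 2 * Real.exp |z| ≤ D a b z := by
  have h2 := (abs_le.1 (abs_inner_le a b)).2
  have h3 : Real.exp |z| * Real.exp (-|z|) = 1 := by rw [← Real.exp_add]; simp
  have h4 : Real.exp (-|z|) ≤ 1 - σ / 2 := by
    have h5 : Real.exp (-|z|) ≤ Real.exp (-σ) := Real.exp_le_exp.2 (by linarith)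
    have h6 : Real.exp (-σ) * (1 + σ) ≤ 1 := by
      have := Real.add_one_le_exp σ
      calc Real.exp (-σ) * (1 + σ) ≤ Real.exp (-σ) * Real.exp σ := by gcongr; linarith
        _ = 1 := by rw [← Real.exp_add]; simp
    have h7 : Real.exp (-σ) ≤ 1 - σ / 2 := by
      by_contra h
      push Not at h
      nlinarith
    linarith
  have h8 : (σ / 2) ^ 2 ≤ (1 - Real.exp (-|z|)) ^ 2 := by
    gcongr
    linarith
  have h9 : (1 - Real.exp (-|z|)) ^ 2 * Real.exp |z| = Real.exp |z| + Real.exp (-|z|) - 2 := by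
    linear_combination (Real.exp (-|z|) - 2) * h3
  rw [D, cosh_eq_abs]
  calc _ ≤ (1 - Real.exp (-|z|)) ^ 2 * Real.exp |z| := by gcongr
    _ ≤ _ := by linarith

theorem D_pos {n : ℕ} (a b : S n) {z : ℝ} (hz : z ≠ 0) : 0 < D a b z := by
  have h2 := (abs_le.1 (abs_inner_le a b)).2
  have := Real.one_lt_cosh.2 hz
  rw [D]
  linarith

theorem norm_sub_sq {n : ℕ} (a b : S n) (s t : ℝ) :
    ‖Real.exp s • (a : E n) - Real.exp t • (b : E n)‖ ^ 2 = Real.exp (s + t) * D a b (s - t) := by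
  rw [norm_sub_sq_real, norm_smul, norm_smul, real_inner_smul_left, real_inner_smul_right, D,
    Real.cosh_eq, neg_sub, Real.exp_add, Real.exp_sub, Real.exp_sub]
  simp only [norm_eq_of_mem_sphere, Real.norm_eq_abs, mul_one, sq_abs]
  have := Real.exp_pos s
  have := Real.exp_pos t
  field_simp
  ring

theorem rpow_neg_anti {x y : ℝ≥0∞} {ν : ℝ} (hν : 0 ≤ ν) (h : x ≤ y) : y ^ (-ν) ≤ x ^ (-ν) := by
  rw [ENNReal.rpow_neg, ENNReal.rpow_neg, ENNReal.inv_le_inv]
  exact ENNReal.rpow_le_rpow h hν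

/-- The Green kernel on the cylinder. -/
noncomputable def kern (n : ℕ) {ν : ℝ} (hν : 0 ≤ ν) (hνn : 2 * ν ≤ n) {c : ℝ} (hc : 0 < c) :
    Kern (S n) ν where
  k a b z := ENNReal.ofReal c * ENNReal.ofReal (D a b z) ^ (-ν)
  meas := by
    have : Continuous fun x : S n × S n × ℝ => D x.1 x.2.1 x.2.2 := by
      unfold D
      fun_prop
    exact (this.measurable.ennreal_ofReal.pow_const _).const_mul _
  symm a b z := by simp only [D, real_inner_comm]
  anti a b z z' h := by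
    refine mul_le_mul_right (rpow_neg_anti hν (ENNReal.ofReal_le_ofReal ?_)) _
    have := Real.cosh_le_cosh.2 h
    simp only [D]
    linarith
  c₀ := c * 4 ^ (-ν)
  c₀_pos := by positivity
  lower a b z := by
    refine le_trans (le_of_eq ?_) (mul_le_mul_right
      (rpow_neg_anti hν (ENNReal.ofReal_le_ofReal (D_le a b z))) _)
    rw [ENNReal.ofReal_rpow_of_pos (by positivity), ← ENNReal.ofReal_mul hc.le,
      Real.mul_rpow (by norm_num) (Real.exp_pos _).le, ← Real.exp_mul, mul_assoc]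
    congr 4
    ring
  C₀ := c * 2 ^ n
  C₀_pos := by positivity
  N := n
  upper σ h0 h1 a b z hz := by
    refine le_trans (mul_le_mul_right
      (rpow_neg_anti hν (ENNReal.ofReal_le_ofReal (le_D a b h0 h1 hz))) _) ?_
    rw [ENNReal.ofReal_rpow_of_pos (by positivity), ← ENNReal.ofReal_mul hc.le,
      Real.mul_rpow (by positivity) (Real.exp_pos _).le, ← Real.exp_mul]
    refine ENNReal.ofReal_le_ofReal ?_
    have h2 : ((σ / 2) ^ 2) ^ (-ν) ≤ 2 ^ n / σ ^ n := by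
      rw [← div_pow, ← Real.rpow_natCast, ← Real.rpow_natCast, ← Real.rpow_mul (by positivity),
        ← inv_div 2 σ, Real.inv_rpow (by positivity), ← Real.rpow_neg (by positivity)]
      refine Real.rpow_le_rpow_of_exponent_le ?_ (by push_cast; linarith)
      rw [le_div_iff₀ h0]
      linarith
    have h3 : |z| * -ν = -(ν * |z|) := by ring
    rw [h3, mul_div_assoc, mul_assoc]
    gcongr

theorem continuousOn_rhs {n : ℕ} {u : E n → ℝ} (hu : Continuous u) (hu0 : ∀ x, 0 < u x)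
    (B q : ℝ) : ContinuousOn (fun x => ‖x‖ ^ B * u x ^ q) {0}ᶜ := by
  refine ContinuousOn.mul (ContinuousOn.rpow_const continuous_norm.continuousOn ?_)
    (ContinuousOn.rpow_const hu.continuousOn (fun x _ => Or.inl (hu0 x).ne'))
  intro x hx
  exact Or.inl (norm_ne_zero_iff.2 hx)

theorem measurable_integrand {n : ℕ} {u : E n → ℝ} (hu : Continuous u) (c B q : ℝ) (x : E n) :
    Measurable fun y : E n =>
      ENNReal.ofReal (c * ‖x - y‖ ^ (2 - (n : ℝ)) * (‖y‖ ^ B * u y ^ q)) := by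
  refine Measurable.ennreal_ofReal ?_
  have h1 : Measurable fun y : E n => ‖x - y‖ := by fun_prop
  exact ((h1.pow_const _).const_mul c).mul
    ((measurable_norm.pow_const _).mul (hu.measurable.pow_const _))

theorem norm_exp_smul {n : ℕ} (a : S n) (s : ℝ) : ‖Real.exp s • (a : E n)‖ = Real.exp s := by
  rw [norm_smul, norm_eq_of_mem_sphere, mul_one, Real.norm_eq_abs, abs_of_pos (Real.exp_pos s)]

theorem toSphere_ne_zero {n : ℕ} (hn : 1 ≤ n) : (volume : Measure (E n)).toSphere ≠ 0 := by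
  have : Nonempty (Fin n) := ⟨⟨0, hn⟩⟩
  exact Measure.toSphere_ne_zero _

theorem lintegral_eq_top {n : ℕ} (hn : 1 ≤ n) {u : E n → ℝ} (hu : Continuous u) {c B q m : ℝ}
    (hc : 0 < c) (hm : 0 < m) {T : Set ℝ} (hT : MeasurableSet T) (hT' : volume T = ∞)
    (h : ∀ s ∈ T, ∀ θ : S n, m ≤ Real.exp ((2 + B) * s) * u (Real.exp s • (θ : E n)) ^ q) :
    ∫⁻ y : E n, ENNReal.ofReal (c * ‖0 - y‖ ^ (2 - (n : ℝ)) * (‖y‖ ^ B * u y ^ q)) = ∞ := by
  rw [lintegral_polar hn _ (measurable_integrand hu c B q 0)]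
  have h1 : ∀ θ : S n, ∫⁻ s : ℝ, ENNReal.ofReal (c * ‖0 - Real.exp s • (θ : E n)‖ ^ (2 - (n : ℝ)) *
      (‖Real.exp s • (θ : E n)‖ ^ B * u (Real.exp s • (θ : E n)) ^ q)) *
      ENNReal.ofReal (Real.exp (n * s)) = ∞ := by
    intro θ
    refine top_unique (le_trans ?_ (setLIntegral_le_lintegral T _))
    have h2 : ∫⁻ _ in T, ENNReal.ofReal (c * m) = ∞ := by
      rw [setLIntegral_const, hT', ENNReal.mul_top]
      exact (ENNReal.ofReal_pos.2 (mul_pos hc hm)).ne'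
    rw [← h2]
    refine setLIntegral_mono' hT fun s hs => ?_
    rw [← ENNReal.ofReal_mul' (Real.exp_pos _).le]
    refine ENNReal.ofReal_le_ofReal ?_
    rw [zero_sub, norm_neg, norm_exp_smul, ← Real.exp_mul, ← Real.exp_mul]
    have h3 : Real.exp (s * (2 - n)) * Real.exp (s * B) * Real.exp (n * s) =
        Real.exp ((2 + B) * s) := by
      rw [← Real.exp_add, ← Real.exp_add]
      congr 1
      ring
    calc c * m ≤ c * (Real.exp ((2 + B) * s) * u (Real.exp s • (θ : E n)) ^ q) := by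
          gcongr; exact h s hs θ
      _ = _ := by rw [← h3]; ring
  simp only [h1, lintegral_const]
  exact ENNReal.top_mul (Measure.measure_univ_ne_zero.2 (toSphere_ne_zero hn))

theorem neg_two_lt {n : ℕ} (hn : 1 ≤ n) {u : E n → ℝ} (hu : Continuous u) (hu0 : ∀ x, 0 < u x)
    {c B q : ℝ} (hc : 0 < c) (hq : 0 < q)
    (h : ∫⁻ y : E n, ENNReal.ofReal (c * ‖0 - y‖ ^ (2 - (n : ℝ)) * (‖y‖ ^ B * u y ^ q)) ≠ ∞) :
    -2 < B := by
  by_contra hB
  push Not at hB
  obtain ⟨x₀, -, hx₀⟩ := (isCompact_closedBall (0 : E n) 1).exists_isMinOn ⟨0, by simp⟩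
    hu.continuousOn
  refine h (lintegral_eq_top hn hu hc (Real.rpow_pos_of_pos (hu0 x₀) q) (T := Iic 0)
    measurableSet_Iic (by simp) fun s hs θ => ?_)
  have h1 : 1 ≤ Real.exp ((2 + B) * s) :=
    Real.one_le_exp (mul_nonneg_of_nonpos_of_nonpos (by linarith) hs)
  have h2 : u x₀ ≤ u (Real.exp s • (θ : E n)) := hx₀ (by
    rw [mem_closedBall_zero_iff, norm_exp_smul]
    exact Real.exp_le_one_iff.2 hs)
  have h3 := Real.rpow_le_rpow (hu0 x₀).le h2 hq.le
  have h4 := Real.rpow_pos_of_pos (hu0 x₀) q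
  nlinarith

theorem no_lower_bound {n : ℕ} (hn : 1 ≤ n) {u : E n → ℝ} (hu : Continuous u)
    {c B q m : ℝ} (hc : 0 < c) (hq : 0 < q) (hB : -2 < B) (hm : 0 < m) (hum : ∀ x, m ≤ u x)
    (h : ∫⁻ y : E n, ENNReal.ofReal (c * ‖0 - y‖ ^ (2 - (n : ℝ)) * (‖y‖ ^ B * u y ^ q)) ≠ ∞) :
    False := by
  refine h (lintegral_eq_top hn hu hc (Real.rpow_pos_of_pos hm q) (T := Ici 0)
    measurableSet_Ici (by simp) fun s hs θ => ?_)
  have h1 : 1 ≤ Real.exp ((2 + B) * s) := Real.one_le_exp (mul_nonneg (by linarith) hs)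
  have h3 := Real.rpow_le_rpow hm.le (hum (Real.exp s • (θ : E n))) hq.le
  have h4 := Real.rpow_pos_of_pos hm q
  nlinarith

/-- The transported function on the cylinder. -/
noncomputable def cyl {n : ℕ} (ν : ℝ) (v : E n → ℝ) (x : S n × ℝ) : ℝ :=
  Real.exp (ν * x.2) * v (Real.exp x.2 • (x.1 : E n))

theorem half {n : ℕ} (hn : 1 ≤ n) {ν : ℝ} (hν : 0 ≤ ν) (hνn : 2 * ν ≤ n) (hνe : n = 2 * ν + 2)
    {c : ℝ} (hc : 0 < c) {q B : ℝ} (hq : 0 < q) (hB : -2 < B) {u v : E n → ℝ} (hu : Continuous u)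
    (hv : Continuous v) (hv2 : ContDiffOn ℝ 2 v {0}ᶜ) (hu0 : ∀ x, 0 < u x) (hv0 : ∀ x, 0 < v x)
    (hrep : ∀ x, ENNReal.ofReal (v x) =
      ∫⁻ y, ENNReal.ofReal (c * ‖x - y‖ ^ (2 - (n : ℝ)) * (‖y‖ ^ B * u y ^ q))) :
    Half (volume : Measure (E n)).toSphere (kern n hν hνn hc) q (ν + 2 + B - q * ν)
      (cyl ν u) (cyl ν v) where
  q_pos := hq
  gam := by linarith
  cont := by unfold cyl; fun_prop
  pos x := mul_pos (Real.exp_pos _) (hv0 _)
  diff := by
    have hne : ∀ x : S n × ℝ, Real.exp x.2 • (x.1 : E n) ∈ ({0}ᶜ : Set (E n)) := fun x => by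
      rw [mem_compl_singleton_iff, ← norm_ne_zero_iff, norm_exp_smul]
      exact (Real.exp_pos _).ne'
    have hcont : Continuous fun x : S n × ℝ => Real.exp x.2 • (x.1 : E n) := by fun_prop
    refine ⟨fun x => ν * cyl ν v x + Real.exp (ν * x.2) *
      fderiv ℝ v (Real.exp x.2 • (x.1 : E n)) (Real.exp x.2 • (x.1 : E n)), ?_, fun a s => ?_⟩
    · have h1 : Continuous fun x : S n × ℝ => fderiv ℝ v (Real.exp x.2 • (x.1 : E n)) :=
        (hv2.continuousOn_fderiv_of_isOpen isOpen_compl_singleton (by norm_num)).comp_continuous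
          hcont hne
      have h2 : Continuous (cyl ν v) := by unfold cyl; fun_prop
      exact (continuous_const.mul h2).add ((by fun_prop : Continuous fun x : S n × ℝ =>
        Real.exp (ν * x.2)).mul (h1.clm_apply hcont))
    · have h1 : HasDerivAt (fun t => Real.exp t • (a : E n)) (Real.exp s • (a : E n)) s :=
        (Real.hasDerivAt_exp s).smul_const _
      have h2 : DifferentiableAt ℝ v (Real.exp s • (a : E n)) :=
        (hv2.differentiableOn (by norm_num)).differentiableAt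
          (isOpen_compl_singleton.mem_nhds (hne (a, s)))
      have h3 := h2.hasFDerivAt.comp_hasDerivAt s h1
      have h4 : HasDerivAt (fun t => Real.exp (ν * t)) (Real.exp (ν * s) * ν) s := by
        simpa using ((hasDerivAt_id s).const_mul ν).exp
      refine (h4.mul h3).congr_deriv ?_
      simp only [cyl, Function.comp]
      ring
  bound := by
    obtain ⟨M, hM⟩ := (isCompact_closedBall (0 : E n) (Real.exp 1)).exists_bound_of_continuousOn
      hv.continuousOn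
    refine ⟨M, fun a s hs => ?_⟩
    rw [cyl, mul_comm]
    gcongr
    refine (le_abs_self _).trans (hM _ ?_)
    rw [mem_closedBall_zero_iff, norm_exp_smul]
    exact Real.exp_le_exp.2 hs
  rep a s := by
    rw [cyl, ENNReal.ofReal_mul (Real.exp_pos _).le, hrep,
      lintegral_polar hn _ (measurable_integrand hu c B q _),
      ← lintegral_const_mul' _ _ ENNReal.ofReal_ne_top]
    refine lintegral_congr fun b => ?_
    rw [← lintegral_const_mul' _ _ ENNReal.ofReal_ne_top]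
    refine lintegral_congr_ae ?_
    filter_upwards [(Set.countable_singleton s).ae_notMem volume] with t ht
    have hD : 0 < D a b (s - t) := D_pos a b (sub_ne_zero.2 (Ne.symm ht))
    have h1 : ‖Real.exp s • (a : E n) - Real.exp t • (b : E n)‖ ^ (2 - (n : ℝ)) =
        Real.exp ((s + t) * -ν) * D a b (s - t) ^ (-ν) := by
      have : (2 - (n : ℝ)) = ((2 : ℕ) : ℝ) * -ν := by push_cast; linarith
      rw [this, Real.rpow_mul (norm_nonneg _), Real.rpow_natCast, norm_sub_sq,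
        Real.mul_rpow (Real.exp_pos _).le hD.le, ← Real.exp_mul]
    simp only [kern, cyl]
    rw [h1, ENNReal.ofReal_rpow_of_pos hD, ← ENNReal.ofReal_mul hc.le,
      ← ENNReal.ofReal_mul' (Real.exp_pos _).le, ← ENNReal.ofReal_mul (Real.exp_pos _).le,
      ← ENNReal.ofReal_mul (by positivity), norm_exp_smul,
      Real.mul_rpow (Real.exp_pos _).le (hu0 _).le, ← Real.exp_mul, ← Real.exp_mul]
    congr 1
    have h3 : Real.exp (ν * s) * Real.exp ((s + t) * -ν) * Real.exp (t * B) * Real.exp (n * t) =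
        Real.exp ((ν + 2 + B - q * ν) * t) * Real.exp (ν * t * q) := by
      simp only [← Real.exp_add]
      congr 1
      rw [hνe]
      ring
    linear_combination (c * D a b (s - t) ^ (-ν) * u (Real.exp t • (b : E n)) ^ q) * h3

end Reduce

open Reduce in
/-- The case `n ≥ 3`, from the Riesz representation and the cylinder theorem. -/
theorem dim_ge3_of (n : ℕ) (hn : 3 ≤ n)
    (hrepr : ∃ c : ℝ, 0 < c ∧
      ∀ w φ : EuclideanSpace ℝ (Fin n) → ℝ, Continuous w → ContDiffOn ℝ 2 w {0}ᶜ → (∀ x, 0 ≤ w x) →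
        ContinuousOn φ {0}ᶜ → (∀ x, x ≠ 0 → 0 ≤ φ x) → (∀ x, x ≠ 0 → -(Δ w) x = φ x) →
        ∃ h : ℝ, 0 ≤ h ∧ ∀ x, ENNReal.ofReal (w x) =
          ENNReal.ofReal h + ∫⁻ y, ENNReal.ofReal (c * ‖x - y‖ ^ (2 - (n : ℝ)) * φ y))
    (hcore : ∀ (μ : Measure (sphere (0 : EuclideanSpace ℝ (Fin n)) 1)) [IsFiniteMeasure μ],
      μ ≠ 0 → ∀ {ν : ℝ}, 0 < ν → ∀ (K : Kern (sphere (0 : EuclideanSpace ℝ (Fin n)) 1) ν)
        (p q γ₁ γ₂ : ℝ) (U V : sphere (0 : EuclideanSpace ℝ (Fin n)) 1 × ℝ → ℝ),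
        Half μ K q γ₂ U V → Half μ K p γ₁ V U → 0 < γ₁ / (p + 1) + γ₂ / (q + 1) → False)
    (p q A B : ℝ) (hp : 0 < p) (hq : 0 < q)
    (hsub : (n : ℝ) - 2 < ((n : ℝ) + A) / (p + 1) + ((n : ℝ) + B) / (q + 1))
    (u v : EuclideanSpace ℝ (Fin n) → ℝ) (hu : Continuous u) (hv : Continuous v)
    (hu2 : ContDiffOn ℝ 2 u {0}ᶜ) (hv2 : ContDiffOn ℝ 2 v {0}ᶜ)
    (hu0 : ∀ x, 0 < u x) (hv0 : ∀ x, 0 < v x)
    (heq : ∀ x, x ≠ 0 → -(Δ u) x = ‖x‖ ^ A * v x ^ p ∧ -(Δ v) x = ‖x‖ ^ B * u x ^ q) : False := by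
  obtain ⟨c, hc, hrepr⟩ := hrepr
  have hn1 : 1 ≤ n := by omega
  have hn' : (3 : ℝ) ≤ n := by exact_mod_cast hn
  obtain ⟨h₁, hh₁, r₁⟩ := hrepr u (fun x => ‖x‖ ^ A * v x ^ p) hu hu2 (fun x => (hu0 x).le)
    (continuousOn_rhs hv hv0 A p) (fun x _ => by have := hv0 x; positivity)
    (fun x hx => (heq x hx).1)
  obtain ⟨h₂, hh₂, r₂⟩ := hrepr v (fun x => ‖x‖ ^ B * u x ^ q) hv hv2 (fun x => (hv0 x).le)
    (continuousOn_rhs hu hu0 B q) (fun x _ => by have := hu0 x; positivity)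
    (fun x hx => (heq x hx).2)
  have f₁ := (ENNReal.add_ne_top.1 ((r₁ 0).symm ▸ ENNReal.ofReal_ne_top)).2
  have f₂ := (ENNReal.add_ne_top.1 ((r₂ 0).symm ▸ ENNReal.ofReal_ne_top)).2
  have hA := neg_two_lt hn1 hv hv0 hc hp f₁
  have hB := neg_two_lt hn1 hu hu0 hc hq f₂
  have z₁ : h₁ = 0 := by
    by_contra h
    refine no_lower_bound hn1 hu hc hq hB (lt_of_le_of_ne hh₁ (Ne.symm h)) (fun x => ?_) f₂
    rw [← ENNReal.ofReal_le_ofReal_iff (hu0 x).le, r₁ x]
    exact le_self_add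
  have z₂ : h₂ = 0 := by
    by_contra h
    refine no_lower_bound hn1 hv hc hp hA (lt_of_le_of_ne hh₂ (Ne.symm h)) (fun x => ?_) f₁
    rw [← ENNReal.ofReal_le_ofReal_iff (hv0 x).le, r₂ x]
    exact le_self_add
  simp only [z₁, z₂, ENNReal.ofReal_zero, zero_add] at r₁ r₂
  have hν : 0 < ((n : ℝ) - 2) / 2 := by linarith
  have hνn : 2 * (((n : ℝ) - 2) / 2) ≤ n := by linarith
  have hνe : (n : ℝ) = 2 * (((n : ℝ) - 2) / 2) + 2 := by ring
  refine hcore _ (toSphere_ne_zero hn1) hν (kern n hν.le hνn hc) p q _ _ _ _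
    (half hn1 hν.le hνn hνe hc hq hB hu hv hv2 hu0 hv0 r₂)
    (half hn1 hν.le hνn hνe hc hp hA hv hu hu2 hv0 hu0 r₁) ?_
  have e : ∀ X r : ℝ, 0 < r → (((n : ℝ) - 2) / 2 + 2 + X - r * (((n : ℝ) - 2) / 2)) / (r + 1) =
      ((n : ℝ) + X) / (r + 1) - ((n : ℝ) - 2) / 2 := by
    intro X r hr
    field_simp
    ring
  rw [e A p hp, e B q hq]
  linarith

end Crest.Agent.R77
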