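import Crest.Agent.R77.Green

/-! The origin is a removable singularity in dimension `≥ 3`. -/

set_option autoImplicit false

open MeasureTheory Laplacian InnerProductSpace Metric Set Filter
open scoped ENNReal Topology RealInnerProductSpace

namespace Crest.Agent.R77

namespace Removable

variable {E : Type*} [NormedAddCommGroup E] [InnerProductSpace ℝ E] [FiniteDimensional ℝ E]

theorem abs_laplacian_le (f : E → ℝ) (x : E) :
    |(Δ f) x| ≤ Module.finrank ℝ E * ‖iteratedFDeriv ℝ 2 f x‖ := by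
  rw [laplacian_eq_iteratedFDeriv_stdOrthonormalBasis]
  refine (Finset.abs_sum_le_sum_abs _ _).trans ?_
  refine (Finset.sum_le_card_nsmul _ _ ‖iteratedFDeriv ℝ 2 f x‖ fun i _ => ?_).trans (by simp)
  have := (iteratedFDeriv ℝ 2 f x).le_opNorm
    ![stdOrthonormalBasis ℝ E i, stdOrthonormalBasis ℝ E i]
  simpa using this

omit [FiniteDimensional ℝ E] in
theorem exists_bound {f : E → ℝ} (hf : ContDiff ℝ 2 f) (hc : HasCompactSupport f) :
    ∃ C : ℝ, 0 ≤ C ∧ ∀ i ≤ 2, ∀ x, ‖iteratedFDeriv ℝ i f x‖ ≤ C := by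
  have : ∀ i : ℕ, i ≤ 2 → ∃ C : ℝ, ∀ x, ‖iteratedFDeriv ℝ i f x‖ ≤ C := fun i hi =>
    (hf.continuous_iteratedFDeriv (by exact_mod_cast hi)).bounded_above_of_compact_support
      (hc.iteratedFDeriv i)
  obtain ⟨C0, h0⟩ := this 0 (by norm_num)
  obtain ⟨C1, h1⟩ := this 1 (by norm_num)
  obtain ⟨C2, h2⟩ := this 2 (by norm_num)
  refine ⟨max C0 (max C1 C2), le_max_of_le_left ((norm_nonneg _).trans (h0 0)), fun i hi x => ?_⟩
  interval_cases i
  · exact le_max_of_le_left (h0 x)
  · exact le_max_of_le_right (le_max_of_le_left (h1 x))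
  · exact le_max_of_le_right (le_max_of_le_right (h2 x))

theorem exists_laplacian_bound {ψ η : E → ℝ} (hψ : ContDiff ℝ 2 ψ) (hc : HasCompactSupport ψ)
    (hη : ContDiff ℝ 2 η) (hηc : HasCompactSupport η) :
    ∃ C : ℝ, 0 ≤ C ∧ ∀ t : ℝ, 1 ≤ t → ∀ x, |(Δ fun y => ψ y * η (t • y)) x| ≤ C * t ^ 2 := by
  obtain ⟨C₁, hC₁, h₁⟩ := exists_bound hψ hc
  obtain ⟨C₂, hC₂, h₂⟩ := exists_bound hη hηc
  refine ⟨Module.finrank ℝ E * (4 * (C₁ * C₂)), by positivity, fun t ht x => ?_⟩
  have hηt : ContDiff ℝ 2 fun y => η (t • y) := hη.comp (contDiff_const_smul t)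
  have hb : ∀ i ≤ 2, ‖iteratedFDeriv ℝ i (fun y => η (t • y)) x‖ ≤ C₂ * t ^ 2 := fun i hi => by
    rw [iteratedFDeriv_comp_const_smul t (hη.of_le (by exact_mod_cast hi))]
    simp only [norm_smul, norm_pow, Real.norm_of_nonneg (zero_le_one.trans ht)]
    rw [mul_comm]
    exact mul_le_mul (h₂ i hi _) (pow_le_pow_right₀ ht hi) (by positivity) hC₂
  have hm := norm_iteratedFDeriv_mul_le hψ hηt x (n := 2) le_rfl
  simp only [Finset.sum_range_succ, Finset.range_zero, Finset.sum_empty] at hm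
  norm_num at hm
  refine (abs_laplacian_le _ x).trans ?_
  rw [mul_assoc]
  refine mul_le_mul_of_nonneg_left (hm.trans ?_) (by positivity)
  have a0 := h₁ 0 (by norm_num) x
  have a1 := h₁ 1 (by norm_num) x
  have a2 := h₁ 2 (by norm_num) x
  have b0 := hb (2 - 2) (by norm_num)
  have b1 := hb (2 - 1) (by norm_num)
  have b2 := hb (2 - 0) (by norm_num)
  simp only [norm_iteratedFDeriv_zero, norm_iteratedFDeriv_one, Real.norm_eq_abs] at a0 a1
  have c0 := mul_le_mul a0 b2 (norm_nonneg _) hC₁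
  have c1 := mul_le_mul a1 b1 (norm_nonneg _) hC₁
  have c2 := mul_le_mul a2 b0 (norm_nonneg _) hC₁
  nlinarith

variable [MeasurableSpace E] [BorelSpace E]

theorem tendsto_error (hn : 3 ≤ Module.finrank ℝ E) {w ψ : E → ℝ} (hw : Continuous w)
    (hψ : ContDiff ℝ 2 ψ) (hc : HasCompactSupport ψ) (η : ContDiffBump (0 : E)) :
    Tendsto (fun t : ℝ => ∫ x, w x * (Δ fun y => ψ y * η (t • y)) x) atTop (𝓝 0) := by
  obtain ⟨C, hC, hb⟩ := exists_laplacian_bound hψ hc (η.contDiff (n := 2)) η.hasCompactSupport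
  obtain ⟨M, hM⟩ := (isCompact_closedBall (0 : E) η.rOut).exists_bound_of_continuousOn
    hw.continuousOn
  have hM0 : 0 ≤ M := (norm_nonneg _).trans (hM 0 (mem_closedBall_self η.rOut_pos.le))
  set V := volume.real (closedBall (0 : E) η.rOut)
  have hlim : Tendsto (fun t : ℝ => M * C * V * t⁻¹) atTop (𝓝 0) := by
    simpa using tendsto_inv_atTop_zero.const_mul (M * C * V)
  refine squeeze_zero_norm' ?_ hlim
  filter_upwards [eventually_ge_atTop 1] with t ht
  have ht0 : 0 < t := zero_lt_one.trans_le ht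
  have hsupp : ∀ x, x ∉ closedBall (0 : E) (t⁻¹ * η.rOut) →
      w x * (Δ fun y => ψ y * η (t • y)) x = 0 := by
    intro x hx
    have : x ∉ tsupport fun y => ψ y * η (t • y) := by
      intro h
      refine hx (closure_minimal (fun y hy => ?_) isClosed_closedBall h)
      have h1 : t • y ∈ Function.support η := right_ne_zero_of_mul hy
      rw [η.support_eq, mem_ball_zero_iff, norm_smul, Real.norm_of_nonneg ht0.le] at h1
      rw [mem_closedBall_zero_iff, le_inv_mul_iff₀ ht0]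
      exact h1.le
    rw [image_eq_zero_of_notMem_tsupport fun h => this (Green.tsupport_laplacian_subset _ h),
      mul_zero]
  rw [← setIntegral_eq_integral_of_forall_compl_eq_zero hsupp]
  have hsub : closedBall (0 : E) (t⁻¹ * η.rOut) ⊆ closedBall 0 η.rOut :=
    closedBall_subset_closedBall
      (mul_le_of_le_one_left η.rOut_pos.le (inv_le_one_of_one_le₀ ht))
  refine (norm_setIntegral_le_of_norm_le_const (C := M * (C * t ^ 2))
    measure_closedBall_lt_top fun x hx => ?_).trans ?_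
  · rw [norm_mul]
    exact mul_le_mul (hM x (hsub hx)) (hb t ht x) (norm_nonneg _) hM0
  · have hV : volume.real (closedBall (0 : E) (t⁻¹ * η.rOut)) =
        t⁻¹ ^ Module.finrank ℝ E * V := by
      simp only [V, Measure.real]
      rw [Measure.addHaar_closedBall_mul_of_pos _ _ (inv_pos.2 ht0), ENNReal.toReal_mul,
        ENNReal.toReal_ofReal (by positivity)]
    rw [hV]
    have h3 : t⁻¹ ^ Module.finrank ℝ E ≤ t⁻¹ ^ 3 :=
      pow_le_pow_of_le_one (by positivity) (inv_le_one_of_one_le₀ ht) hn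
    have hV0 : 0 ≤ V := measureReal_nonneg
    calc M * (C * t ^ 2) * (t⁻¹ ^ Module.finrank ℝ E * V)
        ≤ M * (C * t ^ 2) * (t⁻¹ ^ 3 * V) := by gcongr
      _ = M * C * V * t⁻¹ := by field_simp

theorem removable (hn : 3 ≤ Module.finrank ℝ E) {w φ ψ : E → ℝ} (hw : Continuous w)
    (hw2 : ContDiffOn ℝ 2 w {0}ᶜ) (hφ : ContinuousOn φ {0}ᶜ) (hφ0 : ∀ x, x ≠ 0 → 0 ≤ φ x)
    (heq : ∀ x, x ≠ 0 → -(Δ w) x = φ x)
    (hψ : ContDiff ℝ 2 ψ) (hc : HasCompactSupport ψ) (hψ0 : ∀ x, 0 ≤ ψ x) :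
    Integrable (fun x => ψ x * φ x) ∧ ∫ x, ψ x * φ x = -∫ x, w x * (Δ ψ) x := by
  have : Nontrivial E := Module.nontrivial_of_finrank_pos (R := ℝ) (by omega)
  let η : ContDiffBump (0 : E) := ⟨1, 2, one_pos, one_lt_two⟩
  let ψ' : ℕ → E → ℝ := fun k y => ψ y - ψ y * η (((k : ℝ) + 1) • y)
  have hηt : ∀ t : ℝ, ContDiff ℝ 2 fun y => ψ y * η (t • y) := fun t =>
    hψ.mul ((η.contDiff (n := 2)).comp (contDiff_const_smul t))
  have hψ' : ∀ k, ContDiff ℝ 2 (ψ' k) := fun k => hψ.sub (hηt _)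
  have hc' : ∀ k, HasCompactSupport (ψ' k) := fun k => hc.sub hc.mul_right
  have hs' : ∀ k, tsupport (ψ' k) ⊆ {0}ᶜ := fun k => by
    rw [subset_compl_singleton_iff, notMem_tsupport_iff_eventuallyEq]
    have h1 : Tendsto (fun y : E => ((k : ℝ) + 1) • y) (𝓝 0) (𝓝 0) := by
      simpa using (continuous_const_smul ((k : ℝ) + 1)).tendsto (0 : E)
    filter_upwards [h1.eventually η.eventuallyEq_one] with y hy
    simp [ψ', hy]
  have hle : ∀ k y, 0 ≤ ψ' k y ∧ ψ' k y ≤ ψ y := fun k y => by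
    have h1 := η.nonneg (x := ((k : ℝ) + 1) • y)
    have h2 := η.le_one (x := ((k : ℝ) + 1) • y)
    have h3 := hψ0 y
    simp only [ψ']
    constructor <;> nlinarith
  have hae : ∀ᵐ x : E, x ≠ 0 := Measure.ae_ne volume 0
  have hpt : ∀ y : E, y ≠ 0 → Tendsto (fun k => ψ' k y * φ y) atTop (𝓝 (ψ y * φ y)) := by
    intro y hy
    refine tendsto_const_nhds.congr' ?_
    have h1 : Tendsto (fun k : ℕ => ((k : ℝ) + 1) * ‖y‖) atTop atTop :=
      (tendsto_atTop_add_const_right _ 1 tendsto_natCast_atTop_atTop).atTop_mul_const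
        (norm_pos_iff.2 hy)
    filter_upwards [h1.eventually_ge_atTop 2] with k hk
    have : η (((k : ℝ) + 1) • y) = 0 := by
      refine η.zero_of_le_dist ?_
      rw [dist_zero_right, norm_smul, Real.norm_of_nonneg (by positivity)]
      exact hk
    simp [ψ', this]
  have hint : ∀ k, Integrable fun x => ψ' k x * φ x := fun k => by
    simpa only [mul_comm] using Green.integrable_mul_of_tsupport isOpen_compl_singleton hφ
      (hψ' k).continuous (hc' k) (hs' k)
  have hJ : ∀ k, ∫ x, ψ' k x * φ x =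
      -(∫ x, w x * (Δ ψ) x) +
        ∫ x, w x * (Δ fun y => ψ y * η (((k : ℝ) + 1) • y)) x := fun k => by
    have h1 := Green.green isOpen_compl_singleton w (ψ' k) hw2 (hψ' k) (hc' k) (hs' k)
    have h2 : ∫ x, ψ' k x * φ x = -∫ x, ψ' k x * (Δ w) x := by
      rw [← integral_neg]
      refine integral_congr_ae (hae.mono fun x hx => ?_)
      simp only [← heq x hx]
      ring
    have h3 : ∀ x, w x * (Δ (ψ' k)) x =
        w x * (Δ ψ) x - w x * (Δ fun y => ψ y * η (((k : ℝ) + 1) • y)) x := fun x => by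
      rw [← mul_sub, ← ContDiffAt.laplacian_sub hψ.contDiffAt (hηt _).contDiffAt]
      rfl
    have hi : ∀ f : E → ℝ, ContDiff ℝ 2 f → HasCompactSupport f →
        Integrable fun x => w x * (Δ f) x := fun f hf hfc =>
      (hw.mul (Green.continuous_laplacian hf)).integrable_of_hasCompactSupport
        (HasCompactSupport.mul_left (hfc.of_isClosed_subset (isClosed_tsupport _)
          (Green.tsupport_laplacian_subset f)))
    rw [h2, ← h1]
    simp_rw [h3]
    rw [integral_sub (hi _ hψ hc) (hi _ (hηt _) hc.mul_right)]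
    ring
  have hJlim : Tendsto (fun k => ∫ x, ψ' k x * φ x) atTop (𝓝 (-∫ x, w x * (Δ ψ) x)) := by
    simp_rw [hJ]
    have := ((tendsto_error hn hw hψ hc η).comp
      (tendsto_atTop_add_const_right _ 1 tendsto_natCast_atTop_atTop)).const_add
      (-∫ x, w x * (Δ ψ) x)
    simpa using this
  have hφm : AEStronglyMeasurable φ volume := by
    have := hφ.aestronglyMeasurable (μ := volume) (measurableSet_singleton 0).compl
    rwa [Measure.restrict_eq_self_of_ae_mem (s := {0}ᶜ) hae] at this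
  have hm : AEStronglyMeasurable (fun x => ψ x * φ x) volume :=
    hψ.continuous.aestronglyMeasurable.mul hφm
  have hnn : ∀ᵐ x : E, 0 ≤ ψ x * φ x := hae.mono fun x hx => mul_nonneg (hψ0 x) (hφ0 x hx)
  have hnn' : ∀ k, ∀ᵐ x : E, 0 ≤ ψ' k x * φ x := fun k =>
    hae.mono fun x hx => mul_nonneg (hle k x).1 (hφ0 x hx)
  have hI : Integrable fun x => ψ x * φ x := by
    refine ⟨hm, (hasFiniteIntegral_iff_ofReal hnn).2 ?_⟩
    have h1 := lintegral_liminf_le' (μ := volume) (u := atTop)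
      (f := fun (k : ℕ) x => ENNReal.ofReal (ψ' k x * φ x))
      fun k => (hint k).aestronglyMeasurable.aemeasurable.ennreal_ofReal
    have h2 : ∫⁻ x, ENNReal.ofReal (ψ x * φ x) =
        ∫⁻ x, liminf (fun k : ℕ => ENNReal.ofReal (ψ' k x * φ x)) atTop :=
      lintegral_congr_ae (hae.mono fun x hx =>
        (ENNReal.tendsto_ofReal (hpt x hx)).liminf_eq.symm)
    have h3 : Tendsto (fun k : ℕ => ∫⁻ x, ENNReal.ofReal (ψ' k x * φ x)) atTop
        (𝓝 (ENNReal.ofReal (-∫ x, w x * (Δ ψ) x))) := by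
      refine (ENNReal.tendsto_ofReal hJlim).congr fun k => ?_
      exact ofReal_integral_eq_lintegral_ofReal (hint k) (hnn' k)
    rw [h2]
    exact h1.trans_lt (h3.liminf_eq ▸ ENNReal.ofReal_lt_top)
  refine ⟨hI, tendsto_nhds_unique ?_ hJlim⟩
  refine tendsto_integral_of_dominated_convergence (fun x => ψ x * φ x)
    (fun k => (hint k).aestronglyMeasurable) hI (fun k => hae.mono fun x hx => ?_)
    (hae.mono hpt)
  rw [Real.norm_of_nonneg (mul_nonneg (hle k x).1 (hφ0 x hx))]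
  exact mul_le_mul_of_nonneg_right (hle k x).2 (hφ0 x hx)

end Removable

end Crest.Agent.R77
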