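import Mathlib

/-! The regularised fundamental solution: `t ^ (-ν)` cut off by its second Taylor polynomial. -/

set_option autoImplicit false

open Set Filter
open scoped Topology

namespace Crest.Agent.R77.Repr

theorem hasDerivAt_ite {f g f' g' : ℝ → ℝ} {a : ℝ} (hf : ∀ t, t ≤ a → HasDerivAt f (f' t) t)
    (hg : ∀ t, a ≤ t → HasDerivAt g (g' t) t) (h0 : f a = g a) (h1 : f' a = g' a) (t : ℝ) :
    HasDerivAt (fun t => if t ≤ a then f t else g t) (if t ≤ a then f' t else g' t) t := by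
  rcases lt_trichotomy t a with h | rfl | h
  · rw [if_pos h.le]
    refine (hf t h.le).congr_of_eventuallyEq ?_
    filter_upwards [Iio_mem_nhds h] with s hs
    exact if_pos (le_of_lt hs)
  · rw [if_pos le_rfl, ← hasDerivWithinAt_univ, ← Iic_union_Ici (a := t)]
    refine HasDerivWithinAt.union ?_ ?_
    · exact (hf t le_rfl).hasDerivWithinAt.congr (fun s hs => if_pos hs) (if_pos le_rfl)
    · rw [h1]
      refine (hg t le_rfl).hasDerivWithinAt.congr (fun s hs => ?_) (by rw [if_pos le_rfl, h0])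
      split_ifs with hs'
      · rw [le_antisymm hs' hs, h0]
      · rfl
  · rw [if_neg (not_le.2 h)]
    refine (hg t h.le).congr_of_eventuallyEq ?_
    filter_upwards [Ioi_mem_nhds h] with s hs
    exact if_neg (not_le.2 hs)

/-- second Taylor polynomial of `t ^ (-ν)` at `m` -/
noncomputable def tay (ν m t : ℝ) : ℝ :=
  m ^ (-ν) - ν * m ^ (-ν - 1) * (t - m) + ν * (ν + 1) / 2 * m ^ (-ν - 2) * (t - m) ^ 2

/-- the regularised kernel -/
noncomputable def Phi (ν a t : ℝ) : ℝ := if t ≤ a then tay ν a t else t ^ (-ν)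

/-- its first derivative -/
noncomputable def Phi1 (ν a t : ℝ) : ℝ :=
  if t ≤ a then -(ν * a ^ (-ν - 1)) + ν * (ν + 1) * a ^ (-ν - 2) * (t - a) else -ν * t ^ (-ν - 1)

/-- its second derivative -/
noncomputable def Phi2 (ν a t : ℝ) : ℝ :=
  if t ≤ a then ν * (ν + 1) * a ^ (-ν - 2) else ν * (ν + 1) * t ^ (-ν - 2)

variable {ν a : ℝ}

theorem hasDerivAt_Phi (ha : 0 < a) (t : ℝ) : HasDerivAt (Phi ν a) (Phi1 ν a t) t := by
  refine hasDerivAt_ite (f := tay ν a) (g := fun t => t ^ (-ν))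
    (f' := fun t => -(ν * a ^ (-ν - 1)) + ν * (ν + 1) * a ^ (-ν - 2) * (t - a))
    (g' := fun t => -ν * t ^ (-ν - 1)) (fun t _ => ?_) (fun t ht => ?_) (by simp [tay]) (by simp) t
  · have h1 := (hasDerivAt_id t).sub_const a
    have h2 := (((h1.const_mul (ν * a ^ (-ν - 1))).const_sub (a ^ (-ν))).add
      ((h1.pow 2).const_mul (ν * (ν + 1) / 2 * a ^ (-ν - 2))))
    refine HasDerivAt.congr_deriv (f' := _) h2 ?_
    simp only [id]
    ring
  · exact Real.hasDerivAt_rpow_const (Or.inl (ha.trans_le ht).ne')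

theorem hasDerivAt_Phi1 (ha : 0 < a) (t : ℝ) : HasDerivAt (Phi1 ν a) (Phi2 ν a t) t := by
  refine hasDerivAt_ite
    (f := fun t => -(ν * a ^ (-ν - 1)) + ν * (ν + 1) * a ^ (-ν - 2) * (t - a))
    (g := fun t => -ν * t ^ (-ν - 1)) (f' := fun _ => ν * (ν + 1) * a ^ (-ν - 2))
    (g' := fun t => ν * (ν + 1) * t ^ (-ν - 2)) (fun t _ => ?_) (fun t ht => ?_) (by simp) rfl t
  · simpa using (((hasDerivAt_id t).sub_const a).const_mul (ν * (ν + 1) * a ^ (-ν - 2))).const_add
      (-(ν * a ^ (-ν - 1)))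
  · have := (Real.hasDerivAt_rpow_const (p := -ν - 1) (Or.inl (ha.trans_le ht).ne')).const_mul (-ν)
    refine HasDerivAt.congr_deriv (f' := _) this ?_
    rw [show -ν - 1 - 1 = -ν - 2 by ring]
    ring

theorem continuous_Phi2 (ha : 0 < a) : Continuous (Phi2 ν a) := by
  have : Phi2 ν a = fun t => ν * (ν + 1) * (max t a) ^ (-ν - 2) := by
    funext t
    unfold Phi2
    split_ifs with h
    · rw [max_eq_right h]
    · rw [max_eq_left (not_le.1 h).le]
  rw [this]
  exact continuous_const.mul ((continuous_id.max continuous_const).rpow_const fun t =>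
    Or.inl (ha.trans_le (le_max_right _ _)).ne')

theorem deriv_Phi (ha : 0 < a) : deriv (Phi ν a) = Phi1 ν a :=
  funext fun t => (hasDerivAt_Phi ha t).deriv

theorem deriv_Phi1 (ha : 0 < a) : deriv (Phi1 ν a) = Phi2 ν a :=
  funext fun t => (hasDerivAt_Phi1 ha t).deriv

theorem contDiff_Phi (ha : 0 < a) : ContDiff ℝ 2 (Phi ν a) := by
  rw [show (2 : WithTop ℕ∞) = 1 + 1 from rfl, contDiff_succ_iff_deriv]
  refine ⟨fun t => (hasDerivAt_Phi ha t).differentiableAt, by simp, ?_⟩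
  rw [deriv_Phi ha, contDiff_one_iff_deriv, deriv_Phi1 ha]
  exact ⟨fun t => (hasDerivAt_Phi1 ha t).differentiableAt, continuous_Phi2 ha⟩

theorem radial_Phi (ha : 0 < a) (t : ℝ) :
    4 * t * Phi2 ν a t + 2 * (2 * ν + 2) * Phi1 ν a t =
      -(4 * ν * (ν + 1) * (ν + 2) * (a ^ (-ν - 1) * max (1 - t / a) 0)) := by
  unfold Phi1 Phi2
  split_ifs with h
  · rw [max_eq_left (by rw [sub_nonneg, div_le_one ha]; exact h),
      show -ν - 2 = -ν - 1 - 1 by ring, Real.rpow_sub_one ha.ne']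
    field_simp
    ring
  · have ht : 0 < t := ha.trans (not_le.1 h)
    rw [max_eq_right (by rw [sub_nonpos, one_le_div ha]; exact (not_le.1 h).le),
      show -ν - 2 = -ν - 1 - 1 by ring, Real.rpow_sub_one ht.ne']
    field_simp
    ring

theorem tay_anti (hν : 0 < ν) (t : ℝ) : AntitoneOn (fun m => tay ν m t) (Ioi 0) := by
  have hd : ∀ m : ℝ, 0 < m → HasDerivAt (fun m => tay ν m t)
      (-(ν * (ν + 1) * (ν + 2) / 2 * m ^ (-ν - 3) * (t - m) ^ 2)) m := by
    intro m hm
    have h0 := Real.hasDerivAt_rpow_const (x := m) (p := -ν) (Or.inl hm.ne')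
    have h1 := Real.hasDerivAt_rpow_const (x := m) (p := -ν - 1) (Or.inl hm.ne')
    have h2 := Real.hasDerivAt_rpow_const (x := m) (p := -ν - 2) (Or.inl hm.ne')
    have h3 := (hasDerivAt_id m).const_sub t
    have h := (h0.sub ((h1.const_mul ν).mul h3)).add
      ((h2.const_mul (ν * (ν + 1) / 2)).mul (h3.pow 2))
    refine HasDerivAt.congr_deriv (f' := _) h ?_
    simp only [id, Pi.pow_apply]
    rw [show -ν - 1 - 1 = -ν - 2 by ring, show -ν - 2 - 1 = -ν - 3 by ring]
    ring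
  refine antitoneOn_of_deriv_nonpos (convex_Ioi 0)
    (fun m hm => (hd m hm).continuousAt.continuousWithinAt)
    (fun m hm => (hd m (interior_subset hm)).differentiableAt.differentiableWithinAt)
    fun m hm => ?_
  have hm' : 0 < m := interior_subset hm
  rw [(hd m hm').deriv, neg_nonpos]
  positivity

theorem Phi_eq (ν a t : ℝ) : Phi ν a t = tay ν (max a t) t := by
  unfold Phi
  split_ifs with h
  · rw [max_eq_left h]
  · rw [max_eq_right (not_le.1 h).le]; simp [tay]

theorem Phi_anti (hν : 0 < ν) {a b : ℝ} (ha : 0 < a) (hab : a ≤ b) (t : ℝ) :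
    Phi ν b t ≤ Phi ν a t := by
  rw [Phi_eq, Phi_eq]
  exact tay_anti hν t (ha.trans_le (le_max_left _ _) : 0 < max a t)
    ((ha.trans_le hab).trans_le (le_max_left _ _) : 0 < max b t) (max_le_max_right _ hab)

theorem Phi_of_le {t : ℝ} (h : a ≤ t) : Phi ν a t = t ^ (-ν) := by
  rw [Phi_eq, max_eq_right h]; simp [tay]

theorem tendsto_Phi (hν : 0 < ν) (t : ℝ) : Tendsto (fun b => Phi ν b t) atTop (𝓝 0) := by
  have h1 : Tendsto (fun b : ℝ => t / b - 1) atTop (𝓝 (0 - 1)) :=
    (tendsto_const_nhds.div_atTop tendsto_id).sub_const 1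
  have h2 := (tendsto_rpow_neg_atTop hν).mul
    (((h1.const_mul ν).const_sub 1).add ((h1.pow 2).const_mul (ν * (ν + 1) / 2)))
  rw [zero_mul] at h2
  refine h2.congr' ?_
  filter_upwards [eventually_ge_atTop t, eventually_gt_atTop 0] with b hb hb0
  rw [Phi, if_pos hb, tay, show -ν - 2 = -ν - 1 - 1 by ring, Real.rpow_sub_one hb0.ne' (-ν - 1),
    Real.rpow_sub_one hb0.ne' (-ν)]
  field_simp

end Crest.Agent.R77.Repr
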