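import Crest.Agent.R77.Removable
import Crest.Agent.R77.ReprKer

/-! Riesz representation of nonnegative supersolutions in dimension `≥ 3`. -/

set_option autoImplicit false

open MeasureTheory Laplacian InnerProductSpace Metric Set Filter
open scoped ENNReal Topology RealInnerProductSpace

namespace Crest.Agent.R77

namespace Repr

variable {E : Type*} [NormedAddCommGroup E] [InnerProductSpace ℝ E] [FiniteDimensional ℝ E]
  [MeasurableSpace E] [BorelSpace E]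

/-- the averaging weight -/
noncomputable def wt (n : ℕ) (R : ℝ) (x y : E) : ℝ := (R ^ n)⁻¹ * max (1 - ‖y - x‖ ^ 2 / R ^ 2) 0

/-- weighted average of `w` around `x` at scale `R` -/
noncomputable def avg (w : E → ℝ) (R : ℝ) (x : E) : ℝ :=
  ∫ y, w y * wt (Module.finrank ℝ E) R x y

omit [InnerProductSpace ℝ E] [FiniteDimensional ℝ E] [MeasurableSpace E] [BorelSpace E] in
theorem continuous_wt (n : ℕ) (R : ℝ) (x : E) : Continuous (wt n R x) := by
  unfold wt; fun_prop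

omit [InnerProductSpace ℝ E] [FiniteDimensional ℝ E] [MeasurableSpace E] [BorelSpace E] in
theorem wt_nonneg (n : ℕ) {R : ℝ} (hR : 0 < R) (x y : E) : 0 ≤ wt n R x y := by
  unfold wt; positivity

omit [InnerProductSpace ℝ E] [FiniteDimensional ℝ E] [MeasurableSpace E] [BorelSpace E] in
theorem sq_le_of_notMem {R : ℝ} (hR : 0 < R) {x y : E} (hy : y ∉ closedBall x R) :
    R ^ 2 ≤ ‖y - x‖ ^ 2 := by
  rw [mem_closedBall, dist_eq_norm, not_le] at hy
  exact pow_le_pow_left₀ hR.le hy.le 2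

omit [MeasurableSpace E] [BorelSpace E] in
theorem hasCompactSupport_wt (n : ℕ) {R : ℝ} (hR : 0 < R) (x : E) :
    HasCompactSupport (wt n R x) := by
  refine HasCompactSupport.intro (isCompact_closedBall x R) fun y hy => ?_
  rw [wt, max_eq_right, mul_zero]
  rw [sub_nonpos, one_le_div (by positivity)]
  exact sq_le_of_notMem hR hy

theorem integrable_wt {w : E → ℝ} (hw : Continuous w) (n : ℕ) {R : ℝ} (hR : 0 < R) (x : E) :
    Integrable fun y => w y * wt n R x y :=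
  (hw.mul (continuous_wt n R x)).integrable_of_hasCompactSupport
    (hasCompactSupport_wt n hR x).mul_left

theorem avg_nonneg {w : E → ℝ} (hw0 : ∀ x, 0 ≤ w x) {R : ℝ} (hR : 0 < R) (x : E) :
    0 ≤ avg w R x :=
  integral_nonneg fun y => mul_nonneg (hw0 y) (wt_nonneg _ hR x y)

theorem avg_eq (w : E → ℝ) {R : ℝ} (hR : 0 < R) (x : E) :
    avg w R x = ∫ u, w (x + R • u) * max (1 - ‖u‖ ^ 2) 0 := by
  have h1 := Measure.integral_comp_smul_of_nonneg (volume : Measure E)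
    (fun v => w (x + v) * max (1 - ‖v‖ ^ 2 / R ^ 2) 0) R (hR := hR.le)
  have h2 : ∀ u : E, ‖R • u‖ ^ 2 / R ^ 2 = ‖u‖ ^ 2 := fun u => by
    rw [norm_smul, Real.norm_of_nonneg hR.le]; field_simp
  simp only [h2] at h1
  rw [h1, avg, ← integral_add_left_eq_self _ x, smul_eq_mul, ← integral_const_mul]
  refine integral_congr_ae (Eventually.of_forall fun v => ?_)
  simp only [wt, add_sub_cancel_left]
  ring

theorem tendsto_avg {w : E → ℝ} (hw : Continuous w) (x : E) :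
    Tendsto (fun R => avg w R x) (𝓝[>] 0) (𝓝 (w x * ∫ u : E, max (1 - ‖u‖ ^ 2) 0)) := by
  have hc : Continuous fun R : ℝ => ∫ u in closedBall (0 : E) 1,
      w (x + R • u) * max (1 - ‖u‖ ^ 2) 0 :=
    continuous_parametric_integral_of_continuous
      (f := fun (R : ℝ) (u : E) => w (x + R • u) * max (1 - ‖u‖ ^ 2) 0) (by fun_prop)
      (isCompact_closedBall 0 1)
  have hz : ∀ R : ℝ, ∫ u in closedBall (0 : E) 1, w (x + R • u) * max (1 - ‖u‖ ^ 2) 0 =
      ∫ u, w (x + R • u) * max (1 - ‖u‖ ^ 2) 0 := fun R =>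
    setIntegral_eq_integral_of_forall_compl_eq_zero fun u hu => by
      have := sq_le_of_notMem one_pos hu
      rw [max_eq_right (by simpa using this), mul_zero]
  simp_rw [hz] at hc
  have h0 := (hc.tendsto 0).mono_left (nhdsWithin_le_nhds (s := Ioi 0))
  simp only [zero_smul, add_zero, integral_const_mul] at h0
  refine h0.congr' ?_
  filter_upwards [self_mem_nhdsWithin] with R hR using (avg_eq w hR x).symm

theorem mass_pos : 0 < ∫ u : E, max (1 - ‖u‖ ^ 2) 0 := by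
  have h := hasCompactSupport_wt (E := E) 0 one_pos 0
  have e : wt 0 1 (0 : E) = fun u => max (1 - ‖u‖ ^ 2) 0 := by funext u; simp [wt]
  rw [e] at h
  exact Continuous.integral_pos_of_hasCompactSupport_nonneg_nonzero (by fun_prop) h
    (fun u => le_max_right _ _) (x := 0) (by simp)

omit [InnerProductSpace ℝ E] [FiniteDimensional ℝ E] [MeasurableSpace E] [BorelSpace E] in
theorem wt_le (n : ℕ) {η R : ℝ} (hη : 0 < η) (hR : 0 < R) {x x' : E} (hd : ‖x - x'‖ ≤ η * R)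
    (y : E) : wt n R x y ≤ (1 + η) ^ (n + 1) * wt n ((1 + η) * R) x' y := by
  have h1 : ‖y - x'‖ ≤ ‖y - x‖ + η * R :=
    (norm_sub_le_norm_sub_add_norm_sub y x x').trans (by linarith)
  have h2 : ‖y - x'‖ ^ 2 ≤ (1 + η) * (‖y - x‖ ^ 2 + η * R ^ 2) := by
    refine (pow_le_pow_left₀ (norm_nonneg _) h1 2).trans ?_
    nlinarith [mul_nonneg hη.le (sq_nonneg (‖y - x‖ - R))]
  have h3 : 1 - ‖y - x‖ ^ 2 / R ^ 2 ≤ (1 + η) * (1 - ‖y - x'‖ ^ 2 / ((1 + η) * R) ^ 2) := by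
    have : (1 + η) * (‖y - x'‖ ^ 2 / ((1 + η) * R) ^ 2) ≤ ‖y - x‖ ^ 2 / R ^ 2 + η := by
      calc (1 + η) * (‖y - x'‖ ^ 2 / ((1 + η) * R) ^ 2)
          ≤ (1 + η) * ((1 + η) * (‖y - x‖ ^ 2 + η * R ^ 2) / ((1 + η) * R) ^ 2) := by gcongr
        _ = ‖y - x‖ ^ 2 / R ^ 2 + η := by field_simp
    linarith
  have h4 : max (1 - ‖y - x‖ ^ 2 / R ^ 2) 0 ≤
      (1 + η) * max (1 - ‖y - x'‖ ^ 2 / ((1 + η) * R) ^ 2) 0 :=
    max_le (h3.trans (by gcongr; exact le_max_left _ _)) (by positivity)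
  unfold wt
  calc (R ^ n)⁻¹ * max (1 - ‖y - x‖ ^ 2 / R ^ 2) 0
      ≤ (R ^ n)⁻¹ * ((1 + η) * max (1 - ‖y - x'‖ ^ 2 / ((1 + η) * R) ^ 2) 0) := by gcongr
    _ = _ := by
      generalize max (1 - ‖y - x'‖ ^ 2 / ((1 + η) * R) ^ 2) 0 = M
      rw [mul_pow, pow_succ]; field_simp

theorem avg_le {w : E → ℝ} (hw : Continuous w) (hw0 : ∀ x, 0 ≤ w x) {η R : ℝ} (hη : 0 < η)
    (hR : 0 < R) {x x' : E} (hd : ‖x - x'‖ ≤ η * R) :
    avg w R x ≤ (1 + η) ^ (Module.finrank ℝ E + 1) * avg w ((1 + η) * R) x' := by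
  rw [avg, avg, ← integral_const_mul]
  refine integral_mono (integrable_wt hw _ hR x)
    ((integrable_wt hw _ (by positivity) x').const_mul _) fun y => ?_
  have := mul_le_mul_of_nonneg_left (wt_le (Module.finrank ℝ E) hη hR hd y) (hw0 y)
  simp only
  linarith

omit [MeasurableSpace E] [BorelSpace E] in
theorem laplacian_Phi {ν : ℝ} (hν : (Module.finrank ℝ E : ℝ) = 2 * ν + 2) {R : ℝ} (hR : 0 < R)
    (x y : E) : (Δ fun y : E => Phi ν (R ^ 2) (‖y - x‖ ^ 2)) y =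
      -(4 * ν * (ν + 1) * (ν + 2) * wt (Module.finrank ℝ E) R x y) := by
  have hR2 : 0 < R ^ 2 := by positivity
  rw [Green.radial _ x y (contDiff_Phi hR2).contDiffAt, deriv_Phi hR2, deriv_Phi1 hR2, hν,
    radial_Phi hR2, wt]
  congr 3
  rw [← Real.rpow_natCast, ← Real.rpow_mul hR.le, ← Real.rpow_natCast, ← Real.rpow_neg hR.le, hν]
  congr 1
  push_cast
  ring

theorem identity (hn : 3 ≤ Module.finrank ℝ E) {ν : ℝ} (hν : (Module.finrank ℝ E : ℝ) = 2 * ν + 2)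
    {w φ : E → ℝ} (hw : Continuous w)
    (hw2 : ContDiffOn ℝ 2 w {0}ᶜ) (hφ : ContinuousOn φ {0}ᶜ) (hφ0 : ∀ x, x ≠ 0 → 0 ≤ φ x)
    (heq : ∀ x, x ≠ 0 → -(Δ w) x = φ x) {r R : ℝ} (hr : 0 < r) (hrR : r ≤ R) (x : E) :
    Integrable (fun y => (Phi ν (r ^ 2) (‖y - x‖ ^ 2) - Phi ν (R ^ 2) (‖y - x‖ ^ 2)) * φ y) ∧
    ∫ y, (Phi ν (r ^ 2) (‖y - x‖ ^ 2) - Phi ν (R ^ 2) (‖y - x‖ ^ 2)) * φ y =
      4 * ν * (ν + 1) * (ν + 2) * (avg w r x - avg w R x) := by
  have hR : 0 < R := hr.trans_le hrR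
  have hν0 : 0 < ν := by
    have : (3 : ℝ) ≤ Module.finrank ℝ E := by exact_mod_cast hn
    linarith
  have hq : ContDiff ℝ 2 fun y : E => ‖y - x‖ ^ 2 := (contDiff_id.sub contDiff_const).norm_sq ℝ
  have hc : ∀ {r : ℝ}, 0 < r → ContDiff ℝ 2 fun y : E => Phi ν (r ^ 2) (‖y - x‖ ^ 2) :=
    fun hr => (contDiff_Phi (pow_pos hr 2)).comp hq
  have hrR2 : r ^ 2 ≤ R ^ 2 := pow_le_pow_left₀ hr.le hrR 2
  obtain ⟨h1, h2⟩ := Removable.removable hn hw hw2 hφ hφ0 heq ((hc hr).sub (hc hR))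
    (HasCompactSupport.intro (isCompact_closedBall x R) fun y hy => by
      have := sq_le_of_notMem hR hy
      rw [Phi_of_le this, Phi_of_le (hrR2.trans this), sub_self])
    (fun y => sub_nonneg.2 (Phi_anti hν0 (pow_pos hr 2) hrR2 _))
  refine ⟨h1, h2.trans ?_⟩
  rw [avg, avg, ← integral_sub (integrable_wt hw _ hr x) (integrable_wt hw _ hR x),
    ← integral_const_mul, ← integral_neg]
  refine integral_congr_ae (Eventually.of_forall fun y => ?_)
  have h3 := ContDiffAt.laplacian_sub (hc hr).contDiffAt (hc hR).contDiffAt (x := y)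
  rw [laplacian_Phi hν hr, laplacian_Phi hν hR] at h3
  have h4 : (Δ fun y : E => Phi ν (r ^ 2) (‖y - x‖ ^ 2) - Phi ν (R ^ 2) (‖y - x‖ ^ 2)) y = _ := h3
  simp only [h4]
  ring

theorem repr (hn : 3 ≤ Module.finrank ℝ E) : ∃ c : ℝ, 0 < c ∧
    ∀ w φ : E → ℝ, Continuous w → ContDiffOn ℝ 2 w {0}ᶜ → (∀ x, 0 ≤ w x) →
      ContinuousOn φ {0}ᶜ → (∀ x, x ≠ 0 → 0 ≤ φ x) → (∀ x, x ≠ 0 → -(Δ w) x = φ x) →
      ∃ h : ℝ, 0 ≤ h ∧ ∀ x, ENNReal.ofReal (w x) = ENNReal.ofReal h +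
        ∫⁻ y, ENNReal.ofReal (c * ‖x - y‖ ^ (2 - (Module.finrank ℝ E : ℝ)) * φ y) := by
  have : Nontrivial E := Module.nontrivial_of_finrank_pos (R := ℝ) (by omega)
  set ν : ℝ := (Module.finrank ℝ E : ℝ) / 2 - 1 with hνdef
  have hν : (Module.finrank ℝ E : ℝ) = 2 * ν + 2 := by rw [hνdef]; ring
  have hν0 : 0 < ν := by
    have : (3 : ℝ) ≤ Module.finrank ℝ E := by exact_mod_cast hn
    linarith
  set m := ∫ u : E, max (1 - ‖u‖ ^ 2) 0
  have hm : 0 < m := mass_pos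
  set κ := 4 * ν * (ν + 1) * (ν + 2) with hκdef
  have hκ : 0 < κ := by positivity
  refine ⟨(κ * m)⁻¹, by positivity, fun w φ hw hw2 hw0 hφ hφ0 heq => ?_⟩
  have hae : ∀ᵐ y : E, y ≠ 0 := Measure.ae_ne volume 0
  have hid := fun {r R : ℝ} (hr : 0 < r) (hrR : r ≤ R) (x : E) =>
    identity hn hν hw hw2 hφ hφ0 heq hr hrR x
  have hψ0 : ∀ {r R : ℝ}, 0 < r → r ≤ R → ∀ x : E, ∀ᵐ y : E,
      0 ≤ (Phi ν (r ^ 2) (‖y - x‖ ^ 2) - Phi ν (R ^ 2) (‖y - x‖ ^ 2)) * φ y :=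
    fun hr hrR x => hae.mono fun y hy => mul_nonneg
      (sub_nonneg.2 (Phi_anti hν0 (pow_pos hr 2) (pow_le_pow_left₀ hr.le hrR 2) _)) (hφ0 y hy)
  have hanti : ∀ {r R : ℝ}, 0 < r → r ≤ R → ∀ x : E, avg w R x ≤ avg w r x := by
    intro r R hr hrR x
    have h1 := integral_nonneg_of_ae (hψ0 hr hrR x)
    rw [(hid hr hrR x).2] at h1
    exact sub_nonneg.1 (nonneg_of_mul_nonneg_right h1 hκ |> fun h => h)
  have hlim : ∀ x : E, ∃ l : ℝ, 0 ≤ l ∧ Tendsto (fun R => avg w R x) atTop (𝓝 l) := by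
    intro x
    have hA : Antitone fun R : ℝ => avg w (max R 1) x := fun a b hab =>
      hanti (one_pos.trans_le (le_max_right _ _)) (max_le_max_right _ hab) x
    have hB : ∀ R : ℝ, 0 ≤ avg w (max R 1) x := fun R =>
      avg_nonneg hw0 (one_pos.trans_le (le_max_right _ _)) x
    have hT := tendsto_atTop_ciInf hA ⟨0, by rintro _ ⟨R, rfl⟩; exact hB R⟩
    refine ⟨_, ge_of_tendsto' hT hB, hT.congr' ?_⟩
    filter_upwards [eventually_ge_atTop 1] with R hR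
    rw [max_eq_left hR]
  choose l hl0 hl using hlim
  have hlle : ∀ x x', l x ≤ l x' := by
    intro x x'
    have h1 : ∀ η : ℝ, 0 < η → l x ≤ (1 + η) ^ (Module.finrank ℝ E + 1) * l x' := by
      intro η hη
      refine le_of_tendsto_of_tendsto (hl x)
        (((hl x').comp (tendsto_id.const_mul_atTop (by positivity : 0 < 1 + η))).const_mul _) ?_
      filter_upwards [eventually_gt_atTop 0,
        (tendsto_id.const_mul_atTop hη).eventually_ge_atTop ‖x - x'‖] with R hR hd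
      exact avg_le hw hw0 hη hR hd
    have h2 : Tendsto (fun η : ℝ => (1 + η) ^ (Module.finrank ℝ E + 1) * l x') (𝓝[>] 0)
        (𝓝 (l x')) := by
      have : Continuous fun η : ℝ => (1 + η) ^ (Module.finrank ℝ E + 1) * l x' := by fun_prop
      simpa using (this.tendsto 0).mono_left (nhdsWithin_le_nhds (s := Ioi 0))
    exact ge_of_tendsto h2 (eventually_nhdsWithin_of_forall h1)
  refine ⟨l 0 / m, div_nonneg (hl0 0) hm.le, fun x => ?_⟩
  rw [le_antisymm (hlle 0 x) (hlle x 0)]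
  let R : ℕ → ℝ := fun k => (k : ℝ) + 1
  have hR1 : ∀ k, 1 ≤ R k := fun k => by simp [R]
  have hR0 : ∀ k, 0 < R k := fun k => one_pos.trans_le (hR1 k)
  have hRm : Monotone R := fun a b hab => by simpa [R] using hab
  have hRt : Tendsto R atTop atTop := tendsto_atTop_add_const_right _ 1 tendsto_natCast_atTop_atTop
  have hr0 : ∀ k, 0 < (R k)⁻¹ := fun k => inv_pos.2 (hR0 k)
  have hrR : ∀ k, (R k)⁻¹ ≤ R k := fun k => (inv_le_one_of_one_le₀ (hR1 k)).trans (hR1 k)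
  have hrt : Tendsto (fun k => (R k)⁻¹) atTop (𝓝[>] 0) := tendsto_inv_atTop_nhdsGT_zero.comp hRt
  let F : ℕ → E → ℝ := fun k y =>
    (κ * m)⁻¹ * ((Phi ν ((R k)⁻¹ ^ 2) (‖y - x‖ ^ 2) - Phi ν (R k ^ 2) (‖y - x‖ ^ 2)) * φ y)
  have hFi : ∀ k, Integrable (F k) := fun k => (hid (hr0 k) (hrR k) x).1.const_mul _
  have hF0 : ∀ k, ∀ᵐ y, 0 ≤ F k y := fun k =>
    (hψ0 (hr0 k) (hrR k) x).mono fun y hy => mul_nonneg (by positivity) hy
  have hFe : ∀ k, ENNReal.ofReal (avg w (R k)⁻¹ x / m) =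
      ENNReal.ofReal (avg w (R k) x / m) + ∫⁻ y, ENNReal.ofReal (F k y) := fun k => by
    rw [← ofReal_integral_eq_lintegral_ofReal (hFi k) (hF0 k), ← ENNReal.ofReal_add
      (div_nonneg (avg_nonneg hw0 (hR0 k) x) hm.le) (integral_nonneg_of_ae (hF0 k))]
    congr 1
    simp only [F]
    rw [integral_const_mul, (hid (hr0 k) (hrR k) x).2, ← hκdef]
    field_simp
    ring
  have t1 : Tendsto (fun k => ENNReal.ofReal (avg w (R k)⁻¹ x / m)) atTop
      (𝓝 (ENNReal.ofReal (w x))) := by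
    have := ((tendsto_avg hw x).comp hrt).div_const m
    rw [mul_div_cancel_right₀ _ hm.ne'] at this
    exact ENNReal.tendsto_ofReal this
  have t2 : Tendsto (fun k => ENNReal.ofReal (avg w (R k) x / m)) atTop
      (𝓝 (ENNReal.ofReal (l x / m))) := ENNReal.tendsto_ofReal (((hl x).comp hRt).div_const m)
  have t3 : Tendsto (fun k => ∫⁻ y, ENNReal.ofReal (F k y)) atTop (𝓝 (∫⁻ y, ENNReal.ofReal
      ((κ * m)⁻¹ * ‖x - y‖ ^ (2 - (Module.finrank ℝ E : ℝ)) * φ y))) := by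
    refine lintegral_tendsto_of_tendsto_of_monotone
      (fun k => (hFi k).aestronglyMeasurable.aemeasurable.ennreal_ofReal)
      (hae.mono fun y hy a b hab => ENNReal.ofReal_le_ofReal ?_) ?_
    · refine mul_le_mul_of_nonneg_left (mul_le_mul_of_nonneg_right (sub_le_sub ?_ ?_) (hφ0 y hy))
        (by positivity)
      · exact Phi_anti hν0 (pow_pos (hr0 b) 2)
          (pow_le_pow_left₀ (hr0 b).le (inv_anti₀ (hR0 a) (hRm hab)) 2) _
      · exact Phi_anti hν0 (pow_pos (hR0 a) 2) (pow_le_pow_left₀ (hR0 a).le (hRm hab) 2) _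
    · filter_upwards [Measure.ae_ne volume x] with y hy
      refine ENNReal.tendsto_ofReal ?_
      rw [mul_assoc]
      refine Tendsto.const_mul _ (Tendsto.mul_const _ ?_)
      have hpos : 0 < ‖y - x‖ := norm_pos_iff.2 (sub_ne_zero.2 hy)
      have a1 : Tendsto (fun k => Phi ν ((R k)⁻¹ ^ 2) (‖y - x‖ ^ 2)) atTop
          (𝓝 (‖x - y‖ ^ (2 - (Module.finrank ℝ E : ℝ)))) := by
        refine tendsto_const_nhds.congr' ?_
        filter_upwards [(hrt.mono_right nhdsWithin_le_nhds).eventually (ge_mem_nhds hpos)]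
          with k hk
        rw [Phi_of_le (pow_le_pow_left₀ (hr0 k).le hk 2), norm_sub_rev x y, ← Real.rpow_natCast,
          ← Real.rpow_mul hpos.le, hν]
        congr 1
        push_cast
        ring
      have a2 : Tendsto (fun k => Phi ν (R k ^ 2) (‖y - x‖ ^ 2)) atTop (𝓝 0) :=
        (tendsto_Phi hν0 _).comp ((tendsto_pow_atTop two_ne_zero).comp hRt)
      simpa using a1.sub a2
  exact tendsto_nhds_unique t1 ((t2.add t3).congr fun k => (hFe k).symm)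

end Repr

/-- Riesz representation of nonnegative supersolutions, `n ≥ 3`. -/
theorem riesz_repr (n : ℕ) (hn : 3 ≤ n) : ∃ c : ℝ, 0 < c ∧
    ∀ w φ : EuclideanSpace ℝ (Fin n) → ℝ, Continuous w → ContDiffOn ℝ 2 w {0}ᶜ → (∀ x, 0 ≤ w x) →
      ContinuousOn φ {0}ᶜ → (∀ x, x ≠ 0 → 0 ≤ φ x) → (∀ x, x ≠ 0 → -(Δ w) x = φ x) →
      ∃ h : ℝ, 0 ≤ h ∧ ∀ x, ENNReal.ofReal (w x) =
        ENNReal.ofReal h + ∫⁻ y, ENNReal.ofReal (c * ‖x - y‖ ^ (2 - (n : ℝ)) * φ y) := by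
  simpa only [finrank_euclideanSpace_fin] using
    Repr.repr (E := EuclideanSpace ℝ (Fin n)) (by simpa using hn)

end Crest.Agent.R77
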